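import Mathlib

/-!
# Smooth symmetric trilinear forms
-/

namespace Vale.Agent.P287.H528

variable {V : Type*} [AddCommGroup V] [Module ℂ V]

/-- `T` is symmetric and the cubic form `T v v v` has no singular point. -/
structure IsSm (T : V →ₗ[ℂ] V →ₗ[ℂ] V →ₗ[ℂ] ℂ) : Prop where
  c12 : ∀ x y z, T x y z = T y x z
  c23 : ∀ x y z, T x y z = T x z y
  sm : ∀ v, v ≠ 0 → ∃ w, T v v w ≠ 0

variable {T : V →ₗ[ℂ] V →ₗ[ℂ] V →ₗ[ℂ] ℂ}

/-- Polarisation. -/
theorem IsSm.polar (h : IsSm T) (U : Submodule ℂ V) (hU : ∀ u ∈ U, T u u u = 0) :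
    ∀ u ∈ U, ∀ v ∈ U, ∀ w ∈ U, T u v w = 0 := by
  intro u hu v hv w hw
  have e1 := hU (u + v + w) (U.add_mem (U.add_mem hu hv) hw)
  have e2 := hU (u + v) (U.add_mem hu hv)
  have e3 := hU (u + w) (U.add_mem hu hw)
  have e4 := hU (v + w) (U.add_mem hv hw)
  have e5 := hU u hu
  have e6 := hU v hv
  have e7 := hU w hw
  simp only [map_add, LinearMap.add_apply] at e1 e2 e3 e4
  have s1 : T u w v = T u v w := h.c23 _ _ _
  have s2 : T v u w = T u v w := h.c12 _ _ _
  have s3 : T v w u = T u v w := by rw [h.c23, h.c12]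
  have s4 : T w u v = T u v w := by rw [h.c12, h.c23]
  have s5 : T w v u = T u v w := by rw [h.c12, h.c23, h.c12]
  rw [s1, s2, s3, s4, s5] at e1
  have : 6 * T u v w = 0 := by linear_combination e1 - e2 - e3 - e4 + e5 + e6 + e7
  simpa using this

/-- A binary quadratic form over `ℂ` has a nontrivial zero. -/
theorem exists_quad_zero (B : V →ₗ[ℂ] V →ₗ[ℂ] ℂ) (hB : ∀ x y, B x y = B y x) (p q : V) :
    ∃ s t : ℂ, (s ≠ 0 ∨ t ≠ 0) ∧ B (s • p + t • q) (s • p + t • q) = 0 := by
  by_cases ha : B p p = 0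
  · exact ⟨1, 0, Or.inl one_ne_zero, by simpa using ha⟩
  · obtain ⟨d, hd⟩ := IsAlgClosed.exists_pow_nat_eq ((B p q) ^ 2 - B p p * B q q) (n := 2)
      (by norm_num)
    refine ⟨d - B p q, B p p, Or.inr ha, ?_⟩
    simp only [map_add, map_smul, LinearMap.add_apply, LinearMap.smul_apply, smul_eq_mul, hB q p]
    linear_combination (B p p) * hd

/-- No hyperplane section of a smooth cubic vanishes identically. -/
theorem IsSm.false_of_hyper [FiniteDimensional ℂ V] (h : IsSm T) (hd : 3 ≤ Module.finrank ℂ V)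
    (g : V →ₗ[ℂ] ℂ) (hg : ∀ v, g v = 0 → T v v v = 0) : False := by
  have hpol := h.polar (LinearMap.ker g) (fun u hu => hg u hu)
  have h2 : 1 < Module.finrank ℂ (LinearMap.ker g) := by
    have h3 := LinearMap.finrank_range_add_finrank_ker g
    have h4 : Module.finrank ℂ (LinearMap.range g) ≤ 1 := by
      have := Submodule.finrank_le (LinearMap.range g)
      rwa [Module.finrank_self] at this
    omega
  haveI : Nontrivial (LinearMap.ker g) := Module.nontrivial_of_finrank_pos (R := ℂ) (by omega)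
  obtain ⟨p, hp⟩ := exists_ne (0 : LinearMap.ker g)
  obtain ⟨q, hpq⟩ := exists_linearIndependent_pair_of_one_lt_finrank h2 hp
  by_cases hg0 : g = 0
  · have hp' : (p : V) ≠ 0 := by simpa using hp
    obtain ⟨w, hw⟩ := h.sm p hp'
    exact hw (hpol _ p.2 _ p.2 w (by rw [hg0]; rfl))
  · obtain ⟨e, he⟩ : ∃ e, g e ≠ 0 := by
      by_contra hcon
      push Not at hcon
      exact hg0 (LinearMap.ext hcon)
    let B : V →ₗ[ℂ] V →ₗ[ℂ] ℂ := T e
    obtain ⟨s, t, hst, hz⟩ := exists_quad_zero B (fun x y => h.c23 _ _ _) (p : V) (q : V)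
    set w0 : V := s • (p : V) + t • (q : V) with hw0
    have hw0k : w0 ∈ LinearMap.ker g :=
      Submodule.add_mem _ (Submodule.smul_mem _ _ p.2) (Submodule.smul_mem _ _ q.2)
    have hw0n : w0 ≠ 0 := by
      intro h0
      rw [LinearIndependent.pair_iff] at hpq
      have := hpq s t (by
        apply Subtype.ext
        simpa using h0)
      rcases hst with h1 | h1
      · exact h1 this.1
      · exact h1 this.2
    obtain ⟨w, hw⟩ := h.sm w0 hw0n
    apply hw
    have hdec : w = (g w / g e) • e + (w - (g w / g e) • e) := by abel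
    have hk : w - (g w / g e) • e ∈ LinearMap.ker g := by
      rw [LinearMap.mem_ker, map_sub, map_smul, smul_eq_mul, div_mul_cancel₀ _ he, sub_self]
    rw [hdec, map_add, map_smul, hpol _ hw0k _ hw0k _ hk]
    have : T w0 w0 e = 0 := by
      rw [h.c23, h.c12]
      exact hz
    rw [this]
    simp

end Vale.Agent.P287.H528
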