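import Mathlib
import Vale.Agent.P287.H528.Sm

/-!
# Base loci of small systems of quadrics
-/

namespace Vale.Agent.P287.H528

open Module

variable {V : Type*} [AddCommGroup V] [Module ℂ V] [FiniteDimensional ℂ V]

omit [FiniteDimensional ℂ V] in
/-- A quadratic form has a nontrivial zero on every subspace of dimension at least two. -/
theorem exists_zero_one (B : V →ₗ[ℂ] V →ₗ[ℂ] ℂ) (hB : ∀ x y, B x y = B y x)
    (W : Submodule ℂ V) (hW : 2 ≤ finrank ℂ W) : ∃ w ∈ W, w ≠ 0 ∧ B w w = 0 := by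
  have : Nontrivial W := nontrivial_of_finrank_pos (R := ℂ) (by omega)
  obtain ⟨p, hp⟩ := exists_ne (0 : W)
  obtain ⟨q, hpq⟩ := exists_linearIndependent_pair_of_one_lt_finrank (R := ℂ) (by omega) hp
  obtain ⟨s, t, hst, hz⟩ := exists_quad_zero B hB (p : V) (q : V)
  refine ⟨s • (p : V) + t • (q : V),
    W.add_mem (W.smul_mem _ p.2) (W.smul_mem _ q.2), ?_, hz⟩
  intro h0
  rw [LinearIndependent.pair_iff] at hpq
  have := hpq s t (Subtype.ext (by simpa using h0))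
  rcases hst with h1 | h1
  · exact h1 this.1
  · exact h1 this.2

/-- Two quadratic forms have a common nontrivial zero on every subspace of dimension at least
three. -/
theorem exists_zero_two (B C : V →ₗ[ℂ] V →ₗ[ℂ] ℂ) (hB : ∀ x y, B x y = B y x)
    (hC : ∀ x y, C x y = C y x) (W : Submodule ℂ V) (hW : 3 ≤ finrank ℂ W) :
    ∃ w ∈ W, w ≠ 0 ∧ B w w = 0 ∧ C w w = 0 := by
  -- first a degenerate member of the pencil
  let b : W →ₗ[ℂ] Dual ℂ W := (B.domRestrict₁₂ W W)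
  let c : W →ₗ[ℂ] Dual ℂ W := (C.domRestrict₁₂ W W)
  have hb : ∀ x y : W, b x y = B x y := fun x y => rfl
  have hc : ∀ x y : W, c x y = C x y := fun x y => rfl
  have key : ∃ (α β : ℂ) (e : W), (α ≠ 0 ∨ β ≠ 0) ∧ e ≠ 0 ∧
      ∀ y ∈ W, α * B e y + β * C e y = 0 := by
    by_cases hinj : Function.Injective c
    · have hdim : finrank ℂ W = finrank ℂ (Dual ℂ W) := (Subspace.dual_finrank_eq).symm
      let ce : W ≃ₗ[ℂ] Dual ℂ W := LinearEquiv.ofInjectiveOfFinrankEq c hinj hdim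
      have : Nontrivial W := nontrivial_of_finrank_pos (R := ℂ) (by omega)
      obtain ⟨μ, hμ⟩ := Module.End.exists_eigenvalue ((ce.symm : Dual ℂ W →ₗ[ℂ] W) ∘ₗ b)
      obtain ⟨e, he⟩ := hμ.exists_hasEigenvector
      refine ⟨1, -μ, e, Or.inl one_ne_zero, he.2, fun y hy => ?_⟩
      have h1 : ce.symm (b e) = μ • e := he.apply_eq_smul
      have h2 : b e = μ • ce e := by
        rw [← map_smul, ← h1, LinearEquiv.apply_symm_apply]
      have h3 := LinearMap.congr_fun h2 ⟨y, hy⟩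
      have h4 : ce e ⟨y, hy⟩ = C e y := rfl
      rw [hb, LinearMap.smul_apply, h4, smul_eq_mul] at h3
      simp only at h3
      linear_combination h3
    · rw [← LinearMap.ker_eq_bot, Submodule.eq_bot_iff] at hinj
      push Not at hinj
      obtain ⟨e, he, he0⟩ := hinj
      refine ⟨0, 1, e, Or.inr one_ne_zero, he0, fun y hy => ?_⟩
      have h3 := LinearMap.congr_fun (LinearMap.mem_ker.1 he) ⟨y, hy⟩
      rw [hc] at h3
      simpa using h3
  obtain ⟨α, β, e, hαβ, he0, he⟩ := key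
  let D : V →ₗ[ℂ] V →ₗ[ℂ] ℂ := α • B + β • C
  have hDs : ∀ x y, D x y = D y x := by
    intro x y
    simp [D, hB x y, hC x y]
  have hDe : ∀ y ∈ W, D e y = 0 := fun y hy => by simpa [D] using he y hy
  -- a complement of `e` in `W`
  have hes : finrank ℂ (ℂ ∙ (e : V)) = 1 := finrank_span_singleton (by simpa using he0)
  have hle : (ℂ ∙ (e : V)) ≤ W := by
    rw [Submodule.span_singleton_le_iff_mem]
    exact e.2
  obtain ⟨K, hK⟩ := Submodule.exists_isCompl (ℂ ∙ (e : V))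
  have hKW : finrank ℂ (ℂ ∙ (e : V)) + finrank ℂ (K ⊓ W : Submodule ℂ V) = finrank ℂ W := by
    have h1 := Submodule.finrank_sup_add_finrank_inf_eq (ℂ ∙ (e : V)) (K ⊓ W)
    have h2 : (ℂ ∙ (e : V)) ⊔ K ⊓ W = W := by
      rw [← sup_inf_assoc_of_le K hle, hK.sup_eq_top, top_inf_eq]
    have h3 : (ℂ ∙ (e : V)) ⊓ (K ⊓ W) = ⊥ := by
      rw [← inf_assoc, hK.inf_eq_bot, bot_inf_eq]
    rw [h2, h3, finrank_bot] at h1
    omega
  obtain ⟨r, hr, hr0, hrD⟩ := exists_zero_one D hDs (K ⊓ W) (by omega)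
  -- on the span of `e` and `r` the form `D` vanishes
  have hspan : 2 ≤ finrank ℂ ((ℂ ∙ (e : V)) ⊔ (ℂ ∙ r) : Submodule ℂ V) := by
    have h1 := Submodule.finrank_sup_add_finrank_inf_eq (ℂ ∙ (e : V)) (ℂ ∙ r)
    have h2 : finrank ℂ (ℂ ∙ r) = 1 := finrank_span_singleton hr0
    have h3 : (ℂ ∙ (e : V)) ⊓ (ℂ ∙ r) = ⊥ := by
      rw [eq_bot_iff]
      calc (ℂ ∙ (e : V)) ⊓ (ℂ ∙ r) ≤ (ℂ ∙ (e : V)) ⊓ K :=
            inf_le_inf_left _ ((Submodule.span_singleton_le_iff_mem _ _).2 hr.1)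
        _ = ⊥ := hK.inf_eq_bot
    rw [h3, finrank_bot] at h1
    omega
  have hDz : ∀ w ∈ ((ℂ ∙ (e : V)) ⊔ (ℂ ∙ r) : Submodule ℂ V), D w w = 0 ∧ w ∈ W := by
    intro w hw
    obtain ⟨x, hx, y, hy, rfl⟩ := Submodule.mem_sup.1 hw
    obtain ⟨s, rfl⟩ := Submodule.mem_span_singleton.1 hx
    obtain ⟨t, rfl⟩ := Submodule.mem_span_singleton.1 hy
    refine ⟨?_, W.add_mem (W.smul_mem _ e.2) (W.smul_mem _ hr.2)⟩
    simp only [map_add, map_smul, LinearMap.add_apply, LinearMap.smul_apply, smul_eq_mul,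
      hDe _ e.2, hDe _ hr.2, hDs r e, hrD, mul_zero, add_zero]
  rcases eq_or_ne α 0 with hα | hα
  · obtain ⟨w, hw, hw0, hwB⟩ := exists_zero_one B hB _ hspan
    have h1 := (hDz w hw).1
    refine ⟨w, (hDz w hw).2, hw0, hwB, ?_⟩
    have hβ : β ≠ 0 := by
      rcases hαβ with h | h
      · exact absurd hα h
      · exact h
    simp only [D, LinearMap.add_apply, LinearMap.smul_apply, smul_eq_mul, hwB, mul_zero,
      zero_add] at h1
    exact (mul_eq_zero.1 h1).resolve_left hβ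
  · obtain ⟨w, hw, hw0, hwC⟩ := exists_zero_one C hC _ hspan
    have h1 := (hDz w hw).1
    refine ⟨w, (hDz w hw).2, hw0, ?_, hwC⟩
    simp only [D, LinearMap.add_apply, LinearMap.smul_apply, smul_eq_mul, hwC, mul_zero,
      add_zero] at h1
    exact (mul_eq_zero.1 h1).resolve_left hα

variable {T : V →ₗ[ℂ] V →ₗ[ℂ] V →ₗ[ℂ] ℂ}

/-- If `T w w` vanishes on a subspace `H ⊇ W` of codimension `c < dim W` (with `c ≤ 2`) for all
`w ∈ W`, then `T` is not smooth: codimension one. -/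
theorem IsSm.false_one (h : IsSm T) (W H : Submodule ℂ V) (hW : 2 ≤ finrank ℂ W)
    (hH : finrank ℂ V ≤ finrank ℂ H + 1) (hT : ∀ w ∈ W, ∀ y ∈ H, T w w y = 0) : False := by
  obtain ⟨K, hK⟩ := Submodule.exists_isCompl H
  have h1 := Submodule.finrank_add_eq_of_isCompl hK
  have hK1 : finrank ℂ K ≤ 1 := by omega
  obtain ⟨g, hg⟩ := finrank_le_one_iff.1 hK1
  obtain ⟨w, hw, hw0, hwz⟩ := exists_zero_one (T (g : V)) (fun x y => h.c23 _ _ _) W hW
  obtain ⟨z, hz⟩ := h.sm w hw0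
  apply hz
  have hzt : z ∈ H ⊔ K := by
    rw [hK.sup_eq_top]
    exact Submodule.mem_top
  obtain ⟨y, hy, k, hk, rfl⟩ := Submodule.mem_sup.1 hzt
  obtain ⟨c, hc⟩ := hg ⟨k, hk⟩
  have hc' : c • (g : V) = k := congrArg Subtype.val hc
  rw [map_add, hT w hw y hy, zero_add, ← hc', map_smul, h.c23, h.c12, hwz, smul_zero]

/-- Codimension two. -/
theorem IsSm.false_two (h : IsSm T) (W H : Submodule ℂ V) (hW : 3 ≤ finrank ℂ W)
    (hH : finrank ℂ V ≤ finrank ℂ H + 2) (hT : ∀ w ∈ W, ∀ y ∈ H, T w w y = 0) : False := by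
  obtain ⟨K, hK⟩ := Submodule.exists_isCompl H
  have h1 := Submodule.finrank_add_eq_of_isCompl hK
  have hK2 : finrank ℂ K ≤ 2 := by omega
  rcases Nat.lt_or_ge (finrank ℂ K) 2 with hK1 | hK1
  · exact h.false_one W H (by omega) (by omega) hT
  · have hK3 : finrank ℂ K = 2 := by omega
    let bk := Module.finBasisOfFinrankEq ℂ K hK3
    obtain ⟨w, hw, hw0, hwz0, hwz1⟩ := exists_zero_two (T (bk 0 : V)) (T (bk 1 : V))
      (fun x y => h.c23 _ _ _) (fun x y => h.c23 _ _ _) W hW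
    obtain ⟨z, hz⟩ := h.sm w hw0
    apply hz
    have hzt : z ∈ H ⊔ K := by
      rw [hK.sup_eq_top]
      exact Submodule.mem_top
    obtain ⟨y, hy, k, hk, rfl⟩ := Submodule.mem_sup.1 hzt
    have hk2 : k = (bk.repr ⟨k, hk⟩ 0) • (bk 0 : V) + (bk.repr ⟨k, hk⟩ 1) • (bk 1 : V) := by
      have := congrArg Subtype.val (bk.sum_repr ⟨k, hk⟩)
      rw [Fin.sum_univ_two] at this
      exact this.symm
    rw [map_add, hT w hw y hy, zero_add, hk2, map_add, map_smul, map_smul, h.c23, h.c12, hwz0,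
      h.c23 w w, h.c12 w, hwz1, smul_zero, smul_zero, add_zero]

end Vale.Agent.P287.H528
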