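import Mathlib
import Vale.Agent.P287.H528.Quad

/-!
# Planes in a smooth cubic fourfold meeting along a line
-/

namespace Vale.Agent.P287.H528

open Module

variable {V : Type*} [AddCommGroup V] [Module ℂ V]

/-- `U` is (the cone over) a plane contained in the cubic. -/
structure Pl (T : V →ₗ[ℂ] V →ₗ[ℂ] V →ₗ[ℂ] ℂ) (U : Submodule ℂ V) : Prop where
  dim : finrank ℂ U = 3
  zero : ∀ u ∈ U, ∀ v ∈ U, ∀ w ∈ U, T u v w = 0

theorem exists_functional {U : Submodule ℂ V} {c : V} (hc : c ∉ U) :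
    ∃ f : V →ₗ[ℂ] ℂ, f c = 1 ∧ ∀ u ∈ U, f u = 0 := by
  obtain ⟨f, hf, hU⟩ := Submodule.exists_le_ker_of_notMem hc
  refine ⟨(f c)⁻¹ • f, ?_, fun u hu => ?_⟩
  · rw [LinearMap.smul_apply, smul_eq_mul, inv_mul_cancel₀ hf]
  · rw [LinearMap.smul_apply, LinearMap.mem_ker.1 (hU hu), smul_zero]

variable [FiniteDimensional ℂ V]

theorem finrank_inf_ker (W : Submodule ℂ V) (f : V →ₗ[ℂ] ℂ) (hf : ∃ w ∈ W, f w ≠ 0) :
    finrank ℂ (W ⊓ LinearMap.ker f : Submodule ℂ V) + 1 = finrank ℂ W := by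
  obtain ⟨w, hw, hfw⟩ := hf
  have h1 := LinearMap.finrank_range_add_finrank_ker (f.domRestrict W)
  have h2 : finrank ℂ (LinearMap.range (f.domRestrict W)) = 1 := by
    have : LinearMap.range (f.domRestrict W) = ⊤ := by
      apply LinearMap.range_eq_top.2
      apply LinearMap.surjective_of_ne_zero
      intro h0
      exact hfw (LinearMap.congr_fun h0 ⟨w, hw⟩)
    rw [this, finrank_top, finrank_self]
  have h3 : finrank ℂ (LinearMap.ker (f.domRestrict W))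
      = finrank ℂ (W ⊓ LinearMap.ker f : Submodule ℂ V) := by
    have e := (Submodule.comapSubtypeEquivOfLe (inf_le_left : W ⊓ LinearMap.ker f ≤ W)).finrank_eq
    have : Submodule.comap W.subtype (LinearMap.ker f)
        = Submodule.comap W.subtype (W ⊓ LinearMap.ker f) := by
      rw [Submodule.comap_inf, Submodule.comap_subtype_self, top_inf_eq]
    rw [LinearMap.ker_domRestrict, this]
    exact e
  omega

/-- Distinct three-dimensional subspaces of a four-dimensional space span it. -/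
theorem sup_eq_of_ne {U U' P : Submodule ℂ V} (hU : finrank ℂ U = 3) (hU' : finrank ℂ U' = 3)
    (hP : finrank ℂ P = 4) (h1 : U ≤ P) (h2 : U' ≤ P) (hne : U ≠ U') :
    U ⊔ U' = P ∧ finrank ℂ (U ⊓ U' : Submodule ℂ V) = 2 := by
  have h3 := Submodule.finrank_sup_add_finrank_inf_eq U U'
  have h4 : U ⊔ U' ≤ P := sup_le h1 h2
  have h5 := Submodule.finrank_mono h4
  have h6 : finrank ℂ (U ⊓ U' : Submodule ℂ V) < 3 := by
    rw [← hU]
    apply Submodule.finrank_lt_finrank_of_lt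
    rw [lt_iff_le_and_ne]
    refine ⟨inf_le_left, fun h' => hne ?_⟩
    exact Submodule.eq_of_le_of_finrank_eq (inf_eq_left.1 h') (by rw [hU, hU'])
  refine ⟨Submodule.eq_of_le_of_finrank_eq h4 (by omega), by omega⟩

omit [FiniteDimensional ℂ V] in
/-- If a product of three linear forms vanishes on a subspace, one of them does. -/
theorem le_ker_of_mul {L : Submodule ℂ V} (f : Fin 3 → V →ₗ[ℂ] ℂ)
    (h : ∀ x ∈ L, f 0 x * f 1 x * f 2 x = 0) : ∃ i, L ≤ LinearMap.ker (f i) := by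
  obtain ⟨i, hi⟩ := Subspace.exists_eq_top_of_iUnion_eq_univ
    (p := fun i : Fin 3 => Submodule.comap L.subtype (LinearMap.ker (f i))) (by
      rw [Set.eq_univ_iff_forall]
      intro x
      have hx := h x x.2
      rw [Set.mem_iUnion]
      rw [mul_eq_zero, mul_eq_zero] at hx
      rcases hx with (hx | hx) | hx
      · exact ⟨0, hx⟩
      · exact ⟨1, hx⟩
      · exact ⟨2, hx⟩)
  refine ⟨i, fun x hx => ?_⟩
  have : (⟨x, hx⟩ : L) ∈ Submodule.comap L.subtype (LinearMap.ker (f i)) := by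
    rw [hi]
    exact Submodule.mem_top
  exact this

variable {T : V →ₗ[ℂ] V →ₗ[ℂ] V →ₗ[ℂ] ℂ}

theorem IsSm.third_plane (h : IsSm T) (hV : finrank ℂ V = 6) {U1 U2 : Submodule ℂ V}
    (h1 : Pl T U1) (h2 : Pl T U2) (h12 : finrank ℂ (U1 ⊓ U2 : Submodule ℂ V) = 2) :
    ∃ U3, Pl T U3 ∧ U3 ≤ U1 ⊔ U2 ∧ U3 ≠ U1 ∧ U3 ≠ U2 ∧
      ∀ L ≤ U1 ⊔ U2, (∀ x ∈ L, T x x x = 0) → L ≤ U1 ∨ L ≤ U2 ∨ L ≤ U3 := by
  have hP : finrank ℂ (U1 ⊔ U2 : Submodule ℂ V) = 4 := by
    have := Submodule.finrank_sup_add_finrank_inf_eq U1 U2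
    rw [h1.dim, h2.dim] at this
    omega
  -- the vectors `c` and `d`
  obtain ⟨c, hc1, hc2⟩ : ∃ c ∈ U1, c ∉ U2 := by
    by_contra hcon
    push Not at hcon
    have : U1 ⊓ U2 = U1 := inf_eq_left.2 hcon
    rw [this, h1.dim] at h12
    omega
  obtain ⟨d, hd2, hd1⟩ : ∃ d ∈ U2, d ∉ U1 := by
    by_contra hcon
    push Not at hcon
    have : U1 ⊓ U2 = U2 := inf_eq_right.2 hcon
    rw [this, h2.dim] at h12
    omega
  obtain ⟨γ, hγc, hγ⟩ := exists_functional hc2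
  obtain ⟨δ, hδd, hδ⟩ := exists_functional hd1
  have hker : ∀ (f : V →ₗ[ℂ] ℂ) (U : Submodule ℂ V) (e : V), finrank ℂ U = 3 → U ≤ U1 ⊔ U2 →
      e ∈ U1 ⊔ U2 → f e ≠ 0 → (∀ u ∈ U, f u = 0) →
      (U1 ⊔ U2) ⊓ LinearMap.ker f = U := by
    intro f U e hU hle he hfe hfU
    have e1 := finrank_inf_ker (U1 ⊔ U2) f ⟨e, he, hfe⟩
    symm
    apply Submodule.eq_of_le_of_finrank_eq
    · exact le_inf hle fun u hu => LinearMap.mem_ker.2 (hfU u hu)
    · omega
  have hcP : c ∈ U1 ⊔ U2 := Submodule.mem_sup_left hc1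
  have hdP : d ∈ U1 ⊔ U2 := Submodule.mem_sup_right hd2
  have hkγ := hker γ U2 c h2.dim le_sup_right hcP (by rw [hγc]; exact one_ne_zero) hγ
  have hkδ := hker δ U1 d h1.dim le_sup_left hdP (by rw [hδd]; exact one_ne_zero) hδ
  -- the third linear form
  let ℓ : V →ₗ[ℂ] ℂ := (2 : ℂ) • (T c d) - (T c c d) • γ - (T c d d) • δ
  have hℓ : ∀ x, ℓ x = 2 * T c d x - T c c d * γ x - T c d d * δ x := fun x => by
    simp [ℓ, smul_eq_mul]
  have hfac : ∀ x ∈ U1 ⊔ U2, T x x x = 3 * γ x * δ x * ℓ x := by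
    intro x hx
    set y := x - γ x • c - δ x • d with hy
    have hyP : y ∈ U1 ⊔ U2 := Submodule.sub_mem _ (Submodule.sub_mem _ hx
      (Submodule.smul_mem _ _ hcP)) (Submodule.smul_mem _ _ hdP)
    have hγy : γ y = 0 := by
      rw [hy, map_sub, map_sub, map_smul, map_smul, hγc, hγ d hd2]
      simp
    have hδy : δ y = 0 := by
      rw [hy, map_sub, map_sub, map_smul, map_smul, hδd, hδ c hc1]
      simp
    have hy2 : y ∈ U2 := by
      rw [← hkγ]
      exact ⟨hyP, hγy⟩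
    have hy1 : y ∈ U1 := by
      rw [← hkδ]
      exact ⟨hyP, hδy⟩
    have hx' : x = y + γ x • c + δ x • d := by
      rw [hy]
      abel
    have hTy : T c d y = T c d x - γ x * T c c d - δ x * T c d d := by
      rw [hy, map_sub, map_sub, map_smul, map_smul, smul_eq_mul, smul_eq_mul, h.c23 c d c]
    rw [hℓ]
    generalize γ x = s at *
    generalize δ x = t at *
    have e : T x x x = 6 * s * t * T c d y + 3 * s ^ 2 * t * T c c d
        + 3 * s * t ^ 2 * T c d d := by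
      rw [hx']
      simp only [map_add, map_smul, LinearMap.add_apply, LinearMap.smul_apply, smul_eq_mul]
      rw [h1.zero y hy1 y hy1 y hy1, h1.zero y hy1 y hy1 c hc1, h1.zero y hy1 c hc1 y hy1,
        h1.zero y hy1 c hc1 c hc1, h1.zero c hc1 y hy1 y hy1, h1.zero c hc1 y hy1 c hc1,
        h1.zero c hc1 c hc1 y hy1, h1.zero c hc1 c hc1 c hc1,
        h2.zero y hy2 y hy2 d hd2, h2.zero y hy2 d hd2 y hy2, h2.zero y hy2 d hd2 d hd2,
        h2.zero d hd2 y hy2 y hy2, h2.zero d hd2 y hy2 d hd2, h2.zero d hd2 d hd2 y hy2,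
        h2.zero d hd2 d hd2 d hd2]
      have s1 : T y c d = T c d y := by rw [h.c12, h.c23]
      have s2 : T y d c = T c d y := by rw [h.c23, s1]
      have s3 : T c y d = T c d y := by rw [h.c23]
      have s4 : T d y c = T c d y := by rw [h.c12, s2]
      have s5 : T d c y = T c d y := by rw [h.c12]
      have s6 : T c d c = T c c d := by rw [h.c23]
      have s7 : T d c c = T c c d := by rw [h.c12, s6]
      have s8 : T d c d = T c d d := by rw [h.c12]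
      have s9 : T d d c = T c d d := by rw [h.c23, s8]
      rw [s1, s2, s3, s4, s5, s6, s7, s8, s9]
      ring
    rw [e, hTy]
    ring
  -- the plane
  have hℓ0 : ∃ w ∈ U1 ⊔ U2, ℓ w ≠ 0 := by
    by_contra hcon
    push Not at hcon
    have h0 : ∀ x ∈ U1 ⊔ U2, T x x x = 0 := fun x hx => by
      rw [hfac x hx, hcon x hx, mul_zero]
    have h0' := h.polar _ h0
    exact h.false_two (U1 ⊔ U2) (U1 ⊔ U2) (by omega) (by omega)
      (fun w hw y hy => h0' w hw w hw y hy)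
  -- the third form does not vanish on the two given planes
  have hne : ∀ (U U' : Submodule ℂ V) (e : V) (f g : V →ₗ[ℂ] ℂ), Pl T U → U ≤ U1 ⊔ U2 →
      e ∈ U1 ⊔ U2 → (U1 ⊔ U2 : Submodule ℂ V) ≤ U ⊔ (ℂ ∙ e) → f e = 1 → g e = 0 →
      (∀ u ∈ U, f u = 0) → (∀ x ∈ U1 ⊔ U2, T x x x = 3 * g x * f x * ℓ x) → T e e e = 0 →
      ¬ (∀ u ∈ U, ℓ u = 0) := by
    intro U U' e f g hU hle he hspan hfe hge hfU hfac' heee hcon
    refine h.false_two U (U1 ⊔ U2) (by rw [hU.dim]) (by omega) (fun w hw y hy => ?_)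
    obtain ⟨u, hu, e', he', rfl⟩ := Submodule.mem_sup.1 (hspan hy)
    obtain ⟨t, rfl⟩ := Submodule.mem_span_singleton.1 he'
    rw [map_add, hU.zero w hw w hw u hu, zero_add, map_smul]
    have hq : ∀ s : ℂ, 3 * s * T w w e + 3 * s ^ 2 * T w e e = 3 * g w * s * (s * ℓ e) := by
      intro s
      have h5 := hfac' (w + s • e) (Submodule.add_mem _ (hle hw) (Submodule.smul_mem _ _ he))
      simp only [map_add, map_smul, LinearMap.add_apply, LinearMap.smul_apply, smul_eq_mul] at h5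
      rw [hU.zero w hw w hw w hw, hge, hfe, hfU w hw, hcon w hw, heee, h.c23 w e w,
        h.c12 e w w, h.c23 w e w, h.c12 e w e, h.c23 e e w, h.c12 e w e] at h5
      linear_combination h5
    have q1 := hq 1
    have q2 := hq (-1)
    have : T w w e = 0 := by linear_combination (1 / 6 : ℂ) * q1 - (1 / 6 : ℂ) * q2
    rw [this, smul_zero]
  have hspan1 : (U1 ⊔ U2 : Submodule ℂ V) ≤ U1 ⊔ (ℂ ∙ d) := by
    apply le_of_eq
    symm
    apply Submodule.eq_of_le_of_finrank_le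
    · exact sup_le le_sup_left ((Submodule.span_singleton_le_iff_mem _ _).2 hdP)
    · rw [hP]
      by_contra hcon
      have h5 : finrank ℂ (U1 ⊔ (ℂ ∙ d) : Submodule ℂ V) ≤ finrank ℂ U1 := by
        rw [h1.dim]
        omega
      have h6 := Submodule.eq_of_le_of_finrank_le (le_sup_left : U1 ≤ U1 ⊔ (ℂ ∙ d)) h5
      exact hd1 (h6 ▸ Submodule.mem_sup_right (Submodule.mem_span_singleton_self d))
  have hspan2 : (U1 ⊔ U2 : Submodule ℂ V) ≤ U2 ⊔ (ℂ ∙ c) := by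
    apply le_of_eq
    symm
    apply Submodule.eq_of_le_of_finrank_le
    · exact sup_le le_sup_right ((Submodule.span_singleton_le_iff_mem _ _).2 hcP)
    · rw [hP]
      by_contra hcon
      have h5 : finrank ℂ (U2 ⊔ (ℂ ∙ c) : Submodule ℂ V) ≤ finrank ℂ U2 := by
        rw [h2.dim]
        omega
      have h6 := Submodule.eq_of_le_of_finrank_le (le_sup_left : U2 ≤ U2 ⊔ (ℂ ∙ c)) h5
      exact hc2 (h6 ▸ Submodule.mem_sup_right (Submodule.mem_span_singleton_self c))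
  have hn1 := hne U1 U2 d δ γ h1 le_sup_left hdP hspan1 hδd (hγ d hd2) hδ hfac
    (h2.zero d hd2 d hd2 d hd2)
  have hn2 := hne U2 U1 c γ δ h2 le_sup_right hcP hspan2 hγc (hδ c hc1) hγ
    (fun x hx => by rw [hfac x hx]; ring) (h1.zero c hc1 c hc1 c hc1)
  have hd3 := finrank_inf_ker (U1 ⊔ U2) ℓ hℓ0
  have hz3 : ∀ x ∈ (U1 ⊔ U2) ⊓ LinearMap.ker ℓ, T x x x = 0 := fun x hx => by
    rw [hfac x hx.1, LinearMap.mem_ker.1 hx.2, mul_zero]
  refine ⟨(U1 ⊔ U2) ⊓ LinearMap.ker ℓ, ⟨by omega, h.polar _ hz3⟩, inf_le_left, ?_, ?_, ?_⟩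
  · intro heq
    apply hn1
    intro u hu
    rw [← heq] at hu
    exact hu.2
  · intro heq
    apply hn2
    intro u hu
    rw [← heq] at hu
    exact hu.2
  · intro L hL hL0
    obtain ⟨i, hi⟩ := le_ker_of_mul (L := L) ![γ, δ, ℓ] (fun x hx => by
      have h5 := hfac x (hL hx)
      rw [hL0 x hx] at h5
      simp only [Matrix.cons_val_zero, Matrix.cons_val_one, Matrix.cons_val]
      have h6 : (3 : ℂ) * (γ x * δ x * ℓ x) = 0 := by linear_combination -h5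
      simpa using h6)
    fin_cases i
    · exact Or.inr (Or.inl (by rw [← hkγ]; exact le_inf hL hi))
    · exact Or.inl (by rw [← hkδ]; exact le_inf hL hi)
    · exact Or.inr (Or.inr (le_inf hL hi))

/-- Three planes of a smooth cubic fourfold which pairwise meet along lines lie in a common
four-dimensional subspace. -/
theorem IsSm.coplanar (h : IsSm T) (hV : finrank ℂ V = 6) {U1 U2 W : Submodule ℂ V}
    (h1 : Pl T U1) (h2 : Pl T U2) (hW : Pl T W) (h12 : finrank ℂ (U1 ⊓ U2 : Submodule ℂ V) = 2)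
    (hW1 : finrank ℂ (W ⊓ U1 : Submodule ℂ V) = 2) (hW2 : finrank ℂ (W ⊓ U2 : Submodule ℂ V) = 2) :
    W ≤ U1 ⊔ U2 := by
  by_contra hcon
  have hP : finrank ℂ (U1 ⊔ U2 : Submodule ℂ V) = 4 := by
    have := Submodule.finrank_sup_add_finrank_inf_eq U1 U2
    rw [h1.dim, h2.dim] at this
    omega
  have hWP : finrank ℂ (W ⊓ (U1 ⊔ U2) : Submodule ℂ V) ≤ 2 := by
    have : finrank ℂ (W ⊓ (U1 ⊔ U2) : Submodule ℂ V) < finrank ℂ W := by
      apply Submodule.finrank_lt_finrank_of_lt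
      rw [lt_iff_le_and_ne]
      exact ⟨inf_le_left, fun h' => hcon (inf_eq_left.1 h')⟩
    rw [hW.dim] at this
    omega
  have e1 : W ⊓ U1 = W ⊓ (U1 ⊔ U2) :=
    Submodule.eq_of_le_of_finrank_le (inf_le_inf_left _ le_sup_left) (by omega)
  have e2 : W ⊓ U2 = W ⊓ (U1 ⊔ U2) :=
    Submodule.eq_of_le_of_finrank_le (inf_le_inf_left _ le_sup_right) (by omega)
  have h3 : finrank ℂ (W ⊓ (U1 ⊔ U2) : Submodule ℂ V) = 2 := by rw [← e1, hW1]
  have h4 : finrank ℂ (W ⊔ (U1 ⊔ U2) : Submodule ℂ V) = 5 := by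
    have := Submodule.finrank_sup_add_finrank_inf_eq W (U1 ⊔ U2)
    rw [hW.dim, hP, h3] at this
    omega
  refine h.false_one (W ⊓ (U1 ⊔ U2)) (W ⊔ (U1 ⊔ U2)) (by omega) (by omega) ?_
  intro w hw y hy
  have hwW : w ∈ W := hw.1
  have hw1 : w ∈ U1 := by
    have : w ∈ W ⊓ U1 := by rw [e1]; exact hw
    exact this.2
  have hw2 : w ∈ U2 := by
    have : w ∈ W ⊓ U2 := by rw [e2]; exact hw
    exact this.2
  obtain ⟨a, ha, b, hb, rfl⟩ := Submodule.mem_sup.1 hy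
  obtain ⟨p, hp, q, hq, rfl⟩ := Submodule.mem_sup.1 hb
  rw [map_add, map_add, hW.zero w hwW w hwW a ha, h1.zero w hw1 w hw1 p hp,
    h2.zero w hw2 w hw2 q hq]
  ring

/-- The key incidence property. -/
theorem IsSm.exists_adj (h : IsSm T) (hV : finrank ℂ V = 6) {U1 U2 U3 W : Submodule ℂ V}
    (h1 : Pl T U1) (h2 : Pl T U2) (h12 : finrank ℂ (U1 ⊓ U2 : Submodule ℂ V) = 2)
    (h3 : Pl T U3)
    (hL : ∀ L ≤ U1 ⊔ U2, (∀ x ∈ L, T x x x = 0) → L ≤ U1 ∨ L ≤ U2 ∨ L ≤ U3)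
    (hW : Pl T W) (n1 : W ≠ U1) (n2 : W ≠ U2) (n3 : W ≠ U3)
    (m1 : W ⊓ U1 ≠ ⊥) (m2 : W ⊓ U2 ≠ ⊥) :
    finrank ℂ (W ⊓ U1 : Submodule ℂ V) = 2 ∨ finrank ℂ (W ⊓ U2 : Submodule ℂ V) = 2 ∨
      finrank ℂ (W ⊓ U3 : Submodule ℂ V) = 2 := by
  have hP : finrank ℂ (U1 ⊔ U2 : Submodule ℂ V) = 4 := by
    have := Submodule.finrank_sup_add_finrank_inf_eq U1 U2
    rw [h1.dim, h2.dim] at this
    omega
  have hnle : ∀ U : Submodule ℂ V, finrank ℂ U = 3 → W ≠ U → ¬ W ≤ U := fun U hU hne hle =>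
    hne (Submodule.eq_of_le_of_finrank_eq hle (by rw [hW.dim, hU]))
  have hlt : ∀ U : Submodule ℂ V, finrank ℂ U = 3 → W ≠ U →
      finrank ℂ (W ⊓ U : Submodule ℂ V) ≤ 2 := by
    intro U hU hne
    have : finrank ℂ (W ⊓ U : Submodule ℂ V) < finrank ℂ W := by
      apply Submodule.finrank_lt_finrank_of_lt
      rw [lt_iff_le_and_ne]
      exact ⟨inf_le_left, fun h' => hnle U hU hne (inf_eq_left.1 h')⟩
    rw [hW.dim] at this
    omega
  have hsum := Submodule.finrank_sup_add_finrank_inf_eq W (U1 ⊔ U2)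
  rw [hW.dim, hP] at hsum
  have hle6 : finrank ℂ (W ⊔ (U1 ⊔ U2) : Submodule ℂ V) ≤ 6 := by
    rw [← hV]
    exact Submodule.finrank_le _
  rcases Nat.lt_or_ge (finrank ℂ (W ⊓ (U1 ⊔ U2) : Submodule ℂ V)) 2 with hlt2 | hge2
  · exfalso
    have e1 : finrank ℂ (W ⊓ (U1 ⊔ U2) : Submodule ℂ V) = 1 := by omega
    have p1 : 1 ≤ finrank ℂ (W ⊓ U1 : Submodule ℂ V) := Submodule.one_le_finrank_iff.2 m1
    have p2 : 1 ≤ finrank ℂ (W ⊓ U2 : Submodule ℂ V) := Submodule.one_le_finrank_iff.2 m2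
    have f1 : W ⊓ U1 = W ⊓ (U1 ⊔ U2) :=
      Submodule.eq_of_le_of_finrank_le (inf_le_inf_left _ le_sup_left) (by omega)
    have f2 : W ⊓ U2 = W ⊓ (U1 ⊔ U2) :=
      Submodule.eq_of_le_of_finrank_le (inf_le_inf_left _ le_sup_right) (by omega)
    obtain ⟨x, hx, hx0⟩ := Submodule.exists_mem_ne_zero_of_ne_bot m1
    have hx2 : x ∈ W ⊓ U2 := by
      rw [f2, ← f1]
      exact hx
    have htop : W ⊔ (U1 ⊔ U2) = ⊤ := Submodule.eq_top_of_finrank_eq (by omega)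
    obtain ⟨z, hz⟩ := h.sm x hx0
    apply hz
    have hzt : z ∈ W ⊔ (U1 ⊔ U2) := by
      rw [htop]
      exact Submodule.mem_top
    obtain ⟨a, ha, b, hb, rfl⟩ := Submodule.mem_sup.1 hzt
    obtain ⟨p, hp, q, hq, rfl⟩ := Submodule.mem_sup.1 hb
    rw [map_add, map_add, hW.zero x hx.1 x hx.1 a ha, h1.zero x hx.2 x hx.2 p hp,
      h2.zero x hx2.2 x hx2.2 q hq]
    ring
  · have hz : ∀ x ∈ W ⊓ (U1 ⊔ U2), T x x x = 0 := fun x hx => hW.zero x hx.1 x hx.1 x hx.1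
    have aux : ∀ U : Submodule ℂ V, finrank ℂ U = 3 → W ≠ U → W ⊓ (U1 ⊔ U2) ≤ U →
        finrank ℂ (W ⊓ U : Submodule ℂ V) = 2 := by
      intro U hU hne hle
      have h5 := Submodule.finrank_mono (le_inf inf_le_left hle :
        W ⊓ (U1 ⊔ U2) ≤ W ⊓ U)
      have h6 := hlt U hU hne
      omega
    rcases hL _ inf_le_right hz with h5 | h5 | h5
    · exact Or.inl (aux U1 h1.dim n1 h5)
    · exact Or.inr (Or.inl (aux U2 h2.dim n2 h5))
    · exact Or.inr (Or.inr (aux U3 h3.dim n3 h5))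

end Vale.Agent.P287.H528
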