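import Mathlib
import Vale.Agent.P287.H528.Planes

/-!
# The Jacobian class of a plane
-/

namespace Vale.Agent.P287.H528

open Module

variable {V : Type*} [AddCommGroup V] [Module ℂ V]

/-- Precomposition of a trilinear form with three linear maps. -/
noncomputable def tcomp (T : V →ₗ[ℂ] V →ₗ[ℂ] V →ₗ[ℂ] ℂ) (f g h : V →ₗ[ℂ] V) :
    V →ₗ[ℂ] V →ₗ[ℂ] V →ₗ[ℂ] ℂ :=
  LinearMap.mk₂ ℂ (fun x y => (T (f x) (g y)) ∘ₗ h)
    (fun x x' y => by ext z; simp) (fun c x y => by ext z; simp)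
    (fun x y y' => by ext z; simp) (fun c x y => by ext z; simp)

@[simp]
theorem tcomp_apply (T : V →ₗ[ℂ] V →ₗ[ℂ] V →ₗ[ℂ] ℂ) (f g h : V →ₗ[ℂ] V) (x y z : V) :
    tcomp T f g h x y z = T (f x) (g y) (h z) := rfl

variable {T : V →ₗ[ℂ] V →ₗ[ℂ] V →ₗ[ℂ] ℂ}

/-- A presentation of the cubic form along a subspace: `F = ∑ l_a Q_a` with linear forms `l_a`
vanishing on `U`, in polarised form. -/
structure IsPres (T : V →ₗ[ℂ] V →ₗ[ℂ] V →ₗ[ℂ] ℂ) (U : Submodule ℂ V)
    (β : V →ₗ[ℂ] V →ₗ[ℂ] V →ₗ[ℂ] ℂ) : Prop where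
  zero : ∀ u ∈ U, ∀ p q, β u p q = 0
  symm : ∀ y p q, β y p q = β y q p
  sum : ∀ x y z, 3 * T x y z = β x y z + β y x z + β z x y

theorem Pl.exists_pres (h : IsSm T) {U : Submodule ℂ V} (hU : Pl T U) :
    ∃ β, IsPres T U β := by
  obtain ⟨C, hC⟩ := Submodule.exists_isCompl U
  let π : V →ₗ[ℂ] V := U.subtype ∘ₗ (U.projectionOnto C hC)
  have hπU : ∀ x, π x ∈ U := fun x => (U.projectionOnto C hC x).2
  have hπ : ∀ u ∈ U, π u = u := fun u hu => by
    have := Submodule.projectionOnto_apply_left hC ⟨u, hu⟩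
    exact congrArg Subtype.val this
  let ρ : V →ₗ[ℂ] V := LinearMap.id - π
  have hρ : ∀ x, x = π x + ρ x := fun x => by simp [ρ]
  have hρU : ∀ u ∈ U, ρ u = 0 := fun u hu => by simp [ρ, hπ u hu]
  refine ⟨(3 : ℂ) • tcomp T ρ π π + (3 / 2 : ℂ) • (tcomp T ρ π ρ + tcomp T ρ ρ π)
    + tcomp T ρ ρ ρ, fun u hu p q => ?_, fun y p q => ?_, fun x y z => ?_⟩
  · simp [hρU u hu]
  · simp only [LinearMap.add_apply, LinearMap.smul_apply, tcomp_apply, smul_eq_mul]
    rw [h.c23 (ρ y) (π p) (π q), h.c23 (ρ y) (ρ p) (π q), h.c23 (ρ y) (π p) (ρ q),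
      h.c23 (ρ y) (ρ p) (ρ q)]
    ring
  · simp only [LinearMap.add_apply, LinearMap.smul_apply, tcomp_apply, smul_eq_mul]
    conv_lhs => rw [hρ x, hρ y, hρ z]
    simp only [map_add, LinearMap.add_apply]
    rw [hU.zero _ (hπU x) _ (hπU y) _ (hπU z)]
    have s1 : T (ρ y) (π x) (π z) = T (π x) (ρ y) (π z) := h.c12 _ _ _
    have s2 : T (ρ z) (π x) (π y) = T (π x) (π y) (ρ z) := by rw [h.c12, h.c23]
    have s3 : T (ρ x) (ρ y) (π z) = T (ρ x) (ρ y) (π z) := rfl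
    have s4 : T (ρ y) (π x) (ρ z) = T (π x) (ρ y) (ρ z) := h.c12 _ _ _
    have s5 : T (ρ y) (ρ x) (π z) = T (ρ x) (ρ y) (π z) := h.c12 _ _ _
    have s6 : T (ρ z) (π x) (ρ y) = T (π x) (ρ y) (ρ z) := by rw [h.c12, h.c23]
    have s7 : T (ρ z) (ρ x) (π y) = T (ρ x) (π y) (ρ z) := by rw [h.c12, h.c23]
    have s8 : T (ρ y) (ρ x) (ρ z) = T (ρ x) (ρ y) (ρ z) := h.c12 _ _ _
    have s9 : T (ρ z) (ρ x) (ρ y) = T (ρ x) (ρ y) (ρ z) := by rw [h.c12, h.c23]
    rw [s1, s2, s4, s5, s6, s7, s8, s9]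
    ring

variable [FiniteDimensional ℂ V]

/-- Every plane has an adapted basis and a presentation. -/
theorem Pl.exists_data (h : IsSm T) (hV : finrank ℂ V = 6) {U : Submodule ℂ V} (hU : Pl T U) :
    ∃ (b : Basis (Fin 3 ⊕ Fin 3) ℂ V) (β : V →ₗ[ℂ] V →ₗ[ℂ] V →ₗ[ℂ] ℂ),
      (∀ i, b (Sum.inl i) ∈ U) ∧ IsPres T U β := by
  obtain ⟨β, hβ⟩ := hU.exists_pres h
  obtain ⟨C, hC⟩ := Submodule.exists_isCompl U
  have h1 := Submodule.finrank_add_eq_of_isCompl hC
  have hC3 : finrank ℂ C = 3 := by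
    have := hU.dim
    omega
  refine ⟨((finBasisOfFinrankEq ℂ U hU.dim).prod (finBasisOfFinrankEq ℂ C hC3)).map
    (Submodule.prodEquivOfIsCompl U C hC), β, fun i => ?_, hβ⟩
  simp

/-- The Jacobian determinant attached to a basis and a presentation. -/
noncomputable def jac (B0 b : Basis (Fin 3 ⊕ Fin 3) ℂ V) (β : V →ₗ[ℂ] V →ₗ[ℂ] V →ₗ[ℂ] ℂ)
    (x : V) : ℂ :=
  (B0.det b)⁻¹ * (Matrix.of fun a c => β (b (Sum.inr a)) x (b (Sum.inl c))).det

theorem repr_inr_eq_zero {U : Submodule ℂ V} (hV : finrank ℂ V = 6) (hU : finrank ℂ U = 3)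
    {b : Basis (Fin 3 ⊕ Fin 3) ℂ V} (hb : ∀ i, b (Sum.inl i) ∈ U) {u : V} (hu : u ∈ U)
    (i : Fin 3) : b.repr u (Sum.inr i) = 0 := by
  have hspan : Submodule.span ℂ (Set.range fun i => b (Sum.inl i)) = U := by
    apply Submodule.eq_of_le_of_finrank_eq
    · rw [Submodule.span_le]
      rintro _ ⟨i, rfl⟩
      exact hb i
    · have hli : LinearIndependent ℂ (fun i : Fin 3 => b (Sum.inl i)) :=
        b.linearIndependent.comp _ Sum.inl_injective
      rw [finrank_span_eq_card hli, hU, Fintype.card_fin]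
  rw [← hspan] at hu
  refine Submodule.span_induction ?_ ?_ ?_ ?_ hu
  · rintro _ ⟨j, rfl⟩
    rw [b.repr_self, Finsupp.single_eq_of_ne]
    exact Sum.inr_ne_inl
  · simp
  · intro x y _ _ hx hy
    rw [map_add, Finsupp.add_apply, hx, hy, add_zero]
  · intro a x _ hx
    rw [map_smul, Finsupp.smul_apply, hx, smul_zero]

/-- The Jacobian determinant can be computed from any vectors. -/
theorem jac_mul {U : Submodule ℂ V} (hV : finrank ℂ V = 6) (hU : finrank ℂ U = 3)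
    {B0 b : Basis (Fin 3 ⊕ Fin 3) ℂ V} {β : V →ₗ[ℂ] V →ₗ[ℂ] V →ₗ[ℂ] ℂ} (hβ : IsPres T U β)
    (hb : ∀ i, b (Sum.inl i) ∈ U) (x : V) (z y : Fin 3 → V) (hz : ∀ i, z i ∈ U) :
    jac B0 b β x * B0.det (Sum.elim z y)
      = (Matrix.of fun a c => β (y a) x (z c)).det := by
  have h1 : B0.det (Sum.elim z y) = B0.det b * b.det (Sum.elim z y) := by
    have h := (B0.det).eq_smul_basis_det b
    conv_lhs => rw [h]
    rfl
  have h0 : B0.det b ≠ 0 := (B0.isUnit_det b).ne_zero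
  have h2 : b.det (Sum.elim z y)
      = (Matrix.of fun i j : Fin 3 => b.repr (z j) (Sum.inl i)).det
        * (Matrix.of fun i j : Fin 3 => b.repr (y j) (Sum.inr i)).det := by
    rw [Basis.det_apply]
    have h3 : b.toMatrix (Sum.elim z y)
        = Matrix.fromBlocks (Matrix.of fun i j : Fin 3 => b.repr (z j) (Sum.inl i))
          (Matrix.of fun i j : Fin 3 => b.repr (y j) (Sum.inl i)) 0
          (Matrix.of fun i j : Fin 3 => b.repr (y j) (Sum.inr i)) := by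
      ext i j
      rcases i with i | i <;> rcases j with j | j
      · rfl
      · rfl
      · exact repr_inr_eq_zero hV hU hb (hz j) i
      · rfl
    rw [h3, Matrix.det_fromBlocks_zero₂₁]
  have h4 : (Matrix.of fun a c => β (y a) x (z c))
      = (Matrix.of fun i j : Fin 3 => b.repr (y j) (Sum.inr i)).transpose
        * (Matrix.of fun a c => β (b (Sum.inr a)) x (b (Sum.inl c)))
        * (Matrix.of fun i j : Fin 3 => b.repr (z j) (Sum.inl i)) := by
    ext a c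
    rw [Matrix.mul_apply]
    simp only [Matrix.mul_apply, Matrix.of_apply, Matrix.transpose_apply]
    have e1 : ∀ p, β (y a) x p = ∑ i : Fin 3, b.repr (y a) (Sum.inr i) * β (b (Sum.inr i)) x p := by
      intro p
      conv_lhs => rw [← b.sum_repr (y a)]
      rw [map_sum, LinearMap.sum_apply, LinearMap.sum_apply, Fintype.sum_sum_type]
      rw [Finset.sum_eq_zero, zero_add]
      · refine Finset.sum_congr rfl fun i _ => ?_
        rw [map_smul, LinearMap.smul_apply, LinearMap.smul_apply, smul_eq_mul]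
      · intro i _
        rw [map_smul, LinearMap.smul_apply, LinearMap.smul_apply, hβ.zero _ (hb i), smul_zero]
    have e2 : ∀ w : V →ₗ[ℂ] ℂ, w (z c) = ∑ k : Fin 3, w (b (Sum.inl k))
        * b.repr (z c) (Sum.inl k) := by
      intro w
      conv_lhs => rw [← b.sum_repr (z c)]
      rw [map_sum, Fintype.sum_sum_type]
      have : ∑ i : Fin 3, w (b.repr (z c) (Sum.inr i) • b (Sum.inr i)) = 0 := by
        refine Finset.sum_eq_zero fun i _ => ?_
        rw [repr_inr_eq_zero hV hU hb (hz c) i, zero_smul, map_zero]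
      rw [this, add_zero]
      refine Finset.sum_congr rfl fun k _ => ?_
      rw [map_smul, smul_eq_mul, mul_comm]
    rw [e2]
    refine Finset.sum_congr rfl fun k _ => ?_
    rw [e1]
  rw [h4, Matrix.det_mul, Matrix.det_mul, Matrix.det_transpose, h1, h2, jac]
  field_simp

end Vale.Agent.P287.H528
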