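import Mathlib

/-!
# Cubic fourfolds, planes, function fields

Basic definitions used in the hand-ins on problem P287.
-/

open MvPolynomial

namespace Vale.Agent.P287.H528

/-- `F` is a cubic form in six variables over `ℂ` and the hypersurface `{F = 0}` of `ℙ⁵` is
smooth: the six partial derivatives of `F` have no common zero except the origin.  So
`{F = 0}` is a (smooth) cubic fourfold. -/
structure IsCubicFourfold (F : MvPolynomial (Fin 6) ℂ) : Prop where
  homogeneous : F.IsHomogeneous 3
  smooth : ∀ v : Fin 6 → ℂ, v ≠ 0 → ∃ i, eval v (pderiv i F) ≠ 0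

/-- The linear subspace `U` of `ℂ⁶` is (the cone over) a plane contained in `{F = 0} ⊆ ℙ⁵`. -/
def IsPlaneIn (F : MvPolynomial (Fin 6) ℂ) (U : Submodule ℂ (Fin 6 → ℂ)) : Prop :=
  Module.finrank ℂ U = 3 ∧ ∀ v ∈ U, eval v F = 0

/-- The homogeneous coordinate ring `ℂ[x₀, …, x₅]/(F)`. -/
abbrev CoordRing (F : MvPolynomial (Fin 6) ℂ) : Type :=
  MvPolynomial (Fin 6) ℂ ⧸ Ideal.span {F}

/-- The image of the variable `x_i` in the fraction field of the homogeneous coordinate ring. -/
noncomputable def coord (F : MvPolynomial (Fin 6) ℂ) [(Ideal.span {F}).IsPrime] (i : Fin 6) :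
    FractionRing (CoordRing F) :=
  algebraMap (CoordRing F) (FractionRing (CoordRing F)) (Ideal.Quotient.mk _ (X i))

/-- The function field of the projective hypersurface `{F = 0}`: the subfield of the fraction
field of `ℂ[x₀, …, x₅]/(F)` generated over `ℂ` by the ratios `x_i / x_j`. -/
noncomputable def functionField (F : MvPolynomial (Fin 6) ℂ) [(Ideal.span {F}).IsPrime] :
    IntermediateField ℂ (FractionRing (CoordRing F)) :=
  IntermediateField.adjoin ℂ {a | ∃ i j : Fin 6, a = coord F i / coord F j}

/-- `{F = 0} ⊆ ℙ⁵` is a rational fourfold: it is integral and its function field is a purely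
transcendental extension of `ℂ` of degree four, that is, it is birational to `ℙ⁴`. -/
def IsRationalFourfold (F : MvPolynomial (Fin 6) ℂ) : Prop :=
  ∃ _ : (Ideal.span {F}).IsPrime,
    Nonempty (functionField F ≃ₐ[ℂ] FractionRing (MvPolynomial (Fin 4) ℂ))

end Vale.Agent.P287.H528
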