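import Mathlib
import Vale.Agent.P287.H528.Beta

/-!
# Comparing the Jacobian classes of two planes
-/

namespace Vale.Agent.P287.H528

open Module

variable {V : Type*} [AddCommGroup V] [Module ℂ V]
variable {T : V →ₗ[ℂ] V →ₗ[ℂ] V →ₗ[ℂ] ℂ}

/-- The functions on `V` which agree on `U` with an element of the ideal generated by the partial
derivatives of the cubic form (in degree three). -/
def InI (T : V →ₗ[ℂ] V →ₗ[ℂ] V →ₗ[ℂ] ℂ) (U : Submodule ℂ V) (f : V → ℂ) : Prop :=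
  ∃ A : V →ₗ[ℂ] V, ∀ x ∈ U, f x = T x x (A x)

theorem ident_point (x0 x1 x2 pa0 pa1 pa2 pb0 pb1 pb2 qa0 qa1 qa2 qb0 qb1 qb2 R0 R1 R2 : ℂ)
    (a1 a2 b1 b2 r3 r4 : ℂ)
    (ha1 : a1 = pa0 * x0 + pa1 * x1 + pa2 * x2) (ha2 : a2 = qa0 * x0 + qa1 * x1 + qa2 * x2)
    (hb1 : b1 = pb0 * x0 + pb1 * x1 + pb2 * x2) (hb2 : b2 = qb0 * x0 + qb1 * x1 + qb2 * x2)
    (hr3 : r3 = x1 * a1 + x2 * a2) (hr4 : r4 = x1 * b1 + x2 * b2) :
    (!![x1 * pa0 + x2 * qa0, a1 + x1 * pa1 + x2 * qa1, a2 + x1 * pa2 + x2 * qa2;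
       x1 * pb0 + x2 * qb0, b1 + x1 * pb1 + x2 * qb1, b2 + x1 * pb2 + x2 * qb2;
       R0, R1, R2] : Matrix (Fin 3) (Fin 3) ℂ).det
      - 4 * R0 * (a1 * b2 - a2 * b1)
      = (3 * (qa0 * pb0 - qb0 * pa0) * x0
          + (- (pa0 * pb2 - pb0 * pa2) - (pa0 * qb1 - pb0 * qa1) + 2 * (qa0 * pb1 - qb0 * pa1)) * x1
          + ((qa0 * pb2 - qb0 * pa2) + (qa0 * qb1 - qb0 * qa1) - 2 * (pa0 * qb2 - pb0 * qa2)) * x2)
          * (x0 * R0 + x1 * R1 + x2 * R2)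
        + 2 * (r3 * (pb2 - qb1) - r4 * (pa2 - qa1)) * R0
        + 2 * (r3 * qb0 - r4 * qa0) * R1
        - 2 * (r3 * pb0 - r4 * pa0) * R2 := by
  subst ha1 ha2 hb1 hb2 hr3 hr4
  rw [Matrix.det_fin_three]
  simp
  ring

theorem IsPres.eq_of_mem {U : Submodule ℂ V} {β : V →ₗ[ℂ] V →ₗ[ℂ] V →ₗ[ℂ] ℂ}
    (hβ : IsPres T U β) {x z : V} (hx : x ∈ U) (hz : z ∈ U) (y : V) :
    β y x z = 3 * T x z y := by
  rw [hβ.sum x z y, hβ.zero x hx, hβ.zero z hz]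
  ring

variable [FiniteDimensional ℂ V]

/-- The determinant attached to a frame of `U` and a frame of a complement. -/
theorem jac_mul' {U : Submodule ℂ V} (hV : finrank ℂ V = 6) (hU : finrank ℂ U = 3)
    {B0 b : Basis (Fin 3 ⊕ Fin 3) ℂ V} {β : V →ₗ[ℂ] V →ₗ[ℂ] V →ₗ[ℂ] ℂ} (hβ : IsPres T U β)
    (hb : ∀ i, b (Sum.inl i) ∈ U) {x : V} (z0 z1 z2 y0 y1 y2 : V)
    (h0 : z0 ∈ U) (h1 : z1 ∈ U) (h2 : z2 ∈ U) :
    jac B0 b β x * B0.det (Sum.elim ![z0, z1, z2] ![y0, y1, y2])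
      = (!![β y0 x z0, β y0 x z1, β y0 x z2;
            β y1 x z0, β y1 x z1, β y1 x z2;
            β y2 x z0, β y2 x z1, β y2 x z2] : Matrix (Fin 3) (Fin 3) ℂ).det := by
  rw [jac_mul hV hU hβ hb x ![z0, z1, z2] ![y0, y1, y2] (fun i => by fin_cases i <;> assumption)]
  congr 1
  ext i j
  fin_cases i <;> fin_cases j <;> rfl

omit [FiniteDimensional ℂ V] in
theorem det_ne_zero_of_li (B0 : Basis (Fin 3 ⊕ Fin 3) ℂ V) {v : Fin 3 ⊕ Fin 3 → V}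
    (hv : LinearIndependent ℂ v) : B0.det v ≠ 0 := by
  have hc : Fintype.card (Fin 3 ⊕ Fin 3) = finrank ℂ V := by
    rw [finrank_eq_card_basis B0]
  have h := B0.isUnit_det (basisOfLinearIndependentOfCardEqFinrank hv hc)
  rw [coe_basisOfLinearIndependentOfCardEqFinrank] at h
  exact h.ne_zero

theorem finrank_compl_inf {D K0 U : Submodule ℂ V} (hK : IsCompl D K0) (hle : D ≤ U) :
    finrank ℂ D + finrank ℂ (K0 ⊓ U : Submodule ℂ V) = finrank ℂ U := by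
  have h1 := Submodule.finrank_sup_add_finrank_inf_eq D (K0 ⊓ U)
  have h2 : D ⊔ K0 ⊓ U = U := by
    rw [← sup_inf_assoc_of_le K0 hle, hK.sup_eq_top, top_inf_eq]
  have h3 : D ⊓ (K0 ⊓ U) = ⊥ := by
    rw [← inf_assoc, hK.inf_eq_bot, bot_inf_eq]
  rw [h2, h3, finrank_bot] at h1
  omega

omit [FiniteDimensional ℂ V] in
theorem ker_coprod4 {U U' K0 G : Submodule ℂ V} (hK : IsCompl (U ⊓ U') K0)
    (hG : IsCompl (U ⊔ U') G) :
    LinearMap.ker ((U ⊓ U').subtype.coprod ((K0 ⊓ U).subtype.coprod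
      ((K0 ⊓ U').subtype.coprod G.subtype))) = ⊥ := by
  rw [LinearMap.ker_eq_bot']
  rintro ⟨⟨d, hd⟩, ⟨k, hk⟩, ⟨k', hk'⟩, ⟨g, hg⟩⟩ h0
  simp only [LinearMap.coprod_apply, Submodule.coe_subtype] at h0
  have hg0 : g = 0 := by
    have h1 : g ∈ (U ⊔ U') ⊓ G := by
      refine ⟨?_, hg⟩
      have : g = -(d + k) + -k' := by rw [← sub_eq_zero, ← h0]; abel
      rw [this]
      exact Submodule.add_mem _ (Submodule.mem_sup_left (U.neg_mem (U.add_mem hd.1 hk.2)))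
        (Submodule.mem_sup_right (U'.neg_mem hk'.2))
    rw [hG.inf_eq_bot] at h1
    exact (Submodule.mem_bot ℂ).1 h1
  subst hg0
  have hk0' : k' = 0 := by
    have h1 : k' ∈ (U ⊓ U') ⊓ K0 := by
      refine ⟨⟨?_, hk'.2⟩, hk'.1⟩
      have : k' = -(d + k) := by rw [← sub_eq_zero, ← h0]; abel
      rw [this]
      exact U.neg_mem (U.add_mem hd.1 hk.2)
    rw [hK.inf_eq_bot] at h1
    exact (Submodule.mem_bot ℂ).1 h1
  subst hk0'
  have hk0 : k = 0 := by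
    have h1 : k ∈ (U ⊓ U') ⊓ K0 := by
      refine ⟨?_, hk.1⟩
      have : k = -d := by rw [← sub_eq_zero, ← h0]; abel
      rw [this]
      exact Submodule.neg_mem _ hd
    rw [hK.inf_eq_bot] at h1
    exact (Submodule.mem_bot ℂ).1 h1
  subst hk0
  have hd0 : d = 0 := by simpa using h0
  subst hd0
  rfl

theorem frame_one (hV : finrank ℂ V = 6) {U U' : Submodule ℂ V} (hU : finrank ℂ U = 3)
    (hU' : finrank ℂ U' = 3) (hd : finrank ℂ (U ⊓ U' : Submodule ℂ V) = 1) :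
    ∃ e0 e1 e2 f1 f2 g : V, e0 ∈ U ∧ e1 ∈ U ∧ e2 ∈ U ∧ e0 ∈ U' ∧ f1 ∈ U' ∧ f2 ∈ U' ∧
      LinearIndependent ℂ (Sum.elim ![e0, e1, e2] ![f1, f2, g]) := by
  obtain ⟨K0, hK⟩ := Submodule.exists_isCompl (U ⊓ U')
  obtain ⟨G, hG⟩ := Submodule.exists_isCompl (U ⊔ U')
  have h1 := finrank_compl_inf hK (inf_le_left : U ⊓ U' ≤ U)
  have h2 := finrank_compl_inf hK (inf_le_right : U ⊓ U' ≤ U')
  have h3 := Submodule.finrank_add_eq_of_isCompl hG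
  have h4 := Submodule.finrank_sup_add_finrank_inf_eq U U'
  let bD := finBasisOfFinrankEq ℂ (U ⊓ U' : Submodule ℂ V) hd
  let bK := finBasisOfFinrankEq ℂ (K0 ⊓ U : Submodule ℂ V) (n := 2) (by omega)
  let bK' := finBasisOfFinrankEq ℂ (K0 ⊓ U' : Submodule ℂ V) (n := 2) (by omega)
  let bG := finBasisOfFinrankEq ℂ G (n := 1) (by omega)
  have hli := (bD.prod (bK.prod (bK'.prod bG))).linearIndependent.map' _ (ker_coprod4 hK hG)
  let σ : Fin 3 ⊕ Fin 3 → Fin 1 ⊕ (Fin 2 ⊕ (Fin 2 ⊕ Fin 1)) :=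
    Sum.elim ![.inl 0, .inr (.inl 0), .inr (.inl 1)]
      ![.inr (.inr (.inl 0)), .inr (.inr (.inl 1)), .inr (.inr (.inr 0))]
  have hσ : Function.Injective σ := by decide
  refine ⟨bD 0, bK 0, bK 1, bK' 0, bK' 1, bG 0, (bD 0).2.1, (bK 0).2.2, (bK 1).2.2, (bD 0).2.2,
    (bK' 0).2.2, (bK' 1).2.2, ?_⟩
  have hcomp := hli.comp σ hσ
  have hfun : (Sum.elim ![(bD 0 : V), (bK 0 : V), (bK 1 : V)]
      ![(bK' 0 : V), (bK' 1 : V), (bG 0 : V)] : Fin 3 ⊕ Fin 3 → V)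
      = ((((U ⊓ U').subtype.coprod ((K0 ⊓ U).subtype.coprod
      ((K0 ⊓ U').subtype.coprod G.subtype))) ∘ (bD.prod (bK.prod (bK'.prod bG)))) ∘ σ) := by
    funext i
    rcases i with i | i <;> fin_cases i <;> simp [σ]
  rw [hfun]
  exact hcomp

theorem frame_two (hV : finrank ℂ V = 6) {U U' : Submodule ℂ V} (hU : finrank ℂ U = 3)
    (hU' : finrank ℂ U' = 3) (hd : finrank ℂ (U ⊓ U' : Submodule ℂ V) = 2) :
    ∃ e0 e1 e2 f g1 g2 : V, e0 ∈ U ∧ e1 ∈ U ∧ e2 ∈ U ∧ e0 ∈ U' ∧ e1 ∈ U' ∧ f ∈ U' ∧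
      LinearIndependent ℂ (Sum.elim ![e0, e1, e2] ![f, g1, g2]) := by
  obtain ⟨K0, hK⟩ := Submodule.exists_isCompl (U ⊓ U')
  obtain ⟨G, hG⟩ := Submodule.exists_isCompl (U ⊔ U')
  have h1 := finrank_compl_inf hK (inf_le_left : U ⊓ U' ≤ U)
  have h2 := finrank_compl_inf hK (inf_le_right : U ⊓ U' ≤ U')
  have h3 := Submodule.finrank_add_eq_of_isCompl hG
  have h4 := Submodule.finrank_sup_add_finrank_inf_eq U U'
  let bD := finBasisOfFinrankEq ℂ (U ⊓ U' : Submodule ℂ V) hd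
  let bK := finBasisOfFinrankEq ℂ (K0 ⊓ U : Submodule ℂ V) (n := 1) (by omega)
  let bK' := finBasisOfFinrankEq ℂ (K0 ⊓ U' : Submodule ℂ V) (n := 1) (by omega)
  let bG := finBasisOfFinrankEq ℂ G (n := 2) (by omega)
  have hli := (bD.prod (bK.prod (bK'.prod bG))).linearIndependent.map' _ (ker_coprod4 hK hG)
  let σ : Fin 3 ⊕ Fin 3 → Fin 2 ⊕ (Fin 1 ⊕ (Fin 1 ⊕ Fin 2)) :=
    Sum.elim ![.inl 0, .inl 1, .inr (.inl 0)]
      ![.inr (.inr (.inl 0)), .inr (.inr (.inr 0)), .inr (.inr (.inr 1))]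
  have hσ : Function.Injective σ := by decide
  refine ⟨bD 0, bD 1, bK 0, bK' 0, bG 0, bG 1, (bD 0).2.1, (bD 1).2.1, (bK 0).2.2, (bD 0).2.2,
    (bD 1).2.2, (bK' 0).2.2, ?_⟩
  have hcomp := hli.comp σ hσ
  have hfun : (Sum.elim ![(bD 0 : V), (bD 1 : V), (bK 0 : V)]
      ![(bK' 0 : V), (bG 0 : V), (bG 1 : V)] : Fin 3 ⊕ Fin 3 → V)
      = ((((U ⊓ U').subtype.coprod ((K0 ⊓ U).subtype.coprod
      ((K0 ⊓ U').subtype.coprod G.subtype))) ∘ (bD.prod (bK.prod (bK'.prod bG)))) ∘ σ) := by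
    funext i
    rcases i with i | i <;> fin_cases i <;> simp [σ]
  rw [hfun]
  exact hcomp

/-- Elements of `U` in terms of a frame. -/
theorem mem_frame {U : Submodule ℂ V} (hV : finrank ℂ V = 6) (hU : finrank ℂ U = 3)
    {z0 z1 z2 y0 y1 y2 : V} (h0 : z0 ∈ U) (h1 : z1 ∈ U) (h2 : z2 ∈ U)
    (hli : LinearIndependent ℂ (Sum.elim ![z0, z1, z2] ![y0, y1, y2])) :
    ∃ X0 X1 X2 : V →ₗ[ℂ] ℂ, ∀ x ∈ U, x = X0 x • z0 + X1 x • z1 + X2 x • z2 := by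
  have hc : Fintype.card (Fin 3 ⊕ Fin 3) = finrank ℂ V := by
    rw [hV]
    rfl
  let b := basisOfLinearIndependentOfCardEqFinrank hli hc
  have hb : ∀ i, b i = Sum.elim ![z0, z1, z2] ![y0, y1, y2] i := fun i => by
    simp [b]
  refine ⟨b.coord (Sum.inl 0), b.coord (Sum.inl 1), b.coord (Sum.inl 2), fun x hx => ?_⟩
  have hbU : ∀ i, b (Sum.inl i) ∈ U := by
    intro i
    rw [hb]
    fin_cases i <;> assumption
  have h3 := b.sum_repr x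
  rw [Fintype.sum_sum_type, Fin.sum_univ_three, Fin.sum_univ_three,
    repr_inr_eq_zero hV hU hbU hx, repr_inr_eq_zero hV hU hbU hx,
    repr_inr_eq_zero hV hU hbU hx, hb, hb, hb] at h3
  simp only [zero_smul, add_zero] at h3
  exact h3.symm

/-- Two planes meeting in one point. -/
theorem inI_point (h : IsSm T) (hV : finrank ℂ V = 6) {U U' : Submodule ℂ V} (hU : Pl T U)
    (hU' : Pl T U') (hd : finrank ℂ (U ⊓ U' : Submodule ℂ V) = 1)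
    {B0 b b' : Basis (Fin 3 ⊕ Fin 3) ℂ V} {β β' : V →ₗ[ℂ] V →ₗ[ℂ] V →ₗ[ℂ] ℂ}
    (hβ : IsPres T U β) (hb : ∀ i, b (Sum.inl i) ∈ U) (hβ' : IsPres T U' β')
    (hb' : ∀ i, b' (Sum.inl i) ∈ U') :
    InI T U (fun x => jac B0 b β x - 4 * jac B0 b' β' x) := by
  obtain ⟨e0, e1, e2, f1, f2, g, he0, he1, he2, he0', hf1, hf2, hli⟩ :=
    frame_one hV hU.dim hU'.dim hd
  obtain ⟨X0, X1, X2, hX⟩ := mem_frame hV hU.dim he0 he1 he2 hli
  have hω := det_ne_zero_of_li B0 hli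
  have hω' : B0.det (Sum.elim ![e0, f1, f2] ![e1, e2, g])
      = B0.det (Sum.elim ![e0, e1, e2] ![f1, f2, g]) := by
    have s1 := B0.det.map_swap (Sum.elim ![e0, e1, e2] ![f1, f2, g])
      (i := Sum.inl 1) (j := Sum.inr 0) (by simp)
    have s2 := B0.det.map_swap ((Sum.elim ![e0, e1, e2] ![f1, f2, g]) ∘
      (Equiv.swap (Sum.inl 1 : Fin 3 ⊕ Fin 3) (Sum.inr 0)))
      (i := Sum.inl 2) (j := Sum.inr 1) (by simp)
    rw [s1, neg_neg] at s2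
    rw [← s2]
    congr 1
    funext i
    rcases i with i | i <;> fin_cases i <;> rfl
  -- relations
  have r00 : ∀ p q, β' e0 p q = 0 := hβ'.zero e0 he0'
  have rf1 : ∀ p q, β' f1 p q = 0 := hβ'.zero f1 hf1
  have rf2 : ∀ p q, β' f2 p q = 0 := hβ'.zero f2 hf2
  have q10 : β' e1 e0 e0 = 0 := by
    have := hβ'.sum e1 e0 e0
    rw [hU.zero e1 he1 e0 he0 e0 he0, r00] at this
    linear_combination -this
  have q20 : β' e2 e0 e0 = 0 := by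
    have := hβ'.sum e2 e0 e0
    rw [hU.zero e2 he2 e0 he0 e0 he0, r00] at this
    linear_combination -this
  have q11 : β' e1 e1 e0 = 0 := by
    have := hβ'.sum e1 e1 e0
    rw [hU.zero e1 he1 e1 he1 e0 he0, r00] at this
    linear_combination (-1 / 2 : ℂ) * this
  have q22 : β' e2 e2 e0 = 0 := by
    have := hβ'.sum e2 e2 e0
    rw [hU.zero e2 he2 e2 he2 e0 he0, r00] at this
    linear_combination (-1 / 2 : ℂ) * this
  have q21 : β' e2 e1 e0 = - β' e1 e2 e0 := by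
    have := hβ'.sum e1 e2 e0
    rw [hU.zero e1 he1 e2 he2 e0 he0, r00] at this
    linear_combination -this
  -- the vector field
  let c3 : V →ₗ[ℂ] ℂ := (2 * (β' e1 f2 e2 - β' e2 f2 e1) * 3) • T g e0
    + (2 * β' e2 f2 e0 * 3) • T g e1 - (2 * β' e1 f2 e0 * 3) • T g e2
    - (4 * β' e1 e2 e0) • β' g f2 + (4 * β' e1 e0 g) • β' e2 f2 - (4 * β' e2 e0 g) • β' e1 f2
  let c4 : V →ₗ[ℂ] ℂ := -((2 * (β' e1 f1 e2 - β' e2 f1 e1) * 3) • T g e0)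
    - (2 * β' e2 f1 e0 * 3) • T g e1 + (2 * β' e1 f1 e0 * 3) • T g e2
    + (4 * β' e1 e2 e0) • β' g f1 - (4 * β' e1 e0 g) • β' e2 f1 + (4 * β' e2 e0 g) • β' e1 f1
  let c5 : V →ₗ[ℂ] ℂ := (2 * (3 * (β' e2 f1 e0 * β' e1 f2 e0 - β' e2 f2 e0 * β' e1 f1 e0))) • X0
    + (2 * (- (β' e1 f1 e0 * β' e1 f2 e2 - β' e1 f2 e0 * β' e1 f1 e2)
      - (β' e1 f1 e0 * β' e2 f2 e1 - β' e1 f2 e0 * β' e2 f1 e1)
      + 2 * (β' e2 f1 e0 * β' e1 f2 e1 - β' e2 f2 e0 * β' e1 f1 e1))) • X1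
    + (2 * ((β' e2 f1 e0 * β' e1 f2 e2 - β' e2 f2 e0 * β' e1 f1 e2)
      + (β' e2 f1 e0 * β' e2 f2 e1 - β' e2 f2 e0 * β' e2 f1 e1)
      - 2 * (β' e1 f1 e0 * β' e2 f2 e2 - β' e1 f2 e0 * β' e2 f1 e2))) • X2
  refine ⟨((B0.det (Sum.elim ![e0, e1, e2] ![f1, f2, g]))⁻¹ * (3 / 2)) •
    (c3.smulRight f1 + c4.smulRight f2 + c5.smulRight g), fun x hx => ?_⟩
  have E1 := jac_mul' hV hU.dim (B0 := B0) hβ hb (x := x) e0 e1 e2 f1 f2 g he0 he1 he2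
  have E2 := jac_mul' hV hU'.dim (B0 := B0) hβ' hb' (x := x) e0 f1 f2 e1 e2 g he0' hf1 hf2
  rw [hω'] at E2
  have hxe := hX x hx
  have v3 : c3 x = (2 * (β' e1 f2 e2 - β' e2 f2 e1) * 3) * T g e0 x
    + (2 * β' e2 f2 e0 * 3) * T g e1 x - (2 * β' e1 f2 e0 * 3) * T g e2 x
    - (4 * β' e1 e2 e0) * β' g f2 x + (4 * β' e1 e0 g) * β' e2 f2 x
    - (4 * β' e2 e0 g) * β' e1 f2 x := by
    simp [c3]
  have v4 : c4 x = -((2 * (β' e1 f1 e2 - β' e2 f1 e1) * 3) * T g e0 x)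
    - (2 * β' e2 f1 e0 * 3) * T g e1 x + (2 * β' e1 f1 e0 * 3) * T g e2 x
    + (4 * β' e1 e2 e0) * β' g f1 x - (4 * β' e1 e0 g) * β' e2 f1 x
    + (4 * β' e2 e0 g) * β' e1 f1 x := by
    simp [c4]
  have v5 : c5 x = (2 * (3 * (β' e2 f1 e0 * β' e1 f2 e0 - β' e2 f2 e0 * β' e1 f1 e0))) * X0 x
    + (2 * (- (β' e1 f1 e0 * β' e1 f2 e2 - β' e1 f2 e0 * β' e1 f1 e2)
      - (β' e1 f1 e0 * β' e2 f2 e1 - β' e1 f2 e0 * β' e2 f1 e1)
      + 2 * (β' e2 f1 e0 * β' e1 f2 e1 - β' e2 f2 e0 * β' e1 f1 e1))) * X1 x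
    + (2 * ((β' e2 f1 e0 * β' e1 f2 e2 - β' e2 f2 e0 * β' e1 f1 e2)
      + (β' e2 f1 e0 * β' e2 f2 e1 - β' e2 f2 e0 * β' e2 f1 e1)
      - 2 * (β' e1 f1 e0 * β' e2 f2 e2 - β' e1 f2 e0 * β' e2 f1 e2))) * X2 x := by
    simp [c5]
  simp only [LinearMap.smul_apply, LinearMap.add_apply, LinearMap.smulRight_apply, map_smul,
    map_add, smul_eq_mul]
  rw [v3, v4, v5]
  generalize X0 x = x0 at *
  generalize X1 x = x1 at *
  generalize X2 x = x2 at *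
  clear v3 v4 v5 c3 c4 c5 hX
  -- values
  have hT : ∀ f, (∀ p q, β' f p q = 0) → ∀ e ∈ U,
      β f x e = x1 * β' e1 f e + x2 * β' e2 f e + β' e f x := by
    intro f hf e he
    rw [hβ.eq_of_mem hx he, hβ'.sum x e f, hβ'.symm e1 f e, hβ'.symm e2 f e, hβ'.symm e f x, hf]
    conv_lhs => rw [hxe]
    simp only [map_add, map_smul, LinearMap.add_apply, LinearMap.smul_apply, smul_eq_mul, r00]
    conv_rhs => rw [hxe]
    simp only [map_add, map_smul, LinearMap.add_apply, LinearMap.smul_apply, smul_eq_mul]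
    ring
  have hTg : ∀ e ∈ U, β g x e = 3 * T g e x := by
    intro e he
    rw [hβ.eq_of_mem hx he, h.c12 x e g, h.c23 e x g, h.c12 e g x]
  have n1 : β' e1 x e0 = x2 * β' e1 e2 e0 := by
    conv_lhs => rw [hxe]
    simp only [map_add, map_smul, LinearMap.add_apply, LinearMap.smul_apply, smul_eq_mul, q10,
      q11]
    ring
  have n2 : β' e2 x e0 = - (x1 * β' e1 e2 e0) := by
    conv_lhs => rw [hxe]
    simp only [map_add, map_smul, LinearMap.add_apply, LinearMap.smul_apply, smul_eq_mul, q20,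
      q22, q21]
    ring
  have n3 : β' g x e0 = 3 * T g e0 x - x1 * β' e1 e0 g - x2 * β' e2 e0 g := by
    have h1 := hβ'.sum x e0 g
    have h2 : β' x e0 g = x1 * β' e1 e0 g + x2 * β' e2 e0 g := by
      conv_lhs => rw [hxe]
      simp only [map_add, map_smul, LinearMap.add_apply, LinearMap.smul_apply, smul_eq_mul, r00]
      ring
    rw [r00, h2, h.c12 x e0 g, h.c23 e0 x g, h.c12 e0 g x] at h1
    linear_combination -h1
  have ex : ∀ p q, β' p q x = β' p q e0 * x0 + β' p q e1 * x1 + β' p q e2 * x2 := by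
    intro p q
    conv_lhs => rw [hxe]
    simp only [map_add, map_smul, smul_eq_mul]
    ring
  have xx : ∀ f, (∀ p q, β' f p q = 0) → T x x f = (2 / 3) * (x1 * β' e1 f x + x2 * β' e2 f x) := by
    intro f hf
    have h1 := hβ'.sum x x f
    rw [hf] at h1
    have h2 : β' x x f = x1 * β' e1 f x + x2 * β' e2 f x := by
      rw [hβ'.symm x x f]
      conv_lhs => rw [hxe]
      simp only [map_add, map_smul, LinearMap.add_apply, LinearMap.smul_apply, smul_eq_mul, r00]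
      conv_rhs => rw [hxe]
      simp only [map_add, map_smul, smul_eq_mul]
      ring
    rw [h2] at h1
    linear_combination (1 / 3 : ℂ) * h1
  have xg : T x x g = x0 * T g e0 x + x1 * T g e1 x + x2 * T g e2 x := by
    rw [h.c23 x x g, h.c12 x g x, h.c23 g x x]
    have : T g x = x0 • T g e0 + x1 • T g e1 + x2 • T g e2 := by
      conv_lhs => rw [hxe]
      simp only [map_add, map_smul]
    rw [this]
    simp
  rw [hT f1 rf1 e0 he0, hT f1 rf1 e1 he1, hT f1 rf1 e2 he2, hT f2 rf2 e0 he0, hT f2 rf2 e1 he1,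
    hT f2 rf2 e2 he2, hTg e0 he0, hTg e1 he1, hTg e2 he2, r00, r00] at E1
  rw [n1, n2, n3, hβ'.symm e1 x f1, hβ'.symm e1 x f2, hβ'.symm e2 x f1, hβ'.symm e2 x f2,
    hβ'.symm g x f1, hβ'.symm g x f2, Matrix.det_fin_three] at E2
  have id := ident_point x0 x1 x2 (β' e1 f1 e0) (β' e1 f1 e1) (β' e1 f1 e2) (β' e1 f2 e0)
    (β' e1 f2 e1) (β' e1 f2 e2) (β' e2 f1 e0) (β' e2 f1 e1) (β' e2 f1 e2) (β' e2 f2 e0)
    (β' e2 f2 e1) (β' e2 f2 e2) (3 * T g e0 x) (3 * T g e1 x) (3 * T g e2 x)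
    (β' e1 f1 x) (β' e2 f1 x) (β' e1 f2 x) (β' e2 f2 x) _ _ (ex _ _) (ex _ _) (ex _ _) (ex _ _)
    rfl rfl
  have hE : (!![x1 * β' e1 f1 e0 + x2 * β' e2 f1 e0 + 0,
          x1 * β' e1 f1 e1 + x2 * β' e2 f1 e1 + β' e1 f1 x,
          x1 * β' e1 f1 e2 + x2 * β' e2 f1 e2 + β' e2 f1 x;
        x1 * β' e1 f2 e0 + x2 * β' e2 f2 e0 + 0,
          x1 * β' e1 f2 e1 + x2 * β' e2 f2 e1 + β' e1 f2 x,
          x1 * β' e1 f2 e2 + x2 * β' e2 f2 e2 + β' e2 f2 x;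
        3 * T g e0 x, 3 * T g e1 x, 3 * T g e2 x] : Matrix (Fin 3) (Fin 3) ℂ)
      = !![x1 * β' e1 f1 e0 + x2 * β' e2 f1 e0, β' e1 f1 x + x1 * β' e1 f1 e1 + x2 * β' e2 f1 e1,
          β' e2 f1 x + x1 * β' e1 f1 e2 + x2 * β' e2 f1 e2;
        x1 * β' e1 f2 e0 + x2 * β' e2 f2 e0, β' e1 f2 x + x1 * β' e1 f2 e1 + x2 * β' e2 f2 e1,
          β' e2 f2 x + x1 * β' e1 f2 e2 + x2 * β' e2 f2 e2;
        3 * T g e0 x, 3 * T g e1 x, 3 * T g e2 x] := by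
    ext i j
    fin_cases i <;> fin_cases j <;> simp <;> ring
  rw [hE] at E1
  rw [sub_eq_iff_eq_add, ← E1] at id
  rw [xx f1 rf1, xx f2 rf2, xg]
  simp only [Matrix.of_apply, Matrix.cons_val', Matrix.cons_val_zero, Matrix.cons_val_one,
    Matrix.cons_val] at E2
  field_simp
  linear_combination id - 4 * E2

/-- Two planes meeting along a line. -/
theorem inI_line (h : IsSm T) (hV : finrank ℂ V = 6) {U U' : Submodule ℂ V} (hU : Pl T U)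
    (hU' : Pl T U') (hd : finrank ℂ (U ⊓ U' : Submodule ℂ V) = 2)
    {B0 b b' : Basis (Fin 3 ⊕ Fin 3) ℂ V} {β β' : V →ₗ[ℂ] V →ₗ[ℂ] V →ₗ[ℂ] ℂ}
    (hβ : IsPres T U β) (hb : ∀ i, b (Sum.inl i) ∈ U) (hβ' : IsPres T U' β')
    (hb' : ∀ i, b' (Sum.inl i) ∈ U') :
    InI T U (fun x => jac B0 b β x + 2 * jac B0 b' β' x) := by
  obtain ⟨e0, e1, e2, f, g1, g2, he0, he1, he2, he0', he1', hf, hli⟩ :=
    frame_two hV hU.dim hU'.dim hd
  obtain ⟨X0, X1, X2, hX⟩ := mem_frame hV hU.dim he0 he1 he2 hli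
  have hω := det_ne_zero_of_li B0 hli
  have hω' : B0.det (Sum.elim ![e0, e1, f] ![e2, g1, g2])
      = - B0.det (Sum.elim ![e0, e1, e2] ![f, g1, g2]) := by
    have s1 := B0.det.map_swap (Sum.elim ![e0, e1, e2] ![f, g1, g2])
      (i := Sum.inl 2) (j := Sum.inr 0) (by simp)
    rw [← s1]
    congr 1
    funext i
    rcases i with i | i <;> fin_cases i <;> rfl
  -- relations
  have r00 : ∀ p q, β' e0 p q = 0 := hβ'.zero e0 he0'
  have r01 : ∀ p q, β' e1 p q = 0 := hβ'.zero e1 he1'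
  have rf : ∀ p q, β' f p q = 0 := hβ'.zero f hf
  have q2 : ∀ e ∈ U, (∀ p q, β' e p q = 0) → β' e2 e2 e = 0 := by
    intro e he he'
    have := hβ'.sum e2 e2 e
    rw [hU.zero e2 he2 e2 he2 e he, he'] at this
    linear_combination (-1 / 2 : ℂ) * this
  have q3 : ∀ e ∈ U, (∀ p q, β' e p q = 0) → ∀ e' ∈ U, (∀ p q, β' e' p q = 0) →
      β' e2 e e' = 0 := by
    intro e he he' e' h1 h2
    have := hβ'.sum e2 e e'
    rw [hU.zero e2 he2 e he e' h1, he', h2] at this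
    linear_combination -this
  -- the vector field
  let c3 : V →ₗ[ℂ] ℂ := (-3 : ℂ) • (-((β' e2 e1 g2 * 3) • T g1 e0) - (β' e2 e0 g1 * 3) • T g2 e1
    + (β' e2 e0 g2 * 3) • T g1 e1 + (β' e2 e1 g1 * 3) • T g2 e0
    + (β' e2 e0 g1 * β' e2 e1 g2 - β' e2 e1 g1 * β' e2 e0 g2) • X2)
  let c4 : V →ₗ[ℂ] ℂ := (3 : ℂ) • ((β' e2 f e1 * 3) • T g2 e0 - (β' e2 f e0 * 3) • T g2 e1)
  let c5 : V →ₗ[ℂ] ℂ := (3 : ℂ) • ((β' e2 f e0 * 3) • T g1 e1 - (β' e2 f e1 * 3) • T g1 e0)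
  refine ⟨((B0.det (Sum.elim ![e0, e1, e2] ![f, g1, g2]))⁻¹) •
    (c3.smulRight f + c4.smulRight g1 + c5.smulRight g2), fun x hx => ?_⟩
  have E1 := jac_mul' hV hU.dim (B0 := B0) hβ hb (x := x) e0 e1 e2 f g1 g2 he0 he1 he2
  have E2 := jac_mul' hV hU'.dim (B0 := B0) hβ' hb' (x := x) e0 e1 f e2 g1 g2 he0' he1' hf
  rw [hω'] at E2
  have hxe := hX x hx
  have v3 : c3 x = (-3 : ℂ) * (-((β' e2 e1 g2 * 3) * T g1 e0 x) - (β' e2 e0 g1 * 3) * T g2 e1 x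
    + (β' e2 e0 g2 * 3) * T g1 e1 x + (β' e2 e1 g1 * 3) * T g2 e0 x
    + (β' e2 e0 g1 * β' e2 e1 g2 - β' e2 e1 g1 * β' e2 e0 g2) * X2 x) := by
    simp only [c3, LinearMap.smul_apply, LinearMap.add_apply, LinearMap.sub_apply,
      LinearMap.neg_apply, smul_eq_mul]
  have v4 : c4 x = (3 : ℂ) * ((β' e2 f e1 * 3) * T g2 e0 x - (β' e2 f e0 * 3) * T g2 e1 x) := by
    simp [c4]
  have v5 : c5 x = (3 : ℂ) * ((β' e2 f e0 * 3) * T g1 e1 x - (β' e2 f e1 * 3) * T g1 e0 x) := by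
    simp [c5]
  simp only [LinearMap.smul_apply, LinearMap.add_apply, LinearMap.smulRight_apply, map_smul,
    map_add, smul_eq_mul]
  rw [v3, v4, v5]
  generalize X0 x = x0 at *
  generalize X1 x = x1 at *
  generalize X2 x = x2 at *
  clear v3 v4 v5 c3 c4 c5 hX
  -- values
  have hx2 : ∀ p q, β' x p q = x2 * β' e2 p q := by
    intro p q
    conv_lhs => rw [hxe]
    simp only [map_add, map_smul, LinearMap.add_apply, LinearMap.smul_apply, smul_eq_mul, r00,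
      r01]
    ring
  have hT : ∀ e ∈ U, β f x e = x2 * β' e2 f e + β' e f x := by
    intro e he
    rw [hβ.eq_of_mem hx he, hβ'.sum x e f, hβ'.symm e f x, rf, hx2, hβ'.symm e2 f e, add_zero]
  have hTg : ∀ g, ∀ e ∈ U, β g x e = 3 * T g e x := by
    intro g e he
    rw [hβ.eq_of_mem hx he, h.c12 x e g, h.c23 e x g, h.c12 e g x]
  have n1 : ∀ e ∈ U, (∀ p q, β' e p q = 0) → β' e2 x e = 0 := by
    intro e he he'
    rw [hβ'.symm]
    conv_lhs => rw [hxe]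
    simp only [map_add, map_smul, smul_eq_mul]
    rw [q3 e he he' e0 he0 r00, q3 e he he' e1 he1 r01, hβ'.symm, q2 e he he']
    ring
  have n3 : ∀ g, ∀ e, (∀ p q, β' e p q = 0) → β' g x e = 3 * T g e x - x2 * β' e2 e g := by
    intro g e he
    have h1 := hβ'.sum x e g
    rw [he, hx2, h.c12 x e g, h.c23 e x g, h.c12 e g x] at h1
    linear_combination -h1
  have ex : β' e2 f x = β' e2 f e0 * x0 + β' e2 f e1 * x1 + β' e2 f e2 * x2 := by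
    conv_lhs => rw [hxe]
    simp only [map_add, map_smul, smul_eq_mul]
    ring
  have xx : T x x f = (2 / 3) * (x2 * β' e2 f x) := by
    have h1 := hβ'.sum x x f
    rw [rf, hx2, hβ'.symm e2 x f] at h1
    linear_combination (1 / 3 : ℂ) * h1
  have xg : ∀ g, T x x g = x0 * T g e0 x + x1 * T g e1 x + x2 * T g e2 x := by
    intro g
    rw [h.c23 x x g, h.c12 x g x, h.c23 g x x]
    have : T g x = x0 • T g e0 + x1 • T g e1 + x2 • T g e2 := by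
      conv_lhs => rw [hxe]
      simp only [map_add, map_smul]
    rw [this]
    simp
  rw [hT e0 he0, hT e1 he1, hT e2 he2, hTg g1 e0 he0, hTg g1 e1 he1, hTg g1 e2 he2,
    hTg g2 e0 he0, hTg g2 e1 he1, hTg g2 e2 he2, r00, r01, Matrix.det_fin_three] at E1
  rw [n1 e0 he0 r00, n1 e1 he1 r01, n3 g1 e0 r00, n3 g1 e1 r01, n3 g2 e0 r00, n3 g2 e1 r01,
    hβ'.symm e2 x f, hβ'.symm g1 x f, hβ'.symm g2 x f, Matrix.det_fin_three] at E2
  rw [xx, xg, xg]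
  simp only [Matrix.of_apply, Matrix.cons_val', Matrix.cons_val_zero, Matrix.cons_val_one,
    Matrix.cons_val] at E1 E2
  rw [ex] at E1 E2 ⊢
  field_simp
  linear_combination E1 - 2 * E2

end Vale.Agent.P287.H528
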