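import Mathlib
import Vale.Agent.P287.H528.Pair

/-!
# The Jacobian class of a plane does not vanish
-/

namespace Vale.Agent.P287.H528

open Module

variable {V : Type*} [AddCommGroup V] [Module ℂ V]

/-- A pencil of quadratic forms on a nonzero space has a degenerate member. -/
theorem exists_degenerate [FiniteDimensional ℂ V] (B C : V →ₗ[ℂ] V →ₗ[ℂ] ℂ) (W : Submodule ℂ V)
    (hW : 1 ≤ finrank ℂ W) :
    ∃ (α β : ℂ) (e : V), (α ≠ 0 ∨ β ≠ 0) ∧ e ∈ W ∧ e ≠ 0 ∧
      ∀ y ∈ W, α * B e y + β * C e y = 0 := by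
  let b : W →ₗ[ℂ] Dual ℂ W := (B.domRestrict₁₂ W W)
  let c : W →ₗ[ℂ] Dual ℂ W := (C.domRestrict₁₂ W W)
  have hb : ∀ x y : W, b x y = B x y := fun x y => rfl
  have hc : ∀ x y : W, c x y = C x y := fun x y => rfl
  have : Nontrivial W := nontrivial_of_finrank_pos (R := ℂ) (by omega)
  by_cases hinj : Function.Injective c
  · have hdim : finrank ℂ W = finrank ℂ (Dual ℂ W) := (Subspace.dual_finrank_eq).symm
    let ce : W ≃ₗ[ℂ] Dual ℂ W := LinearEquiv.ofInjectiveOfFinrankEq c hinj hdim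
    obtain ⟨μ, hμ⟩ := Module.End.exists_eigenvalue ((ce.symm : Dual ℂ W →ₗ[ℂ] W) ∘ₗ b)
    obtain ⟨e, he⟩ := hμ.exists_hasEigenvector
    refine ⟨1, -μ, e, Or.inl one_ne_zero, e.2, by simpa using he.2, fun y hy => ?_⟩
    have h1 : ce.symm (b e) = μ • e := he.apply_eq_smul
    have h2 : b e = μ • ce e := by
      rw [← map_smul, ← h1, LinearEquiv.apply_symm_apply]
    have h3 := LinearMap.congr_fun h2 ⟨y, hy⟩
    have h4 : ce e ⟨y, hy⟩ = C e y := rfl
    rw [hb, LinearMap.smul_apply, h4, smul_eq_mul] at h3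
    simp only at h3
    linear_combination h3
  · rw [← LinearMap.ker_eq_bot, Submodule.eq_bot_iff] at hinj
    push Not at hinj
    obtain ⟨e, he, he0⟩ := hinj
    refine ⟨0, 1, e, Or.inr one_ne_zero, e.2, by simpa using he0, fun y hy => ?_⟩
    have h3 := LinearMap.congr_fun (LinearMap.mem_ker.1 he) ⟨y, hy⟩
    rw [hc] at h3
    simpa using h3

/-- Extracting a spanning pair starting with a given vector. -/
theorem exists_pair [FiniteDimensional ℂ V] {L : Submodule ℂ V} (hL : finrank ℂ L = 2) {v : V}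
    (hv : v ∈ L) (hv0 : v ≠ 0) :
    ∃ w ∈ L, (∀ x ∈ L, ∃ s t : ℂ, x = s • v + t • w) ∧
      (∀ s t : ℂ, s • v + t • w = 0 → s = 0 ∧ t = 0) := by
  have hv0' : (⟨v, hv⟩ : L) ≠ 0 := by simpa using hv0
  obtain ⟨w, hw⟩ := exists_linearIndependent_pair_of_one_lt_finrank (R := ℂ) (by omega) hv0'
  let b := basisOfLinearIndependentOfCardEqFinrank hw (by rw [hL]; rfl)
  refine ⟨w, w.2, fun x hx => ⟨b.repr ⟨x, hx⟩ 0, b.repr ⟨x, hx⟩ 1, ?_⟩, fun s t hst => ?_⟩
  · have h1 := congrArg Subtype.val (b.sum_repr ⟨x, hx⟩)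
    rw [Fin.sum_univ_two] at h1
    have e0 : b 0 = ⟨v, hv⟩ := by simp [b]
    have e1 : b 1 = w := by simp [b]
    rw [e0, e1] at h1
    exact h1.symm
  · rw [LinearIndependent.pair_iff] at hw
    exact hw s t (Subtype.ext (by simpa using hst))

/-- Two binary quadratic forms without common zeros admit no linear syzygy. -/
theorem coprime_binary [FiniteDimensional ℂ V] (B C : V →ₗ[ℂ] V →ₗ[ℂ] ℂ)
    (hB : ∀ x y, B x y = B y x) (hC : ∀ x y, C x y = C y x) {L : Submodule ℂ V}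
    (hL : finrank ℂ L = 2) (hns : ∀ x ∈ L, B x x = 0 → C x x = 0 → x = 0) (m n : V →ₗ[ℂ] ℂ)
    (hmn : ∀ x ∈ L, m x * B x x + n x * C x x = 0) : ∀ x ∈ L, m x = 0 ∧ n x = 0 := by
  obtain ⟨v, hv, hv0, hBv⟩ := exists_zero_one B hB L (by omega)
  obtain ⟨w, hw, hspan, hli⟩ := exists_pair hL hv hv0
  have hCv : C v v ≠ 0 := fun h0 => hv0 (hns v hv hBv h0)
  have nv : n v = 0 := by
    have := hmn v hv
    rw [hBv, mul_zero, zero_add] at this
    exact (mul_eq_zero.1 this).resolve_right hCv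
  have main : ∀ w ∈ L, (∀ s t : ℂ, s • v + t • w = 0 → s = 0 ∧ t = 0) →
      (B v w = 0 ∨ B w w = 0) → m v = 0 ∧ m w = 0 ∧ n w = 0 := by
    intro w hw hli hor
    have hadd : v + w ∈ L := L.add_mem hv hw
    have hsub : v - w ∈ L := L.sub_mem hv hw
    have e1 := hmn w hw
    have e2 := hmn _ hadd
    have e3 := hmn _ hsub
    simp only [map_add, map_sub, LinearMap.add_apply, LinearMap.sub_apply, hB w v, hC w v, hBv,
      nv] at e1 e2 e3
    have hw0 : w ≠ 0 := by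
      rintro rfl
      have := hli 0 1 (by simp)
      exact one_ne_zero this.2
    by_cases hww : B w w = 0
    · have hCw : C w w ≠ 0 := fun h0 => hw0 (hns w hw hww h0)
      have hvw : B v w ≠ 0 := by
        intro hvw
        obtain ⟨x, hx, hx0, hCx⟩ := exists_zero_one C hC (Submodule.span ℂ {v, w}) (by
          have hli2 : LinearIndependent ℂ ![v, w] := by
            rw [LinearIndependent.pair_iff]
            exact hli
          have := finrank_span_eq_card hli2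
          rw [Matrix.range_cons, Matrix.range_cons, Matrix.range_empty, Set.union_empty,
            Set.singleton_union] at this
          rw [this, Fintype.card_fin])
        obtain ⟨s, t, rfl⟩ := Submodule.mem_span_pair.1 hx
        apply hx0
        apply hns _ (L.add_mem (L.smul_mem _ hv) (L.smul_mem _ hw)) _ hCx
        simp only [map_add, map_smul, LinearMap.add_apply, LinearMap.smul_apply, smul_eq_mul,
          hB w v, hBv, hvw, hww]
        ring
      have nw : n w = 0 := by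
        rw [hww, mul_zero, zero_add] at e1
        exact (mul_eq_zero.1 e1).resolve_right hCw
      rw [hww, nw] at e2 e3
      have e4 : (m v + m w) * B v w = 0 := by linear_combination (1 / 2 : ℂ) * e2
      have e5 : (m v - m w) * B v w = 0 := by linear_combination (-1 / 2 : ℂ) * e3
      have e6 := (mul_eq_zero.1 e4).resolve_right hvw
      have e7 := (mul_eq_zero.1 e5).resolve_right hvw
      exact ⟨by linear_combination (1 / 2 : ℂ) * e6 + (1 / 2 : ℂ) * e7,
        by linear_combination (1 / 2 : ℂ) * e6 - (1 / 2 : ℂ) * e7, nw⟩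
    · have hvw : B v w = 0 := hor.resolve_right hww
      rw [hvw] at e2 e3
      have e4 : n w * C v v = 0 := by
        linear_combination (1 / 2 : ℂ) * e2 - (1 / 2 : ℂ) * e3 - e1
      have nw : n w = 0 := (mul_eq_zero.1 e4).resolve_right hCv
      rw [nw] at e1 e2 e3
      have mw : m w = 0 := by
        rw [zero_mul, add_zero] at e1
        exact (mul_eq_zero.1 e1).resolve_right hww
      rw [mw] at e2
      have e5 : m v * B w w = 0 := by linear_combination e2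
      exact ⟨(mul_eq_zero.1 e5).resolve_right hww, mw, nw⟩
  have key : m v = 0 ∧ m w = 0 ∧ n w = 0 := by
    by_cases hvw : B v w = 0
    · exact main w hw hli (Or.inl hvw)
    · have h1 := main (w - (B w w / (2 * B v w)) • v) (L.sub_mem hw (L.smul_mem _ hv)) (by
        intro s t hst
        have h2 := hli (s - t * (B w w / (2 * B v w))) t (by
          rw [← hst, smul_sub, smul_smul, sub_smul]
          abel)
        refine ⟨?_, h2.2⟩
        have h3 := h2.1
        rw [h2.2] at h3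
        simpa using h3) (Or.inr (by
          simp only [map_sub, map_smul, LinearMap.sub_apply, LinearMap.smul_apply, smul_eq_mul,
            hB w v, hBv]
          field_simp
          ring))
      simp only [map_sub, map_smul, smul_eq_mul, nv] at h1
      obtain ⟨h2, h3, h4⟩ := h1
      rw [h2] at h3
      exact ⟨h2, by linear_combination h3, by linear_combination h4⟩
  intro x hx
  obtain ⟨s, t, rfl⟩ := hspan x hx
  simp only [map_add, map_smul, smul_eq_mul, key.1, key.2.1, key.2.2, nv]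
  simp

variable {T : V →ₗ[ℂ] V →ₗ[ℂ] V →ₗ[ℂ] ℂ}

/-- `y0, y1, y2` span `V` modulo `U`. -/
def Net (U : Submodule ℂ V) (y0 y1 y2 : V) : Prop :=
  ∀ v, ∃ u ∈ U, ∃ c0 c1 c2 : ℂ, v = u + c0 • y0 + c1 • y1 + c2 • y2

theorem Net.swap {U : Submodule ℂ V} {y0 y1 y2 : V} (h : Net U y0 y1 y2) : Net U y1 y0 y2 := by
  intro v
  obtain ⟨u, hu, c0, c1, c2, hv⟩ := h v
  refine ⟨u, hu, c1, c0, c2, ?_⟩
  rw [hv]
  abel

theorem Net.rot {U : Submodule ℂ V} {y0 y1 y2 : V} (h : Net U y0 y1 y2) : Net U y1 y2 y0 := by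
  intro v
  obtain ⟨u, hu, c0, c1, c2, hv⟩ := h v
  refine ⟨u, hu, c1, c2, c0, ?_⟩
  rw [hv]
  abel

theorem Net.comb {U : Submodule ℂ V} {y0 y1 y2 : V} (h : Net U y0 y1 y2) {α β : ℂ}
    (hα : α ≠ 0) : Net U (α • y0 + β • y1) y1 y2 := by
  intro v
  obtain ⟨u, hu, c0, c1, c2, hv⟩ := h v
  refine ⟨u, hu, c0 / α, c1 - c0 / α * β, c2, ?_⟩
  rw [hv, smul_add, smul_smul, smul_smul, div_mul_cancel₀ _ hα, sub_smul]
  abel

/-- After a change of the spanning set, any nontrivial combination of the first two vectors is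
the first vector. -/
theorem Net.exists_comb {U : Submodule ℂ V} {y0 y1 y2 : V} (h : Net U y0 y1 y2) {α β : ℂ}
    (hαβ : α ≠ 0 ∨ β ≠ 0) : ∃ y1', (y1' = y0 ∨ y1' = y1) ∧ Net U (α • y0 + β • y1) y1' y2 := by
  by_cases hα : α = 0
  · refine ⟨y0, Or.inl rfl, ?_⟩
    have h1 := (h.swap).comb (α := β) (β := α) (hαβ.resolve_left (by simpa using hα))
    rwa [add_comm] at h1
  · exact ⟨y1, Or.inr rfl, h.comb hα⟩

theorem Net.ns {U : Submodule ℂ V} {y0 y1 y2 : V} (hN : Net U y0 y1 y2) (h : IsSm T)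
    (hU : Pl T U) {x : V} (hx : x ∈ U) (h0 : T x x y0 = 0) (h1 : T x x y1 = 0)
    (h2 : T x x y2 = 0) : x = 0 := by
  by_contra hx0
  obtain ⟨z, hz⟩ := h.sm x hx0
  apply hz
  obtain ⟨u, hu, c0, c1, c2, rfl⟩ := hN z
  simp only [map_add, map_smul, h0, h1, h2, hU.zero x hx x hx u hu]
  simp

theorem Net.expand {U : Submodule ℂ V} {y0 y1 y2 : V} (hN : Net U y0 y1 y2) (hU : Pl T U)
    (A : V →ₗ[ℂ] V) : ∃ l0 l1 l2 : V →ₗ[ℂ] ℂ, ∀ x ∈ U,
      T x x (A x) = l0 x * T x x y0 + l1 x * T x x y1 + l2 x * T x x y2 := by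
  let Ψ : (U × (ℂ × ℂ × ℂ)) →ₗ[ℂ] V := U.subtype.coprod
    ((LinearMap.toSpanSingleton ℂ V y0).coprod ((LinearMap.toSpanSingleton ℂ V y1).coprod
      (LinearMap.toSpanSingleton ℂ V y2)))
  have hΨ : ∀ u c0 c1 c2, Ψ (u, (c0, c1, c2)) = u + c0 • y0 + c1 • y1 + c2 • y2 := by
    intro u c0 c1 c2
    simp [Ψ, add_assoc]
  have hsurj : LinearMap.range Ψ = ⊤ := by
    rw [LinearMap.range_eq_top]
    intro v
    obtain ⟨u, hu, c0, c1, c2, rfl⟩ := hN v
    exact ⟨(⟨u, hu⟩, (c0, c1, c2)), hΨ _ _ _ _⟩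
  obtain ⟨g, hg⟩ := LinearMap.exists_rightInverse_of_surjective Ψ hsurj
  refine ⟨LinearMap.fst ℂ ℂ (ℂ × ℂ) ∘ₗ LinearMap.snd ℂ U (ℂ × ℂ × ℂ) ∘ₗ g ∘ₗ A,
    LinearMap.fst ℂ ℂ ℂ ∘ₗ LinearMap.snd ℂ ℂ (ℂ × ℂ) ∘ₗ LinearMap.snd ℂ U (ℂ × ℂ × ℂ) ∘ₗ g ∘ₗ A,
    LinearMap.snd ℂ ℂ ℂ ∘ₗ LinearMap.snd ℂ ℂ (ℂ × ℂ) ∘ₗ LinearMap.snd ℂ U (ℂ × ℂ × ℂ) ∘ₗ g ∘ₗ A,
    fun x hx => ?_⟩
  have h1 : A x = ((g (A x)).1 : V) + (g (A x)).2.1 • y0 + (g (A x)).2.2.1 • y1
      + (g (A x)).2.2.2 • y2 := by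
    rw [← hΨ]
    exact (LinearMap.congr_fun hg (A x)).symm
  conv_lhs => rw [h1]
  simp only [map_add, map_smul, smul_eq_mul, hU.zero x hx x hx _ (g (A x)).1.2, zero_add]
  rfl

/-- The determinants of the net. -/
theorem InI.det [FiniteDimensional ℂ V] {U : Submodule ℂ V} (hV : finrank ℂ V = 6) (hU : Pl T U)
    {B0 b : Basis (Fin 3 ⊕ Fin 3) ℂ V} {β : V →ₗ[ℂ] V →ₗ[ℂ] V →ₗ[ℂ] ℂ} (hβ : IsPres T U β)
    (hb : ∀ i, b (Sum.inl i) ∈ U) (hI : InI T U (jac B0 b β)) {z0 z1 z2 : V} (h0 : z0 ∈ U)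
    (h1 : z1 ∈ U) (h2 : z2 ∈ U) {y0 y1 y2 : V} (hN : Net U y0 y1 y2) :
    ∃ l0 l1 l2 : V →ₗ[ℂ] ℂ, ∀ x ∈ U,
      (!![T x z0 y0, T x z1 y0, T x z2 y0;
          T x z0 y1, T x z1 y1, T x z2 y1;
          T x z0 y2, T x z1 y2, T x z2 y2] : Matrix (Fin 3) (Fin 3) ℂ).det
        = l0 x * T x x y0 + l1 x * T x x y1 + l2 x * T x x y2 := by
  obtain ⟨A, hA⟩ := hI
  obtain ⟨l0, l1, l2, hl⟩ := hN.expand hU
    ((B0.det (Sum.elim ![z0, z1, z2] ![y0, y1, y2]) / 27) • A)
  refine ⟨l0, l1, l2, fun x hx => ?_⟩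
  rw [← hl x hx]
  have h3 := jac_mul' hV hU.dim (B0 := B0) hβ hb (x := x) z0 z1 z2 y0 y1 y2 h0 h1 h2
  simp only [hβ.eq_of_mem hx h0, hβ.eq_of_mem hx h1, hβ.eq_of_mem hx h2,
    Matrix.det_fin_three] at h3
  rw [Matrix.det_fin_three, LinearMap.smul_apply, map_smul, smul_eq_mul, ← hA x hx]
  simp only [Matrix.of_apply, Matrix.cons_val', Matrix.cons_val_zero, Matrix.cons_val_one,
    Matrix.cons_val] at h3 ⊢
  linear_combination (-1 / 27 : ℂ) * h3

/-- Rank two case. -/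
theorem soc_rank_two [FiniteDimensional ℂ V] (h : IsSm T) (hV : finrank ℂ V = 6)
    {U : Submodule ℂ V} (hU : Pl T U)
    {B0 b : Basis (Fin 3 ⊕ Fin 3) ℂ V} {β : V →ₗ[ℂ] V →ₗ[ℂ] V →ₗ[ℂ] ℂ} (hβ : IsPres T U β)
    (hb : ∀ i, b (Sum.inl i) ∈ U) (hI : InI T U (jac B0 b β)) {y0 y1 y2 : V}
    (hN : Net U y0 y1 y2) {e v w : V} (he : e ∈ U) (hv : v ∈ U) (hw : w ∈ U) (he0 : e ≠ 0)
    (hey : ∀ u ∈ U, T e u y0 = 0) (hvv : T v v y0 = 0) (hww : T w w y0 = 0)
    (hvw : T v w y0 ≠ 0) : False := by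
  obtain ⟨l0, l1, l2, hl⟩ := hI.det hV hU hβ hb he hv hw hN
  set c := T v w y0 with hc
  have hwv : T w v y0 = c := by rw [hc, h.c12]
  have heu : ∀ u ∈ U, T u e y0 = 0 := fun u hu => by rw [h.c12]; exact hey u hu
  -- the general line through `e`
  have line : ∀ p ∈ U, T p p y0 = 0 → p ≠ 0 → (∀ s : ℂ, p ≠ s • e) →
      finrank ℂ (Submodule.span ℂ {e, p}) = 2 ∧
      (∀ x ∈ Submodule.span ℂ {e, p}, x ∈ U) ∧
      ∀ x ∈ Submodule.span ℂ {e, p}, (T x x y1 = 0 → T x x y2 = 0 → x = 0) := by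
    intro p hp hpp hp0 hpe
    have hU' : ∀ x ∈ Submodule.span ℂ {e, p}, x ∈ U := by
      intro x hx
      obtain ⟨s, t, rfl⟩ := Submodule.mem_span_pair.1 hx
      exact U.add_mem (U.smul_mem _ he) (U.smul_mem _ hp)
    refine ⟨?_, hU', ?_⟩
    · have hli : LinearIndependent ℂ ![e, p] := by
        rw [LinearIndependent.pair_iff' he0]
        intro a ha
        exact hpe a ha.symm
      have := finrank_span_eq_card hli
      rw [Matrix.range_cons, Matrix.range_cons, Matrix.range_empty, Set.union_empty,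
        Set.singleton_union] at this
      rw [this, Fintype.card_fin]
    · intro x hx h1 h2
      refine hN.ns h hU (hU' x hx) ?_ h1 h2
      obtain ⟨s, t, rfl⟩ := Submodule.mem_span_pair.1 hx
      simp only [map_add, map_smul, LinearMap.add_apply, LinearMap.smul_apply, smul_eq_mul,
        hey e he, hey p hp, heu p hp, hpp]
      ring
  have hv0 : v ≠ 0 := by
    rintro rfl
    apply hvw
    rw [hc]
    simp
  have hw0 : w ≠ 0 := by
    rintro rfl
    apply hvw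
    rw [hc]
    simp
  have hve : ∀ s : ℂ, v ≠ s • e := by
    rintro s rfl
    apply hvw
    rw [hc, map_smul, LinearMap.smul_apply, LinearMap.smul_apply, hey w hw, smul_zero]
  have hwe : ∀ s : ℂ, w ≠ s • e := by
    rintro s rfl
    apply hvw
    rw [← hwv, map_smul, LinearMap.smul_apply, LinearMap.smul_apply, hey v hv, smul_zero]
  obtain ⟨d1, u1, n1⟩ := line w hw hww hw0 hwe
  obtain ⟨d2, u2, n2⟩ := line v hv hvv hv0 hve
  have s1 : ∀ y p q, T y p q = T y q p := fun y p q => h.c23 _ _ _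
  have sw : ∀ p q y, T p q y = T y p q := fun p q y => by rw [h.c23, h.c12]
  -- first line
  have k1 := coprime_binary (T y1) (T y2) (s1 y1) (s1 y2) d1
    (fun x hx h1 h2 => n1 x hx (by rw [sw]; exact h1) (by rw [sw]; exact h2))
    (l1 - c • T y2 e) (l2 + c • T y1 e) (fun x hx => by
      have h1 := hl x (u1 x hx)
      obtain ⟨s, t, rfl⟩ := Submodule.mem_span_pair.1 hx
      rw [Matrix.det_fin_three] at h1
      simp only [Matrix.of_apply, Matrix.cons_val', Matrix.cons_val_zero, Matrix.cons_val_one,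
        Matrix.cons_val, map_add, map_smul, LinearMap.add_apply, LinearMap.smul_apply,
        LinearMap.sub_apply, smul_eq_mul, hey e he, hey v hv, hey w hw, heu w hw, hwv, hww,
        sw _ _ y1, sw _ _ y2, s1 y1 w e, s1 y2 w e] at h1 ⊢
      linear_combination -h1) e (Submodule.mem_span_pair.2 ⟨1, 0, by simp⟩)
  have k2 := coprime_binary (T y1) (T y2) (s1 y1) (s1 y2) d2
    (fun x hx h1 h2 => n2 x hx (by rw [sw]; exact h1) (by rw [sw]; exact h2))
    (l1 + c • T y2 e) (l2 - c • T y1 e) (fun x hx => by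
      have h1 := hl x (u2 x hx)
      obtain ⟨s, t, rfl⟩ := Submodule.mem_span_pair.1 hx
      rw [Matrix.det_fin_three] at h1
      simp only [Matrix.of_apply, Matrix.cons_val', Matrix.cons_val_zero, Matrix.cons_val_one,
        Matrix.cons_val, map_add, map_smul, LinearMap.add_apply, LinearMap.smul_apply,
        LinearMap.sub_apply, smul_eq_mul, hey e he, hey v hv, hey w hw, heu v hv, ← hc, hvv,
        sw _ _ y1, sw _ _ y2, s1 y1 v e, s1 y2 v e] at h1 ⊢
      linear_combination -h1) e (Submodule.mem_span_pair.2 ⟨1, 0, by simp⟩)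
  simp only [LinearMap.add_apply, LinearMap.sub_apply, LinearMap.smul_apply, smul_eq_mul] at k1 k2
  have z2 : T y2 e e = 0 := by
    have : c * T y2 e e = 0 := by linear_combination (1 / 2 : ℂ) * k2.1 - (1 / 2 : ℂ) * k1.1
    exact (mul_eq_zero.1 this).resolve_left hvw
  have z1 : T y1 e e = 0 := by
    have : c * T y1 e e = 0 := by linear_combination (1 / 2 : ℂ) * k1.2 - (1 / 2 : ℂ) * k2.2
    exact (mul_eq_zero.1 this).resolve_left hvw
  exact he0 (hN.ns h hU he (hey e he) (by rw [sw]; exact z1) (by rw [sw]; exact z2))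

theorem quad_coeff {f0 f1 f2 : ℂ} (h : ∀ r : ℂ, r * (f0 + f1 * r + f2 * r ^ 2) = 0) :
    f0 = 0 := by
  have h1 := h 1
  have h2 := h 2
  have h3 := h 3
  linear_combination 3 * h1 - (3 / 2 : ℂ) * h2 + (1 / 3 : ℂ) * h3

/-- Rank one case. -/
theorem soc_rank_one [FiniteDimensional ℂ V] (h : IsSm T) (hV : finrank ℂ V = 6)
    {U : Submodule ℂ V} (hU : Pl T U)
    {B0 b : Basis (Fin 3 ⊕ Fin 3) ℂ V} {β : V →ₗ[ℂ] V →ₗ[ℂ] V →ₗ[ℂ] ℂ} (hβ : IsPres T U β)
    (hb : ∀ i, b (Sum.inl i) ∈ U) (hI : InI T U (jac B0 b β)) {y0 y1 y2 : V}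
    (hN : Net U y0 y1 y2) {L : Submodule ℂ V} (hL : finrank ℂ L = 2) (hLU : L ≤ U)
    (hLy : ∀ p ∈ L, ∀ u ∈ U, T p u y0 = 0) {w : V} (hw : w ∈ U) (hww : T w w y0 ≠ 0) :
    False := by
  have s1 : ∀ y p q, T y p q = T y q p := fun y p q => h.c23 _ _ _
  have sw : ∀ p q y, T p q y = T y p q := fun p q y => by rw [h.c23, h.c12]
  -- a degenerate member on `L`
  obtain ⟨α, β', p, hαβ, hp, hp0, hpd⟩ := exists_degenerate (T y1) (T y2) L (by omega)
  obtain ⟨y2', -, hN'⟩ := (hN.rot).exists_comb hαβ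
  have hN2 : Net U y0 (α • y1 + β' • y2) y2' := hN'.rot.rot
  have hpd' : ∀ y ∈ L, T (α • y1 + β' • y2) p y = 0 := fun y hy => by
    rw [map_add, map_smul, map_smul]
    exact hpd y hy
  generalize α • y1 + β' • y2 = Y1 at *
  -- the other vector
  obtain ⟨q0, hq0, hspan, hli⟩ := exists_pair hL hp hp0
  have hc2 : T y2' p p ≠ 0 := by
    intro h0
    exact hp0 (hN2.ns h hU (hLU hp) (hLy p hp p (hLU hp)) (by rw [sw]; exact hpd' p hp)
      (by rw [sw]; exact h0))
  obtain ⟨q, hq, hpq, hqs, hq2⟩ : ∃ q ∈ L, T y2' p q = 0 ∧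
      (∀ x ∈ L, ∃ s t : ℂ, x = s • p + t • q) ∧
      (∀ s t : ℂ, s • p + t • q = 0 → s = 0 ∧ t = 0) := by
    refine ⟨q0 - (T y2' p q0 / T y2' p p) • p, L.sub_mem hq0 (L.smul_mem _ hp), ?_, ?_, ?_⟩
    · rw [map_sub, map_smul, smul_eq_mul, div_mul_cancel₀ _ hc2, sub_self]
    · intro x hx
      obtain ⟨s, t, rfl⟩ := hspan x hx
      refine ⟨s + t * (T y2' p q0 / T y2' p p), t, ?_⟩
      rw [smul_sub, smul_smul, add_smul]
      abel
    · intro s t hst
      have h2 := hli (s - t * (T y2' p q0 / T y2' p p)) t (by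
        rw [← hst, smul_sub, smul_smul, sub_smul]
        abel)
      refine ⟨?_, h2.2⟩
      have h3 := h2.1
      rw [h2.2] at h3
      simpa using h3
  have hb0 : T Y1 q q ≠ 0 := by
    intro h0
    obtain ⟨x, hx, hx0, hxz⟩ := exists_zero_one (T y2') (s1 y2') L (by omega)
    apply hx0
    refine hN2.ns h hU (hLU hx) (hLy x hx x (hLU hx)) ?_ (by rw [sw]; exact hxz)
    obtain ⟨s, t, rfl⟩ := hqs x hx
    rw [sw]
    simp only [map_add, map_smul, LinearMap.add_apply, LinearMap.smul_apply, smul_eq_mul,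
      hpd' p hp, hpd' q hq, s1 Y1 q p, h0]
    ring
  -- diagonalise
  have hN3 : Net U y0 Y1 (y2' + (-(T y2' q q / T Y1 q q)) • Y1) := by
    have h3 := hN2.rot.swap.comb (α := (1 : ℂ)) (β := -(T y2' q q / T Y1 q q)) one_ne_zero
    rw [one_smul] at h3
    exact h3.swap.rot.rot
  have e1 : T (y2' + (-(T y2' q q / T Y1 q q)) • Y1) p p = T y2' p p := by
    simp only [map_add, map_smul, LinearMap.add_apply, LinearMap.smul_apply, hpd' p hp]
    simp
  have e2 : T (y2' + (-(T y2' q q / T Y1 q q)) • Y1) p q = 0 := by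
    simp only [map_add, map_smul, LinearMap.add_apply, LinearMap.smul_apply, hpd' q hq, hpq]
    simp
  have e3 : T (y2' + (-(T y2' q q / T Y1 q q)) • Y1) q q = 0 := by
    simp only [map_add, map_smul, LinearMap.add_apply, LinearMap.smul_apply, smul_eq_mul]
    field_simp
    ring
  rw [← e1] at hc2
  clear e1
  generalize y2' + (-(T y2' q q / T Y1 q q)) • Y1 = Y2 at *
  obtain ⟨l0, l1, l2, hl⟩ := hI.det hV hU hβ hb (hLU hp) (hLU hq) hw hN3
  have hpp1 := hpd' p hp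
  have hpq1 := hpd' q hq
  have hqp1 : T Y1 q p = 0 := by rw [s1]; exact hpq1
  have hqp2 : T Y2 q p = 0 := by rw [s1]; exact e2
  have hy : ∀ p' ∈ L, ∀ u ∈ U, T y0 p' u = 0 := fun p' hp' u hu => by
    rw [← sw]
    exact hLy p' hp' u hu
  have hy' : ∀ p' ∈ L, ∀ u ∈ U, T y0 u p' = 0 := fun p' hp' u hu => by
    rw [s1]
    exact hy p' hp' u hu
  have hq' := hLU hq
  have hp' := hLU hp
  rw [sw] at hww
  -- expansion
  have hexp : ∀ s t r : ℂ, r * T y0 w w * ((s * T Y1 p p + t * T Y1 q p + r * T Y1 w p) *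
      (s * T Y2 p q + t * T Y2 q q + r * T Y2 w q) - (s * T Y1 p q + t * T Y1 q q + r * T Y1 w q) *
      (s * T Y2 p p + t * T Y2 q p + r * T Y2 w p))
      = (s * l0 p + t * l0 q + r * l0 w) * (r ^ 2 * T y0 w w)
        + (s * l1 p + t * l1 q + r * l1 w) * (s ^ 2 * T Y1 p p + t ^ 2 * T Y1 q q
          + r ^ 2 * T Y1 w w + 2 * s * t * T Y1 p q + 2 * s * r * T Y1 w p + 2 * t * r * T Y1 w q)
        + (s * l2 p + t * l2 q + r * l2 w) * (s ^ 2 * T Y2 p p + t ^ 2 * T Y2 q q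
          + r ^ 2 * T Y2 w w + 2 * s * t * T Y2 p q + 2 * s * r * T Y2 w p
          + 2 * t * r * T Y2 w q) := by
    intro s t r
    have h1 := hl (s • p + t • q + r • w) (U.add_mem (U.add_mem (U.smul_mem _ hp')
      (U.smul_mem _ hq')) (U.smul_mem _ hw))
    rw [Matrix.det_fin_three] at h1
    simp only [Matrix.of_apply, Matrix.cons_val', Matrix.cons_val_zero, Matrix.cons_val_one,
        Matrix.cons_val, sw _ _ y0, sw _ _ Y1, sw _ _ Y2] at h1
    simp only [map_add, map_smul, LinearMap.add_apply, LinearMap.smul_apply, smul_eq_mul,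
      hy p hp p hp', hy p hp q hq', hy q hq p hp', hy q hq q hq', hy p hp w hw, hy q hq w hw,
      hy' p hp w hw, hy' q hq w hw, s1 Y1 p w, s1 Y1 q w, s1 Y2 p w, s1 Y2 q w, s1 Y1 q p,
      s1 Y2 q p] at h1 ⊢
    linear_combination h1
  rw [hqp1, hqp2, hpp1, hpq1, e2, e3] at hexp
  have m1 : l2 p = 0 := by
    have := hexp 1 0 0
    have h1 : l2 p * T Y2 p p = 0 := by linear_combination -this
    exact (mul_eq_zero.1 h1).resolve_right hc2
  have m2 : l1 q = 0 := by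
    have := hexp 0 1 0
    have h1 : l1 q * T Y1 q q = 0 := by linear_combination -this
    exact (mul_eq_zero.1 h1).resolve_right hb0
  have m3 := hexp 1 1 0
  have m4 := hexp 1 (-1) 0
  rw [m1, m2] at m3 m4
  have m5 : l1 p = 0 := by
    have h1 : l1 p * T Y1 q q = 0 := by
      linear_combination (-1 / 2 : ℂ) * m3 - (1 / 2 : ℂ) * m4
    exact (mul_eq_zero.1 h1).resolve_right hb0
  have m6 : l2 q = 0 := by
    have h1 : l2 q * T Y2 p p = 0 := by
      linear_combination (-1 / 2 : ℂ) * m3 + (1 / 2 : ℂ) * m4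
    exact (mul_eq_zero.1 h1).resolve_right hc2
  rw [m1, m2, m5, m6] at hexp
  have hf : ∀ s t : ℂ, -(T y0 w w * t * s * T Y1 q q * T Y2 p p) - l1 w * t ^ 2 * T Y1 q q
      - l2 w * s ^ 2 * T Y2 p p = 0 := by
    intro s t
    refine quad_coeff (f1 := -(T y0 w w * (t * T Y1 q q * T Y2 w p + T Y1 w q * s * T Y2 p p))
      - T y0 w w * (s * l0 p + t * l0 q) - 2 * l1 w * (s * T Y1 w p + t * T Y1 w q)
      - 2 * l2 w * (s * T Y2 w p + t * T Y2 w q))
      (f2 := T y0 w w * (T Y1 w p * T Y2 w q - T Y1 w q * T Y2 w p) - T y0 w w * l0 w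
        - l1 w * T Y1 w w - l2 w * T Y2 w w) (fun r => ?_)
    linear_combination hexp s t r
  have g1 := hf 1 0
  have g2 := hf 0 1
  have g3 := hf 1 1
  have g4 : T y0 w w * T Y1 q q * T Y2 p p = 0 := by linear_combination g1 + g2 - g3
  exact (mul_ne_zero (mul_ne_zero hww hb0) hc2) g4

/-- **The Jacobian class of a plane does not vanish.** -/
theorem Pl.jac_not_inI [FiniteDimensional ℂ V] (h : IsSm T) (hV : finrank ℂ V = 6)
    {U : Submodule ℂ V} (hU : Pl T U)
    {B0 b : Basis (Fin 3 ⊕ Fin 3) ℂ V} {β : V →ₗ[ℂ] V →ₗ[ℂ] V →ₗ[ℂ] ℂ} (hβ : IsPres T U β)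
    (hb : ∀ i, b (Sum.inl i) ∈ U) : ¬ InI T U (jac B0 b β) := by
  intro hI
  have s1 : ∀ y p q, T y p q = T y q p := fun y p q => h.c23 _ _ _
  have sw : ∀ p q y, T p q y = T y p q := fun p q y => by rw [h.c23, h.c12]
  have hN0 : Net U (b (Sum.inr 0)) (b (Sum.inr 1)) (b (Sum.inr 2)) := by
    intro v
    refine ⟨∑ i : Fin 3, b.repr v (Sum.inl i) • b (Sum.inl i), U.sum_mem fun i _ =>
      U.smul_mem _ (hb i), b.repr v (Sum.inr 0), b.repr v (Sum.inr 1), b.repr v (Sum.inr 2), ?_⟩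
    conv_lhs => rw [← b.sum_repr v]
    rw [Fintype.sum_sum_type, Fin.sum_univ_three (fun i => b.repr v (Sum.inr i) • b (Sum.inr i))]
    abel
  obtain ⟨α, β', e, hαβ, he, he0, hed⟩ :=
    exists_degenerate (T (b (Sum.inr 0))) (T (b (Sum.inr 1))) U (by rw [hU.dim]; norm_num)
  obtain ⟨y1, -, hN⟩ := hN0.exists_comb hαβ
  have hey : ∀ u ∈ U, T e u (α • b (Sum.inr 0) + β' • b (Sum.inr 1)) = 0 := fun u hu => by
    rw [sw, map_add, map_smul, map_smul]
    exact hed u hu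
  generalize α • b (Sum.inr 0) + β' • b (Sum.inr 1) = y0 at *
  generalize b (Sum.inr 2) = y2 at hN
  have hee : (ℂ ∙ e) ≤ U := (Submodule.span_singleton_le_iff_mem _ _).2 he
  obtain ⟨K, hK⟩ := Submodule.exists_isCompl (ℂ ∙ e)
  have hdim := finrank_compl_inf hK hee
  rw [finrank_span_singleton he0, hU.dim] at hdim
  have hd2 : finrank ℂ (K ⊓ U : Submodule ℂ V) = 2 := by omega
  obtain ⟨v, hv, hv0, hvz⟩ := exists_zero_one (T y0) (s1 y0) (K ⊓ U) (by omega)
  obtain ⟨w, hw, hspan, hli⟩ := exists_pair hd2 hv hv0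
  have hUspan : ∀ x ∈ U, ∃ r s t : ℂ, x = r • e + (s • v + t • w) := by
    intro x hx
    have h1 : x ∈ (ℂ ∙ e) ⊔ K ⊓ U := by
      rw [← sup_inf_assoc_of_le K hee, hK.sup_eq_top, top_inf_eq]
      exact hx
    obtain ⟨p, hp, q, hq, rfl⟩ := Submodule.mem_sup.1 h1
    obtain ⟨r, rfl⟩ := Submodule.mem_span_singleton.1 hp
    obtain ⟨s, t, rfl⟩ := hspan q hq
    exact ⟨r, s, t, rfl⟩
  by_cases hvw : T v w y0 = 0
  · -- rank one
    have hww : T w w y0 ≠ 0 := by
      intro hww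
      obtain ⟨x, hx, hx0, h1, h2⟩ := exists_zero_two (T y1) (T y2) (s1 y1) (s1 y2) U
        (by rw [hU.dim])
      refine hx0 (hN.ns h hU hx ?_ (by rw [sw]; exact h1) (by rw [sw]; exact h2))
      obtain ⟨r, s, t, rfl⟩ := hUspan x hx
      rw [sw] at hww hvw ⊢
      have hey' : ∀ u ∈ U, T y0 e u = 0 := fun u hu => by rw [← sw]; exact hey u hu
      simp only [map_add, map_smul, LinearMap.add_apply, LinearMap.smul_apply, smul_eq_mul,
        hey' e he, hey' v hv.2, hey' w hw.2, s1 y0 v e, s1 y0 w e, s1 y0 w v, hvz, hww, hvw]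
      ring
    have hveL : LinearIndependent ℂ ![e, v] := by
      rw [LinearIndependent.pair_iff' he0]
      intro a ha
      have h1 : v ∈ (ℂ ∙ e) ⊓ K := ⟨ha ▸ Submodule.smul_mem _ _
        (Submodule.mem_span_singleton_self e), hv.1⟩
      rw [hK.inf_eq_bot] at h1
      exact hv0 ((Submodule.mem_bot ℂ).1 h1)
    have hLd : finrank ℂ (Submodule.span ℂ {e, v}) = 2 := by
      have := finrank_span_eq_card hveL
      rw [Matrix.range_cons, Matrix.range_cons, Matrix.range_empty, Set.union_empty,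
        Set.singleton_union] at this
      rw [this, Fintype.card_fin]
    have hLU : Submodule.span ℂ {e, v} ≤ U := by
      rw [Submodule.span_le]
      rintro x (rfl | rfl)
      · exact he
      · exact hv.2
    refine soc_rank_one h hV hU hβ hb hI hN hLd hLU ?_ hw.2 hww
    intro p hp u hu
    obtain ⟨s, t, rfl⟩ := Submodule.mem_span_pair.1 hp
    obtain ⟨r, s', t', rfl⟩ := hUspan u hu
    rw [sw] at hvw ⊢
    have hey' : ∀ u ∈ U, T y0 e u = 0 := fun u hu => by rw [← sw]; exact hey u hu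
    simp only [map_add, map_smul, LinearMap.add_apply, LinearMap.smul_apply, smul_eq_mul,
      hey' e he, hey' v hv.2, hey' w hw.2, s1 y0 v e, hvz, hvw]
    ring
  · -- rank two
    refine soc_rank_two h hV hU hβ hb hI hN (e := e) (v := v)
      (w := w - (T w w y0 / (2 * T v w y0)) • v) he hv.2
      (U.sub_mem hw.2 (U.smul_mem _ hv.2)) he0 hey (by rw [sw]; exact hvz) ?_ ?_
    · simp only [map_sub, map_smul, LinearMap.sub_apply, LinearMap.smul_apply, smul_eq_mul]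
      rw [h.c12 w v y0, sw v v y0, hvz]
      field_simp
      ring
    · simp only [map_sub, map_smul, LinearMap.sub_apply, LinearMap.smul_apply, smul_eq_mul]
      rw [sw v v y0, hvz, mul_zero, sub_zero]
      exact hvw

end Vale.Agent.P287.H528
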