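import Mathlib
import Vale.Agent.P287.H528.Sm

/-!
# A smooth cubic has no linear vector field
-/

namespace Vale.Agent.P287.H528

open Module

/-- An endomorphism whose only eigenvalue is zero is nilpotent. -/
theorem isNilpotent_of_eigenvalue {V : Type*} [AddCommGroup V] [Module ℂ V]
    [FiniteDimensional ℂ V] (A : End ℂ V) (hA : ∀ μ, A.HasEigenvalue μ → μ = 0) :
    IsNilpotent A := by
  have h1 := End.iSup_maxGenEigenspace_eq_top A
  have h2 : ∀ μ : ℂ, μ ≠ 0 → A.maxGenEigenspace μ = ⊥ := by
    intro μ hμ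
    rw [End.maxGenEigenspace_eq_genEigenspace_finrank]
    by_contra hcon
    exact hμ (hA μ (End.hasEigenvalue_of_hasGenEigenvalue hcon))
  have h3 : A.maxGenEigenspace 0 = ⊤ := by
    rw [← h1]
    apply le_antisymm
    · exact le_iSup (fun μ => A.maxGenEigenspace μ) 0
    · apply iSup_le
      intro μ
      by_cases hμ : μ = 0
      · rw [hμ]
      · rw [h2 μ hμ]
        exact bot_le
  rw [End.maxGenEigenspace_eq_genEigenspace_finrank] at h3
  refine ⟨finrank ℂ V, ?_⟩
  ext x
  have hx : x ∈ A.genEigenspace 0 (finrank ℂ V) := by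
    rw [h3]
    exact Submodule.mem_top
  rw [End.mem_genEigenspace_nat] at hx
  simpa using hx

variable {V : Type*} [AddCommGroup V] [Module ℂ V]
variable {T : V →ₗ[ℂ] V →ₗ[ℂ] V →ₗ[ℂ] ℂ}

theorem polar_vec (h : IsSm T) {A : V →ₗ[ℂ] V} (hA : ∀ x, T x x (A x) = 0) (x y z : V) :
    T (A x) y z + T x (A y) z + T x y (A z) = 0 := by
  have e1 := hA (x + y + z)
  have e2 := hA (x + y)
  have e3 := hA (x + z)
  have e4 := hA (y + z)
  have e5 := hA x
  have e6 := hA y
  have e7 := hA z
  simp only [map_add, LinearMap.add_apply] at e1 e2 e3 e4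
  have s1 : T y x (A z) = T x y (A z) := h.c12 _ _ _
  have s2 : T z x (A y) = T x z (A y) := h.c12 _ _ _
  have s3 : T z y (A x) = T y z (A x) := h.c12 _ _ _
  have s4 : T (A x) y z = T y z (A x) := by rw [h.c12, h.c23]
  have s5 : T x (A y) z = T x z (A y) := by rw [h.c23]
  rw [s1, s2, s3] at e1
  rw [s4, s5]
  have : 2 * (T y z (A x) + T x z (A y) + T x y (A z)) = 0 := by
    linear_combination e1 - e2 - e3 - e4 + e5 + e6 + e7
  simpa using this

/-- Precomposition operators on functions of two variables. -/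
def opL (A : V →ₗ[ℂ] V) : End ℂ (V → V → ℂ) where
  toFun g := fun x y => g (A x) y
  map_add' _ _ := rfl
  map_smul' _ _ := rfl

def opR (A : V →ₗ[ℂ] V) : End ℂ (V → V → ℂ) where
  toFun g := fun x y => g x (A y)
  map_add' _ _ := rfl
  map_smul' _ _ := rfl

theorem opL_pow (A : End ℂ V) (n : ℕ) (g : V → V → ℂ) (x y : V) :
    ((opL A) ^ n) g x y = g ((A ^ n) x) y := by
  induction n generalizing g x with
  | zero => rfl
  | succ n ih =>
    rw [pow_succ, Module.End.mul_apply, ih, pow_succ', Module.End.mul_apply]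
    rfl

theorem opR_pow (A : End ℂ V) (n : ℕ) (g : V → V → ℂ) (x y : V) :
    ((opR A) ^ n) g x y = g x ((A ^ n) y) := by
  induction n generalizing g y with
  | zero => rfl
  | succ n ih =>
    rw [pow_succ, Module.End.mul_apply, ih, pow_succ', Module.End.mul_apply]
    rfl

theorem pow_vec {A : End ℂ V} (hA : ∀ x y z, T (A x) y z + T x (A y) z + T x y (A z) = 0)
    (n : ℕ) (z : V) :
    (fun x y => T x y (((-A) ^ n) z)) = ((opL A + opR A) ^ n) (fun x y => T x y z) := by
  induction n generalizing z with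
  | zero => rfl
  | succ n ih =>
    have h1 : ((-A) ^ (n + 1)) z = ((-A) ^ n) ((-A) z) := by
      rw [pow_succ, Module.End.mul_apply]
    rw [h1, ih, pow_succ, Module.End.mul_apply]
    congr 1
    funext x y
    have h2 : (opL A + opR A) (fun x y => T x y z) x y = T (A x) y z + T x (A y) z := rfl
    rw [h2, LinearMap.neg_apply, map_neg]
    linear_combination -hA x y z

/-- A smooth cubic form is not annihilated by any nonzero linear vector field. -/
theorem IsSm.vec_eq_zero [FiniteDimensional ℂ V] (h : IsSm T) {A : V →ₗ[ℂ] V}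
    (hA : ∀ x, T x x (A x) = 0) : A = 0 := by
  have hpol := polar_vec h hA
  -- all eigenvalues vanish
  have hstep : ∀ c : ℂ, End.HasEigenvalue A c → End.HasEigenvalue A (-2 * c) := by
    intro c hc
    obtain ⟨v, hv⟩ := hc.exists_hasEigenvector
    have hAv : A v = c • v := hv.apply_eq_smul
    obtain ⟨w, hw⟩ := h.sm v hv.2
    rw [End.hasEigenvalue_iff, End.eigenspace_def]
    intro hker
    have hinj := LinearMap.ker_eq_bot.1 hker
    have hsurj := LinearMap.injective_iff_surjective.1 hinj
    obtain ⟨z, hz⟩ := hsurj w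
    apply hw
    rw [← hz]
    have h1 := hpol v v z
    rw [hAv] at h1
    simp only [map_smul, LinearMap.smul_apply, smul_eq_mul] at h1
    simp only [LinearMap.sub_apply, map_sub, LinearMap.smul_apply, Module.End.one_apply, map_smul,
      smul_eq_mul]
    linear_combination h1
  have hzero : ∀ c : ℂ, End.HasEigenvalue A c → c = 0 := by
    intro c hc
    by_contra hc0
    have hall : ∀ n : ℕ, End.HasEigenvalue A ((-2) ^ n * c) := by
      intro n
      induction n with
      | zero => simpa using hc
      | succ n ih =>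
        have := hstep _ ih
        rw [← mul_assoc, ← pow_succ'] at this
        exact this
    have hinj : Function.Injective (fun n : ℕ => ((-2) ^ n * c : ℂ)) := by
      intro m n hmn
      have h1 : ((-2 : ℂ)) ^ m = (-2) ^ n := mul_right_cancel₀ hc0 hmn
      have h2 := congrArg (fun z : ℂ => ‖z‖) h1
      simp only [norm_pow, norm_neg] at h2
      rw [show ‖(2 : ℂ)‖ = 2 by simp] at h2
      exact pow_right_injective₀ (by norm_num) (by norm_num) h2
    exact Set.infinite_of_injective_forall_mem hinj hall (End.finite_hasEigenvalue A)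
  obtain hnil := isNilpotent_of_eigenvalue A hzero
  by_contra hA0
  -- the nilpotency index
  obtain ⟨k, hk1, hk2, hk3⟩ : ∃ k : ℕ, 1 ≤ k ∧ (A : End ℂ V) ^ k ≠ 0 ∧
      (A : End ℂ V) ^ (k + 1) = 0 := by
    classical
    have hex : ∃ n, (A : End ℂ V) ^ n = 0 := hnil
    have h0 : Nat.find hex ≠ 0 := by
      intro h0
      have h1 := Nat.find_spec hex
      rw [h0, pow_zero] at h1
      apply hA0
      ext x
      have := LinearMap.congr_fun h1 (A x)
      simpa using this
    have h1 : Nat.find hex ≠ 1 := by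
      intro h1
      have h2 := Nat.find_spec hex
      rw [h1, pow_one] at h2
      exact hA0 h2
    refine ⟨Nat.find hex - 1, by omega, Nat.find_min hex (by omega), ?_⟩
    have := Nat.find_spec hex
    rwa [show Nat.find hex - 1 + 1 = Nat.find hex by omega]
  have hbig : ∀ n, k < n → (A : End ℂ V) ^ n = 0 := fun n hn =>
    pow_eq_zero_of_le (by omega) hk3
  obtain ⟨u, hu⟩ : ∃ u, ((A : End ℂ V) ^ k) u ≠ 0 := by
    by_contra hcon
    push Not at hcon
    exact hk2 (LinearMap.ext hcon)
  obtain ⟨w, hw⟩ := h.sm _ hu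
  apply hw
  have h1 := congrFun (congrFun (pow_vec (T := T) (A := A) hpol (2 * k) w) u) u
  have hcomm : Commute (opL A) (opR A) := by
    ext g x y
    rfl
  have hval : ∀ m c : ℕ, (((opL A) ^ m * (opR A) ^ (2 * k - m) * ((c : ℕ) : End ℂ (V → V → ℂ)))
      (fun x y => T x y w)) u u
      = (c : ℂ) * T (((A : End ℂ V) ^ m) u) (((A : End ℂ V) ^ (2 * k - m)) u) w := by
    intro m c
    rw [Module.End.mul_apply, Module.End.mul_apply, opL_pow, opR_pow]
    have : (((c : ℕ) : End ℂ (V → V → ℂ)) fun x y => T x y w)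
        = ((c : ℕ) : ℂ) • fun x y => T x y w := by
      rw [Nat.cast_smul_eq_nsmul]
      rfl
    rw [this]
    rfl
  rw [hcomm.add_pow, LinearMap.sum_apply, Finset.sum_apply, Finset.sum_apply,
    Finset.sum_eq_single k] at h1
  · have h2 : ((-A : End ℂ V) ^ (2 * k)) w = 0 := by
      rw [neg_pow, hbig (2 * k) (by omega), mul_zero]
      rfl
    rw [h2, map_zero, hval, show 2 * k - k = k by omega] at h1
    have h4 : (((2 * k).choose k : ℕ) : ℂ) ≠ 0 := by
      rw [Nat.cast_ne_zero]
      exact (Nat.choose_pos (by omega)).ne'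
    exact (mul_eq_zero.1 h1.symm).resolve_left h4
  · intro m hm hmk
    rw [Finset.mem_range] at hm
    rw [hval]
    rcases Nat.lt_or_gt_of_ne hmk with h2 | h2
    · rw [hbig (2 * k - m) (by omega), LinearMap.zero_apply, map_zero, LinearMap.zero_apply,
        mul_zero]
    · rw [hbig m h2, LinearMap.zero_apply, map_zero, LinearMap.zero_apply, LinearMap.zero_apply,
        mul_zero]
  · intro h2
    exact absurd (Finset.mem_range.2 (by omega)) h2

end Vale.Agent.P287.H528
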