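import Mathlib
import Vale.Agent.P287.H528.Soc
import Vale.Agent.P287.H528.Vec

/-!
# The dimension count
-/

namespace Vale.Agent.P287.H528

open Module

variable {V : Type*} [AddCommGroup V] [Module ℂ V]

/-- The space of cubic functions. -/
noncomputable def cubics (b : Basis (Fin 6) ℂ V) : Submodule ℂ (V → ℂ) :=
  Submodule.span ℂ (Set.range fun (s : Sym (Fin 6) 3) (x : V) =>
    ((s : Multiset (Fin 6)).map fun i => b.repr x i).prod)

theorem finrank_cubics (b : Basis (Fin 6) ℂ V) : finrank ℂ (cubics b) ≤ 56 := by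
  have h1 := finrank_range_le_card (R := ℂ) (fun (s : Sym (Fin 6) 3) (x : V) =>
    ((s : Multiset (Fin 6)).map fun i => b.repr x i).prod)
  rw [Sym.card_sym_eq_choose, Fintype.card_fin] at h1
  exact h1

instance (b : Basis (Fin 6) ℂ V) : Module.Finite ℂ (cubics b) :=
  Module.Finite.span_of_finite ℂ (Set.finite_range _)

theorem mul3_mem (b : Basis (Fin 6) ℂ V) (f g h : V →ₗ[ℂ] ℂ) :
    (fun x => f x * g x * h x) ∈ cubics b := by
  have e : ∀ (f : V →ₗ[ℂ] ℂ) (x : V), f x = ∑ i, f (b i) * b.repr x i := by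
    intro f x
    conv_lhs => rw [← b.sum_repr x]
    rw [map_sum]
    refine Finset.sum_congr rfl fun i _ => ?_
    rw [map_smul, smul_eq_mul, mul_comm]
  have h1 : (fun x => f x * g x * h x) = ∑ i, ∑ j, ∑ k, (f (b i) * g (b j) * h (b k)) •
      (fun x : V => b.repr x i * b.repr x j * b.repr x k) := by
    funext x
    simp only [Finset.sum_apply, Pi.smul_apply, smul_eq_mul]
    rw [e f x, e g x, e h x, Finset.sum_mul_sum, Finset.sum_mul]
    refine Finset.sum_congr rfl fun i _ => ?_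
    rw [Finset.sum_mul]
    refine Finset.sum_congr rfl fun j _ => ?_
    rw [Finset.mul_sum]
    refine Finset.sum_congr rfl fun k _ => ?_
    ring
  rw [h1]
  refine Submodule.sum_mem _ fun i _ => Submodule.sum_mem _ fun j _ => Submodule.sum_mem _
    fun k _ => Submodule.smul_mem _ _ (Submodule.subset_span ⟨⟨{i, j, k}, by simp⟩, ?_⟩)
  funext x
  simp [mul_assoc]

variable {T : V →ₗ[ℂ] V →ₗ[ℂ] V →ₗ[ℂ] ℂ}

theorem vec_mem (b : Basis (Fin 6) ℂ V) (A : V →ₗ[ℂ] V) : (fun x => T x x (A x)) ∈ cubics b := by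
  have h1 : (fun x => T x x (A x)) = ∑ i, ∑ j, (fun x =>
      b.coord i x * b.coord j x * (T (b i) (b j) ∘ₗ A) x) := by
    funext x
    simp only [Finset.sum_apply, Basis.coord_apply, LinearMap.comp_apply]
    have e : T x x (A x) = T (∑ i, b.repr x i • b i) (∑ i, b.repr x i • b i) (A x) := by
      rw [b.sum_repr x]
    rw [e]
    simp only [map_sum, LinearMap.sum_apply, map_smul, LinearMap.smul_apply, smul_eq_mul,
      Finset.mul_sum]
    rw [Finset.sum_comm]
    refine Finset.sum_congr rfl fun i _ => Finset.sum_congr rfl fun j _ => ?_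
    ring
  rw [h1]
  exact Submodule.sum_mem _ fun i _ => Submodule.sum_mem _ fun j _ => mul3_mem b _ _ _

theorem jac_mem (c : Basis (Fin 6) ℂ V) (B0 b : Basis (Fin 3 ⊕ Fin 3) ℂ V)
    (β : V →ₗ[ℂ] V →ₗ[ℂ] V →ₗ[ℂ] ℂ) : jac B0 b β ∈ cubics c := by
  have h1 : jac B0 b β = (B0.det b)⁻¹ • ∑ σ : Equiv.Perm (Fin 3), ((Equiv.Perm.sign σ : ℤ) : ℂ) •
      (fun x => (β (b (Sum.inr (σ 0)))).flip (b (Sum.inl 0)) x
        * (β (b (Sum.inr (σ 1)))).flip (b (Sum.inl 1)) x
        * (β (b (Sum.inr (σ 2)))).flip (b (Sum.inl 2)) x) := by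
    funext x
    rw [jac, Matrix.det_apply']
    simp only [Pi.smul_apply, Finset.sum_apply, smul_eq_mul, LinearMap.flip_apply,
      Fin.prod_univ_three, Matrix.of_apply]
  rw [h1]
  exact Submodule.smul_mem _ _ (Submodule.sum_mem _ fun σ _ => Submodule.smul_mem _ _
    (mul3_mem c _ _ _))

variable [FiniteDimensional ℂ V]

/-- The Jacobian functions of all planes, together with their relations. -/
theorem exists_jacobians (h : IsSm T) (hV : finrank ℂ V = 6) (c : Basis (Fin 6) ℂ V) :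
    ∃ J : Submodule ℂ V → V → ℂ, (∀ U, Pl T U → J U ∈ cubics c) ∧
      (∀ U, Pl T U → ¬ InI T U (J U)) ∧
      (∀ U U', Pl T U → Pl T U' → finrank ℂ (U ⊓ U' : Submodule ℂ V) = 1 →
        InI T U (fun x => J U x - 4 * J U' x)) ∧
      (∀ U U', Pl T U → Pl T U' → finrank ℂ (U ⊓ U' : Submodule ℂ V) = 2 →
        InI T U (fun x => J U x + 2 * J U' x)) := by
  let B0 : Basis (Fin 3 ⊕ Fin 3) ℂ V := c.reindex (finSumFinEquiv (m := 3) (n := 3)).symm
  have hex : ∀ U : Submodule ℂ V, ∃ J : V → ℂ, Pl T U →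
      ∃ (b : Basis (Fin 3 ⊕ Fin 3) ℂ V) (β : V →ₗ[ℂ] V →ₗ[ℂ] V →ₗ[ℂ] ℂ),
        (∀ i, b (Sum.inl i) ∈ U) ∧ IsPres T U β ∧ J = jac B0 b β := by
    intro U
    by_cases hU : Pl T U
    · obtain ⟨b, β, hb, hβ⟩ := hU.exists_data h hV
      exact ⟨jac B0 b β, fun _ => ⟨b, β, hb, hβ, rfl⟩⟩
    · exact ⟨0, fun hU' => absurd hU' hU⟩
  choose J hJ using hex
  refine ⟨J, fun U hU => ?_, fun U hU => ?_, fun U U' hU hU' hd => ?_, fun U U' hU hU' hd => ?_⟩
  · obtain ⟨b, β, -, -, e⟩ := hJ U hU
    rw [e]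
    exact jac_mem c B0 b β
  · obtain ⟨b, β, hb, hβ, e⟩ := hJ U hU
    rw [e]
    exact hU.jac_not_inI h hV hβ hb
  · obtain ⟨b, β, hb, hβ, e⟩ := hJ U hU
    obtain ⟨b', β', hb', hβ', e'⟩ := hJ U' hU'
    rw [e, e']
    exact inI_point h hV hU hU' hd hβ hb hβ' hb'
  · obtain ⟨b, β, hb, hβ, e⟩ := hJ U hU
    obtain ⟨b', β', hb', hβ', e'⟩ := hJ U' hU'
    rw [e, e']
    exact inI_line h hV hU hU' hd hβ hb hβ' hb'

omit [FiniteDimensional ℂ V] in
theorem InI.sum {ι : Type*} {U : Submodule ℂ V} (s : Finset ι) (f : ι → V → ℂ)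
    (hf : ∀ i ∈ s, InI T U (f i)) : InI T U (fun x => ∑ i ∈ s, f i x) := by
  classical
  induction s using Finset.induction_on with
  | empty => exact ⟨0, fun x _ => by simp⟩
  | insert a s ha ih =>
    obtain ⟨A, hA⟩ := ih fun i hi => hf i (Finset.mem_insert_of_mem hi)
    obtain ⟨B, hB⟩ := hf a (Finset.mem_insert_self a s)
    refine ⟨B + A, fun x hx => ?_⟩
    have h1 := hA x hx
    beta_reduce at h1 ⊢
    rw [Finset.sum_insert ha, h1, hB x hx, LinearMap.add_apply, map_add]

omit [FiniteDimensional ℂ V] in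
theorem InI.smul {U : Submodule ℂ V} {f : V → ℂ} (c : ℂ) (hf : InI T U f) :
    InI T U (fun x => c * f x) := by
  obtain ⟨A, hA⟩ := hf
  refine ⟨c • A, fun x hx => ?_⟩
  beta_reduce
  rw [hA x hx, LinearMap.smul_apply, map_smul, smul_eq_mul]

/-- The Gram matrix of a family of planes pairwise meeting. -/
noncomputable def gram {ι : Type*} (U : ι → Submodule ℂ V) (i j : ι) : ℂ :=
  open Classical in
  if i = j then 4 else if finrank ℂ (U i ⊓ U j : Submodule ℂ V) = 2 then -2 else 1

/-- Planes pairwise meeting, with nondegenerate Gram matrix: at most twenty. -/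
theorem card_le_of_gram (h : IsSm T) (hV : finrank ℂ V = 6) {ι : Type*} [Fintype ι]
    (U : ι → Submodule ℂ V) (hU : ∀ i, Pl T (U i))
    (hne : ∀ i j, i ≠ j → finrank ℂ (U i ⊓ U j : Submodule ℂ V) = 1 ∨
      finrank ℂ (U i ⊓ U j : Submodule ℂ V) = 2)
    (hg : ∀ a : ι → ℂ, (∀ i, ∑ j, gram U i j * a j = 0) → a = 0) : Fintype.card ι ≤ 20 := by
  classical
  let c : Basis (Fin 6) ℂ V := finBasisOfFinrankEq ℂ V hV
  obtain ⟨J, hJ1, hJ2, hJ3, hJ4⟩ := exists_jacobians h hV c
  let Φ : ((ι → ℂ) × (V →ₗ[ℂ] V)) →ₗ[ℂ] cubics c := {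
    toFun := fun p => ∑ i, p.1 i • (⟨J (U i), hJ1 _ (hU i)⟩ : cubics c)
      - ⟨fun x => T x x (p.2 x), vec_mem c p.2⟩
    map_add' := fun p q => by
      simp only [Prod.fst_add, Pi.add_apply, add_smul, Finset.sum_add_distrib, Prod.snd_add]
      have : (⟨fun x => T x x ((p.2 + q.2) x), vec_mem c (p.2 + q.2)⟩ : cubics c)
          = ⟨fun x => T x x (p.2 x), vec_mem c p.2⟩ + ⟨fun x => T x x (q.2 x), vec_mem c q.2⟩ := by
        apply Subtype.ext
        funext x
        simp
      rw [this]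
      abel
    map_smul' := fun r p => by
      simp only [Prod.smul_fst, Pi.smul_apply, smul_eq_mul, mul_smul, ← Finset.smul_sum,
        Prod.smul_snd, RingHom.id_apply, smul_sub]
      congr 1
      apply Subtype.ext
      funext x
      simp }
  have hΦ : ∀ p x, (Φ p : V → ℂ) x = ∑ i, p.1 i * J (U i) x - T x x (p.2 x) := by
    intro p x
    simp only [Φ, LinearMap.coe_mk, AddHom.coe_mk, Submodule.coe_sub, Submodule.coe_sum,
      Submodule.coe_smul, Pi.sub_apply, Finset.sum_apply, Pi.smul_apply, smul_eq_mul]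
  have hinj : Function.Injective Φ := by
    rw [← LinearMap.ker_eq_bot, Submodule.eq_bot_iff]
    rintro ⟨a, A⟩ hp
    have hrel : ∀ x, ∑ i, a i * J (U i) x = T x x (A x) := by
      intro x
      have h1 := hΦ (a, A) x
      rw [LinearMap.mem_ker.1 hp] at h1
      exact (sub_eq_zero.1 h1.symm)
    have ha : a = 0 := by
      apply hg
      intro i
      by_contra hcon
      apply hJ2 (U i) (hU i)
      -- `∑ j, a j (g i j J_i - 4 J_j)` and `∑ j a j J_j` belong to the ideal on `U i`
      have h1 : InI T (U i) (fun x => ∑ j, (a j * (gram U i j * J (U i) x - 4 * J (U j) x))) := by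
        refine InI.sum Finset.univ _ fun j _ => InI.smul (a j) ?_
        by_cases hij : i = j
        · subst hij
          refine ⟨0, fun x _ => ?_⟩
          simp [gram]
        · rcases hne i j hij with h2 | h2
          · have : gram U i j = 1 := by
              rw [gram, if_neg hij, if_neg (by omega)]
            rw [this]
            simp only [one_mul]
            exact hJ3 _ _ (hU i) (hU j) h2
          · have : gram U i j = -2 := by
              rw [gram, if_neg hij, if_pos h2]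
            rw [this]
            obtain ⟨A, hA⟩ := hJ4 _ _ (hU i) (hU j) h2
            refine ⟨(-2 : ℂ) • A, fun x hx => ?_⟩
            rw [LinearMap.smul_apply, map_smul, smul_eq_mul, ← hA x hx]
            ring
      obtain ⟨B, hB⟩ := h1
      refine ⟨(∑ j, gram U i j * a j)⁻¹ • (B + (4 : ℂ) • A), fun x hx => ?_⟩
      have h2 := hB x hx
      beta_reduce at h2
      have h3 := hrel x
      have h4 : ∑ j, (a j * (gram U i j * J (U i) x - 4 * J (U j) x))
          = (∑ j, gram U i j * a j) * J (U i) x - 4 * ∑ j, a j * J (U j) x := by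
        rw [Finset.sum_mul, Finset.mul_sum, ← Finset.sum_sub_distrib]
        refine Finset.sum_congr rfl fun j _ => ?_
        ring
      rw [h4, h3] at h2
      simp only [LinearMap.smul_apply, LinearMap.add_apply, map_add, map_smul, smul_eq_mul]
      rw [← h2]
      field_simp
      ring
    have hA : A = 0 := h.vec_eq_zero fun x => by
      rw [← hrel x, ha]
      simp
    rw [ha, hA]
    rfl
  have h1 := LinearMap.finrank_le_finrank_of_injective hinj
  have h2 := finrank_cubics c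
  rw [finrank_prod, finrank_fintype_fun_eq_card, finrank_linearMap, hV] at h1
  omega

end Vale.Agent.P287.H528
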