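import Mathlib

/-!
# Factors of homogeneous polynomials are homogeneous
-/

open MvPolynomial

namespace Vale.Agent.P287.H528

variable {σ R : Type*} [CommRing R]

/-- `G(x) ↦ G(t x)`. -/
noncomputable def tsc (σ R : Type*) [CommRing R] :
    MvPolynomial σ R →ₐ[R] Polynomial (MvPolynomial σ R) :=
  aeval (fun i => Polynomial.C (X i) * Polynomial.X)

theorem tsc_monomial (m : σ →₀ ℕ) (a : R) :
    tsc σ R (monomial m a) = Polynomial.monomial m.degree (monomial m a) := by
  rw [tsc, aeval_monomial, monomial_eq, Finsupp.prod]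
  simp only [mul_pow, Finset.prod_mul_distrib]
  rw [Finset.prod_pow_eq_pow_sum, ← Polynomial.C_mul_X_pow_eq_monomial]
  rw [Finsupp.degree_apply]
  rw [← mul_assoc]
  congr 1
  rw [map_mul, Finsupp.prod, map_prod]
  simp only [map_pow]
  rfl

theorem coeff_tsc (G : MvPolynomial σ R) (k : ℕ) :
    (tsc σ R G).coeff k = homogeneousComponent k G := by
  induction G using MvPolynomial.induction_on' with
  | monomial m a =>
    rw [tsc_monomial, Polynomial.coeff_monomial]
    split_ifs with h
    · rw [homogeneousComponent_of_mem (mem_homogeneousSubmodule _ _ |>.2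
        (isHomogeneous_monomial a h)), if_pos rfl]
    · rw [homogeneousComponent_of_mem (mem_homogeneousSubmodule _ _ |>.2
        (isHomogeneous_monomial a rfl)), if_neg (Ne.symm h)]
  | add p q hp hq => rw [map_add, Polynomial.coeff_add, hp, hq, map_add]

theorem tsc_of_isHomogeneous {G : MvPolynomial σ R} {n : ℕ} (h : G.IsHomogeneous n) :
    tsc σ R G = Polynomial.monomial n G := by
  ext1 k
  rw [coeff_tsc, Polynomial.coeff_monomial,
    homogeneousComponent_of_mem (mem_homogeneousSubmodule _ _ |>.2 h)]
  simp only [eq_comm]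

theorem isHomogeneous_of_tsc {G H : MvPolynomial σ R} {n : ℕ}
    (h : tsc σ R G = Polynomial.monomial n H) : G.IsHomogeneous n := by
  have h1 : ∀ k, k ≠ n → homogeneousComponent k G = 0 := by
    intro k hk
    rw [← coeff_tsc, h, Polynomial.coeff_monomial, if_neg (Ne.symm hk)]
  have h2 : G = homogeneousComponent n G := by
    conv_lhs => rw [← sum_homogeneousComponent G]
    rcases lt_or_ge n (G.totalDegree + 1) with hn | hn
    · rw [Finset.sum_eq_single n (fun k _ hk => h1 k hk)
        (fun hn' => absurd (Finset.mem_range.2 hn) hn')]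
    · rw [homogeneousComponent_eq_zero _ _ (by omega)]
      exact Finset.sum_eq_zero fun k hk => h1 k (by
        have := Finset.mem_range.1 hk
        omega)
  rw [h2]
  exact homogeneousComponent_isHomogeneous n G

theorem isHomogeneous_of_mul [IsDomain R] {F G H : MvPolynomial σ R} {n : ℕ}
    (hF : F.IsHomogeneous n) (hF0 : F ≠ 0) (h : F = G * H) :
    ∃ k l, k + l = n ∧ G.IsHomogeneous k ∧ H.IsHomogeneous l := by
  have hG0 : G ≠ 0 := by
    rintro rfl
    exact hF0 (by rw [h, zero_mul])
  have hH0 : H ≠ 0 := by
    rintro rfl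
    exact hF0 (by rw [h, mul_zero])
  have e : tsc σ R G * tsc σ R H = Polynomial.monomial n F := by
    rw [← map_mul, ← h, tsc_of_isHomogeneous hF]
  have inj : ∀ {p : MvPolynomial σ R}, p ≠ 0 → tsc σ R p ≠ 0 := by
    intro p hp h0
    apply hp
    rw [← sum_homogeneousComponent p]
    refine Finset.sum_eq_zero fun k _ => ?_
    rw [← coeff_tsc, h0, Polynomial.coeff_zero]
  have hd := congrArg Polynomial.natDegree e
  have ht := congrArg Polynomial.natTrailingDegree e
  rw [Polynomial.natDegree_mul (inj hG0) (inj hH0), Polynomial.natDegree_monomial_eq _ hF0] at hd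
  rw [Polynomial.natTrailingDegree_mul (inj hG0) (inj hH0),
    Polynomial.natTrailingDegree_monomial hF0] at ht
  have mono : ∀ p : Polynomial (MvPolynomial σ R), p.natTrailingDegree = p.natDegree →
      p = Polynomial.monomial p.natDegree p.leadingCoeff := by
    intro p hp
    ext1 k
    rw [Polynomial.coeff_monomial]
    split_ifs with hk
    · rw [← hk, Polynomial.leadingCoeff]
    · rcases lt_or_gt_of_ne hk with h1 | h1
      · exact Polynomial.coeff_eq_zero_of_natDegree_lt h1
      · exact Polynomial.coeff_eq_zero_of_lt_natTrailingDegree (by omega)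
  have h1 := Polynomial.natTrailingDegree_le_natDegree (tsc σ R G)
  have h2 := Polynomial.natTrailingDegree_le_natDegree (tsc σ R H)
  refine ⟨_, _, hd, isHomogeneous_of_tsc (mono _ (by omega)),
    isHomogeneous_of_tsc (mono _ (by omega))⟩

end Vale.Agent.P287.H528
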