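import Mathlib
import Vale.Agent.P287.H528.Defs

/-!
# The polar trilinear form of a cubic form
-/

open MvPolynomial

namespace Vale.Agent.P287.H528

theorem pderiv_comm' (p : MvPolynomial (Fin 6) ℂ) (i j : Fin 6) :
    pderiv i (pderiv j p) = pderiv j (pderiv i p) := by
  ext m
  rw [coeff_pderiv, coeff_pderiv, coeff_pderiv, coeff_pderiv]
  rcases eq_or_ne i j with rfl | hij
  · rfl
  · rw [add_right_comm]
    simp only [Finsupp.add_apply, Finsupp.single_apply, if_neg hij, if_neg hij.symm, add_zero]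
    ring

/-- The coefficients of the polar form. -/
noncomputable def cf (F : MvPolynomial (Fin 6) ℂ) (i j k : Fin 6) : ℂ :=
  (1 / 6) * coeff 0 (pderiv i (pderiv j (pderiv k F)))

theorem cf_comm12 (F : MvPolynomial (Fin 6) ℂ) (i j k : Fin 6) : cf F i j k = cf F j i k := by
  rw [cf, cf, pderiv_comm']

theorem cf_comm23 (F : MvPolynomial (Fin 6) ℂ) (i j k : Fin 6) : cf F i j k = cf F i k j := by
  rw [cf, cf, pderiv_comm' F]

section

variable (K : Type*) [Field K] [Algebra ℂ K]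

/-- The polar trilinear form, over a field extension `K` of `ℂ`. -/
noncomputable def tri (F : MvPolynomial (Fin 6) ℂ) :
    (Fin 6 → K) →ₗ[K] (Fin 6 → K) →ₗ[K] (Fin 6 → K) →ₗ[K] K :=
  ∑ i : Fin 6, ∑ j : Fin 6, ∑ k : Fin 6, (algebraMap ℂ K (cf F i j k)) •
    ((LinearMap.proj i : (Fin 6 → K) →ₗ[K] K).smulRight
      ((LinearMap.proj j : (Fin 6 → K) →ₗ[K] K).smulRight
        (LinearMap.proj k : (Fin 6 → K) →ₗ[K] K)))

variable {K}

theorem tri_apply (F : MvPolynomial (Fin 6) ℂ) (x y z : Fin 6 → K) :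
    tri K F x y z = ∑ i : Fin 6, ∑ j : Fin 6, ∑ k : Fin 6,
      algebraMap ℂ K (cf F i j k) * (x i * (y j * z k)) := by
  simp [tri, LinearMap.sum_apply, LinearMap.smul_apply, smul_eq_mul, Algebra.smul_def]

theorem tri_comm12 (F : MvPolynomial (Fin 6) ℂ) (x y z : Fin 6 → K) :
    tri K F x y z = tri K F y x z := by
  rw [tri_apply, tri_apply, Finset.sum_comm]
  refine Finset.sum_congr rfl fun i _ => Finset.sum_congr rfl fun j _ =>
    Finset.sum_congr rfl fun k _ => ?_
  rw [cf_comm12]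
  ring

theorem tri_comm23 (F : MvPolynomial (Fin 6) ℂ) (x y z : Fin 6 → K) :
    tri K F x y z = tri K F x z y := by
  rw [tri_apply, tri_apply]
  refine Finset.sum_congr rfl fun i _ => ?_
  rw [Finset.sum_comm]
  refine Finset.sum_congr rfl fun j _ => Finset.sum_congr rfl fun k _ => ?_
  rw [cf_comm23]
  ring

theorem tri_map (F : MvPolynomial (Fin 6) ℂ) (x y z : Fin 6 → ℂ) :
    tri K F (fun i => algebraMap ℂ K (x i)) (fun i => algebraMap ℂ K (y i))
      (fun i => algebraMap ℂ K (z i)) = algebraMap ℂ K (tri ℂ F x y z) := by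
  rw [tri_apply, tri_apply]
  simp only [map_sum, map_mul, Algebra.algebraMap_self, RingHom.id_apply]

theorem eq_sum_cf {F : MvPolynomial (Fin 6) ℂ} (hF : F.IsHomogeneous 3) :
    F = ∑ i : Fin 6, ∑ j : Fin 6, ∑ k : Fin 6, C (cf F i j k) * (X i * (X j * X k)) := by
  have h1 := hF.sum_X_mul_pderiv
  have h2 : ∀ k, ∑ j : Fin 6, X j * pderiv j (pderiv k F) = 2 • pderiv k F := fun k =>
    (hF.pderiv (i := k)).sum_X_mul_pderiv
  have h3 : ∀ j k, ∑ i : Fin 6, X i * pderiv i (pderiv j (pderiv k F))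
      = 1 • pderiv j (pderiv k F) := fun j k =>
    ((hF.pderiv (i := k)).pderiv (i := j)).sum_X_mul_pderiv
  have h4 : ∀ i j k, pderiv i (pderiv j (pderiv k F))
      = C (6 * cf F i j k) := by
    intro i j k
    have h := ((hF.pderiv (i := k)).pderiv (i := j)).pderiv (i := i)
    have h' : totalDegree (pderiv i (pderiv j (pderiv k F))) = 0 := by
      rw [totalDegree_zero_iff_isHomogeneous]
      exact h
    rw [totalDegree_eq_zero_iff_eq_C] at h'
    rw [h', cf]
    congr 1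
    ring
  have h5 : (6 : MvPolynomial (Fin 6) ℂ) * F
      = ∑ k : Fin 6, ∑ j : Fin 6, ∑ i : Fin 6, X k * (X j * (X i * C (6 * cf F i j k))) := by
    have e1 : (6 : MvPolynomial (Fin 6) ℂ) * F = 2 * (3 • F) := by
      rw [nsmul_eq_mul]
      push_cast
      ring
    rw [e1, ← h1, Finset.mul_sum]
    refine Finset.sum_congr rfl fun k _ => ?_
    have e2 : (2 : MvPolynomial (Fin 6) ℂ) * (X k * pderiv k F) = X k * (2 • pderiv k F) := by
      rw [nsmul_eq_mul]
      push_cast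
      ring
    rw [e2, ← h2, Finset.mul_sum]
    refine Finset.sum_congr rfl fun j _ => ?_
    rw [← one_smul ℕ (pderiv j (pderiv k F)), ← h3, Finset.mul_sum, Finset.mul_sum]
    refine Finset.sum_congr rfl fun i _ => ?_
    rw [h4]
  have h6 : (6 : MvPolynomial (Fin 6) ℂ) * F = 6 * ∑ i : Fin 6, ∑ j : Fin 6, ∑ k : Fin 6,
      C (cf F i j k) * (X i * (X j * X k)) := by
    rw [h5, Finset.mul_sum]
    simp only [Finset.mul_sum]
    rw [Finset.sum_comm]
    rw [Finset.sum_congr rfl fun j _ => Finset.sum_comm]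
    rw [Finset.sum_comm]
    refine Finset.sum_congr rfl fun i _ => ?_
    refine Finset.sum_congr rfl fun j _ => ?_
    refine Finset.sum_congr rfl fun k _ => ?_
    rw [C_mul]
    have : (C (6 : ℂ) : MvPolynomial (Fin 6) ℂ) = 6 := by
      rw [map_ofNat]
    rw [this]
    ring
  have h7 : (6 : MvPolynomial (Fin 6) ℂ) ≠ 0 := by
    have : (6 : MvPolynomial (Fin 6) ℂ) = C 6 := by rw [map_ofNat]
    rw [this, Ne, C_eq_zero]
    norm_num
  exact mul_left_cancel₀ h7 h6

theorem aeval_eq_tri {F : MvPolynomial (Fin 6) ℂ} (hF : F.IsHomogeneous 3) (x : Fin 6 → K) :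
    aeval x F = tri K F x x x := by
  conv_lhs => rw [eq_sum_cf hF]
  rw [tri_apply]
  simp only [map_sum, map_mul, aeval_X, algHom_C]

theorem eval_eq_tri {F : MvPolynomial (Fin 6) ℂ} (hF : F.IsHomogeneous 3) (x : Fin 6 → ℂ) :
    eval x F = tri ℂ F x x x := by
  rw [← aeval_eq_tri hF, aeval_eq_eval]

theorem eval_pderiv_eq_tri {F : MvPolynomial (Fin 6) ℂ} (hF : F.IsHomogeneous 3)
    (x : Fin 6 → ℂ) (l : Fin 6) :
    eval x (pderiv l F) = 3 * tri ℂ F x x (Pi.single l 1) := by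
  conv_lhs => rw [eq_sum_cf hF]
  have e : ∀ i j k : Fin 6, eval x (pderiv l (C (cf F i j k) * (X i * (X j * X k))))
      = cf F i j k * ((Pi.single l (1 : ℂ) : Fin 6 → ℂ) i * (x j * x k))
        + cf F i j k * (x i * ((Pi.single l (1 : ℂ) : Fin 6 → ℂ) j * x k))
        + cf F i j k * (x i * (x j * (Pi.single l (1 : ℂ) : Fin 6 → ℂ) k)) := by
    intro i j k
    have e1 : ∀ i : Fin 6, eval x (pderiv l (X i : MvPolynomial (Fin 6) ℂ))
        = (Pi.single l (1 : ℂ) : Fin 6 → ℂ) i := by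
      intro i
      rw [pderiv_X]
      rcases eq_or_ne i l with rfl | h
      · simp
      · simp [Pi.single_eq_of_ne h]
    rw [pderiv_C_mul, pderiv_mul, pderiv_mul]
    simp only [map_add, map_mul, eval_C, eval_X, e1]
    ring
  simp only [map_sum, e, Finset.sum_add_distrib]
  have t : ∀ y z w : Fin 6 → ℂ, tri ℂ F y z w = ∑ i : Fin 6, ∑ j : Fin 6, ∑ k : Fin 6,
      cf F i j k * (y i * (z j * w k)) := fun y z w => tri_apply F y z w
  rw [← t, ← t, ← t]
  rw [tri_comm12 F (Pi.single l 1) x x, tri_comm23 F x (Pi.single l 1) x]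
  ring

/-- Smoothness in terms of the polar form. -/
theorem IsCubicFourfold.tri_ne {F : MvPolynomial (Fin 6) ℂ} (hF : IsCubicFourfold F)
    {v : Fin 6 → ℂ} (hv : v ≠ 0) : ∃ w, tri ℂ F v v w ≠ 0 := by
  obtain ⟨i, hi⟩ := hF.smooth v hv
  rw [eval_pderiv_eq_tri hF.homogeneous] at hi
  exact ⟨_, right_ne_zero_of_mul hi⟩

end

end Vale.Agent.P287.H528
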