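import Mathlib
import Vale.Agent.P287.H528.Tri
import Vale.Agent.P287.H528.Sm
import Vale.Agent.P287.H528.Homog

/-!
# A smooth cubic form is irreducible
-/

open MvPolynomial

namespace Vale.Agent.P287.H528

theorem IsCubicFourfold.isSm {F : MvPolynomial (Fin 6) ℂ} (hF : IsCubicFourfold F) :
    IsSm (tri ℂ F) where
  c12 := tri_comm12 F
  c23 := tri_comm23 F
  sm := fun _ hv => hF.tri_ne hv

theorem IsCubicFourfold.ne_zero {F : MvPolynomial (Fin 6) ℂ} (hF : IsCubicFourfold F) :
    F ≠ 0 := by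
  rintro rfl
  obtain ⟨i, hi⟩ := hF.smooth (fun _ => 1) (fun h => one_ne_zero (congrFun h 0))
  simp at hi

theorem IsCubicFourfold.not_linear_factor {F G H : MvPolynomial (Fin 6) ℂ}
    (hF : IsCubicFourfold F) (h : F = G * H) (hG : G.IsHomogeneous 1) : False := by
  have hc : ∀ i, ∃ c, pderiv i G = C c := by
    intro i
    have h1 : (pderiv i G).IsHomogeneous 0 := hG.pderiv
    rw [← totalDegree_zero_iff_isHomogeneous, totalDegree_eq_zero_iff_eq_C] at h1
    exact ⟨_, h1⟩
  choose c hc using hc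
  have hGs : G = ∑ i : Fin 6, X i * C (c i) := by
    have := hG.sum_X_mul_pderiv
    rw [one_smul] at this
    conv_lhs => rw [← this]
    exact Finset.sum_congr rfl fun i _ => by rw [hc]
  let g : (Fin 6 → ℂ) →ₗ[ℂ] ℂ := ∑ i : Fin 6, c i • (LinearMap.proj i : (Fin 6 → ℂ) →ₗ[ℂ] ℂ)
  have hg : ∀ v, eval v G = g v := by
    intro v
    rw [hGs]
    simp [g, LinearMap.sum_apply, mul_comm]
  refine hF.isSm.false_of_hyper (by simp) g (fun v hv => ?_)
  rw [← eval_eq_tri hF.homogeneous, h, map_mul, hg, hv, zero_mul]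

theorem isUnit_of_isHomogeneous_zero {G : MvPolynomial (Fin 6) ℂ} (hG : G.IsHomogeneous 0)
    (h0 : G ≠ 0) : IsUnit G := by
  rw [← totalDegree_zero_iff_isHomogeneous, totalDegree_eq_zero_iff_eq_C] at hG
  rw [hG]
  refine IsUnit.map C (isUnit_iff_ne_zero.2 fun h => h0 ?_)
  rw [hG, h, map_zero]

theorem IsCubicFourfold.irreducible {F : MvPolynomial (Fin 6) ℂ} (hF : IsCubicFourfold F) :
    Irreducible F := by
  constructor
  · intro hu
    obtain ⟨G, hG⟩ := hu.exists_right_inv
    have h1 := congrArg (eval (0 : Fin 6 → ℂ)) hG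
    rw [map_mul, map_one, eval_eq_tri hF.homogeneous] at h1
    simp at h1
  · intro G H h
    obtain ⟨k, l, hkl, hG, hH⟩ := isHomogeneous_of_mul hF.homogeneous hF.ne_zero h
    have hG0 : G ≠ 0 := by
      rintro rfl
      exact hF.ne_zero (by rw [h, zero_mul])
    have hH0 : H ≠ 0 := by
      rintro rfl
      exact hF.ne_zero (by rw [h, mul_zero])
    have hk : k = 0 ∨ k = 1 ∨ l = 1 ∨ l = 0 := by omega
    rcases hk with rfl | rfl | rfl | rfl
    · exact Or.inl (isUnit_of_isHomogeneous_zero hG hG0)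
    · exact (hF.not_linear_factor h hG).elim
    · exact (hF.not_linear_factor (h.trans (mul_comm _ _)) hH).elim
    · exact Or.inr (isUnit_of_isHomogeneous_zero hH hH0)

theorem IsCubicFourfold.isPrime {F : MvPolynomial (Fin 6) ℂ} (hF : IsCubicFourfold F) :
    (Ideal.span {F}).IsPrime :=
  (Ideal.span_singleton_prime hF.ne_zero).2 hF.irreducible.prime

end Vale.Agent.P287.H528
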