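import Mathlib
import Vale.Agent.P287.H528.Irred

/-!
# A smooth cubic fourfold containing two disjoint planes is rational (classical)
-/

open MvPolynomial

namespace Vale.Agent.P287.H528

section coords

variable (b : Module.Basis (Fin 3 ⊕ Fin 3) ℂ (Fin 6 → ℂ))
variable (K : Type) [Field K] [Algebra ℂ K]

/-- The basis vectors, over `K`. -/
noncomputable def bK (k : Fin 3 ⊕ Fin 3) : Fin 6 → K := fun i => algebraMap ℂ K (b k i)

/-- The coordinate forms, over `K`. -/
noncomputable def yK (k : Fin 3 ⊕ Fin 3) : (Fin 6 → K) →ₗ[K] K :=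
  ∑ i : Fin 6, algebraMap ℂ K (b.repr (Pi.single i 1) k) •
    (LinearMap.proj i : (Fin 6 → K) →ₗ[K] K)

variable {K}

theorem yK_apply (k : Fin 3 ⊕ Fin 3) (x : Fin 6 → K) :
    yK b K k x = ∑ i : Fin 6, algebraMap ℂ K (b.repr (Pi.single i 1) k) * x i := by
  simp only [yK, LinearMap.sum_apply, LinearMap.smul_apply, LinearMap.proj_apply, smul_eq_mul]

theorem sum_yK (x : Fin 6 → K) : ∑ k, yK b K k x • bK b K k = x := by
  funext i
  rw [Finset.sum_apply]
  simp only [Pi.smul_apply, smul_eq_mul, yK_apply, bK, Finset.sum_mul]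
  rw [Finset.sum_comm]
  have h : ∀ j : Fin 6, ∑ k, (b.repr (Pi.single j 1) k) * (b k i)
      = (Pi.single j (1 : ℂ) : Fin 6 → ℂ) i := by
    intro j
    have := congrFun (b.sum_repr (Pi.single j (1 : ℂ) : Fin 6 → ℂ)) i
    rw [Finset.sum_apply] at this
    simpa only [Pi.smul_apply, smul_eq_mul] using this
  have h2 : ∀ j : Fin 6, ∑ k, (algebraMap ℂ K (b.repr (Pi.single j 1) k)) * x j
      * algebraMap ℂ K (b k i) = algebraMap ℂ K ((Pi.single j (1 : ℂ) : Fin 6 → ℂ) i) * x j := by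
    intro j
    rw [← h j, map_sum, Finset.sum_mul]
    refine Finset.sum_congr rfl fun k _ => ?_
    rw [map_mul]
    ring
  rw [Finset.sum_congr rfl fun j _ => h2 j, Finset.sum_eq_single i]
  · rw [Pi.single_eq_same, map_one, one_mul]
  · intro j _ hj
    rw [Pi.single_eq_of_ne hj.symm, map_zero, zero_mul]
  · intro h
    exact absurd (Finset.mem_univ i) h

theorem yK_bK (k l : Fin 3 ⊕ Fin 3) : yK b K k (bK b K l) = if k = l then 1 else 0 := by
  rw [yK_apply]
  have h : ∑ i : Fin 6, b.repr (Pi.single i 1) k * b l i = if k = l then 1 else 0 := by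
    have h1 : b l = ∑ i : Fin 6, (b l i) • (Pi.single i (1 : ℂ) : Fin 6 → ℂ) := by
      funext j
      rw [Finset.sum_apply, Finset.sum_eq_single j]
      · simp
      · intro i _ hi
        simp [Pi.single_eq_of_ne hi.symm]
      · intro h
        exact absurd (Finset.mem_univ j) h
    have h2 := congrArg (fun v => b.repr v k) h1
    simp only [Module.Basis.repr_self, map_sum, map_smul, Finsupp.coe_finsetSum,
      Finset.sum_apply, Finsupp.smul_apply, smul_eq_mul] at h2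
    rw [Finsupp.single_apply] at h2
    rw [Finset.sum_congr rfl fun i _ => mul_comm _ _, ← h2]
    simp only [eq_comm]
  simp only [bK]
  have h3 := congrArg (algebraMap ℂ K) h
  rw [map_sum] at h3
  simp only [map_mul] at h3
  rw [h3]
  split_ifs <;> simp

/-- The coordinate forms as polynomials. -/
noncomputable def yP (k : Fin 3 ⊕ Fin 3) : MvPolynomial (Fin 6) ℂ :=
  ∑ i : Fin 6, C (b.repr (Pi.single i 1) k) * X i

theorem aeval_yP (k : Fin 3 ⊕ Fin 3) (x : Fin 6 → K) : aeval x (yP b k) = yK b K k x := by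
  rw [yK_apply, yP]
  simp only [map_sum, map_mul, aeval_X, algHom_C]

/-- The monomials `1, t₀, t₁`. -/
noncomputable def mm : Fin 3 → MvPolynomial (Fin 4) ℂ := ![1, X 0, X 1]

/-- The monomials `1, t₂, t₃`. -/
noncomputable def nn : Fin 3 → MvPolynomial (Fin 4) ℂ := ![1, X 2, X 3]

/-- The generic point of the first plane. -/
noncomputable def uu (t : Fin 4 → K) : Fin 6 → K :=
  ∑ i : Fin 3, aeval t (mm i) • bK b K (Sum.inl i)

/-- The generic point of the second plane. -/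
noncomputable def vv (t : Fin 4 → K) : Fin 6 → K :=
  ∑ i : Fin 3, aeval t (nn i) • bK b K (Sum.inr i)

variable (F : MvPolynomial (Fin 6) ℂ)

/-- The polynomial `T u u v`. -/
noncomputable def Ahat : MvPolynomial (Fin 4) ℂ :=
  ∑ i : Fin 3, ∑ j : Fin 3, ∑ k : Fin 3,
    C (tri ℂ F (b (Sum.inl i)) (b (Sum.inl j)) (b (Sum.inr k))) * (mm i * (mm j * nn k))

/-- The polynomial `T u v v`. -/
noncomputable def Bhat : MvPolynomial (Fin 4) ℂ :=
  ∑ i : Fin 3, ∑ j : Fin 3, ∑ k : Fin 3,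
    C (tri ℂ F (b (Sum.inl i)) (b (Sum.inr j)) (b (Sum.inr k))) * (mm i * (nn j * nn k))

theorem tri_bK (k l m : Fin 3 ⊕ Fin 3) :
    tri K F (bK b K k) (bK b K l) (bK b K m) = algebraMap ℂ K (tri ℂ F (b k) (b l) (b m)) :=
  tri_map F _ _ _

theorem tri_sum (α β γ : Fin 3 → K) (p q r : Fin 3 → Fin 3 ⊕ Fin 3) :
    tri K F (∑ i, α i • bK b K (p i)) (∑ i, β i • bK b K (q i)) (∑ i, γ i • bK b K (r i))
      = ∑ i : Fin 3, ∑ j : Fin 3, ∑ k : Fin 3,
        algebraMap ℂ K (tri ℂ F (b (p i)) (b (q j)) (b (r k))) * (α i * (β j * γ k)) := by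
  have e1 : ∀ (T : (Fin 6 → K) →ₗ[K] (Fin 6 → K) →ₗ[K] (Fin 6 → K) →ₗ[K] K) (y z : Fin 6 → K),
      T (∑ i, α i • bK b K (p i)) y z = ∑ i, α i * T (bK b K (p i)) y z := by
    intro T y z
    rw [map_sum, LinearMap.sum_apply, LinearMap.sum_apply]
    exact Finset.sum_congr rfl fun i _ => by rw [map_smul]; rfl
  have e2 : ∀ (T : (Fin 6 → K) →ₗ[K] (Fin 6 → K) →ₗ[K] K) (z : Fin 6 → K),
      T (∑ i, β i • bK b K (q i)) z = ∑ i, β i * T (bK b K (q i)) z := by
    intro T z
    rw [map_sum, LinearMap.sum_apply]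
    exact Finset.sum_congr rfl fun i _ => by rw [map_smul]; rfl
  have e3 : ∀ (T : (Fin 6 → K) →ₗ[K] K),
      T (∑ i, γ i • bK b K (r i)) = ∑ i, γ i * T (bK b K (r i)) := by
    intro T
    rw [map_sum]
    exact Finset.sum_congr rfl fun i _ => by rw [map_smul]; rfl
  rw [e1]
  refine Finset.sum_congr rfl fun i _ => ?_
  rw [e2, Finset.mul_sum]
  refine Finset.sum_congr rfl fun j _ => ?_
  rw [e3, Finset.mul_sum, Finset.mul_sum]
  refine Finset.sum_congr rfl fun k _ => ?_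
  rw [tri_bK]
  ring

theorem aeval_Ahat (t : Fin 4 → K) :
    aeval t (Ahat b F) = tri K F (uu b t) (uu b t) (vv b t) := by
  rw [uu, vv, tri_sum, Ahat]
  simp only [map_sum, map_mul, algHom_C]

theorem aeval_Bhat (t : Fin 4 → K) :
    aeval t (Bhat b F) = tri K F (uu b t) (vv b t) (vv b t) := by
  rw [uu, vv, tri_sum, Bhat]
  simp only [map_sum, map_mul, algHom_C]

theorem tri_uuu (h1 : ∀ i j k, tri ℂ F (b (Sum.inl i)) (b (Sum.inl j)) (b (Sum.inl k)) = 0)
    (t : Fin 4 → K) : tri K F (uu b t) (uu b t) (uu b t) = 0 := by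
  rw [uu, tri_sum]
  simp only [h1, map_zero, zero_mul, Finset.sum_const_zero]

theorem tri_vvv (h1 : ∀ i j k, tri ℂ F (b (Sum.inr i)) (b (Sum.inr j)) (b (Sum.inr k)) = 0)
    (t : Fin 4 → K) : tri K F (vv b t) (vv b t) (vv b t) = 0 := by
  rw [vv, tri_sum]
  simp only [h1, map_zero, zero_mul, Finset.sum_const_zero]

/-- The affine coordinates of the projections of `x` to the two planes. -/
noncomputable def rr (x : Fin 6 → K) : Fin 4 → K :=
  ![yK b K (Sum.inl 1) x / yK b K (Sum.inl 0) x, yK b K (Sum.inl 2) x / yK b K (Sum.inl 0) x,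
    yK b K (Sum.inr 1) x / yK b K (Sum.inr 0) x, yK b K (Sum.inr 2) x / yK b K (Sum.inr 0) x]

theorem eq_uu_add_vv (x : Fin 6 → K) (h0 : yK b K (Sum.inl 0) x ≠ 0)
    (h3 : yK b K (Sum.inr 0) x ≠ 0) :
    x = yK b K (Sum.inl 0) x • uu b (rr b x) + yK b K (Sum.inr 0) x • vv b (rr b x) := by
  conv_lhs => rw [← sum_yK b x]
  rw [Fintype.sum_sum_type, uu, vv, Fin.sum_univ_three, Fin.sum_univ_three, Fin.sum_univ_three,
    Fin.sum_univ_three]
  simp only [mm, nn, rr, Matrix.cons_val_zero, Matrix.cons_val_one, Matrix.cons_val_two,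
    Matrix.head_cons, Matrix.tail_cons, map_one, aeval_X, one_smul, smul_add, smul_smul,
    Matrix.cons_val]
  rw [mul_div_cancel₀ _ h0, mul_div_cancel₀ _ h0, mul_div_cancel₀ _ h3, mul_div_cancel₀ _ h3]

end coords

end Vale.Agent.P287.H528
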