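import Mathlib
import Vale.Agent.P287.H528.Rat

/-!
# A smooth cubic fourfold containing two disjoint planes is rational (classical), continued
-/

open MvPolynomial

namespace Vale.Agent.P287.H528

variable (b : Module.Basis (Fin 3 ⊕ Fin 3) ℂ (Fin 6 → ℂ))

/-- Clearing denominators. -/
theorem exists_clear (p : MvPolynomial (Fin 4) ℂ) :
    ∃ (N : ℕ) (P : MvPolynomial (Fin 6) ℂ), ∀ (K : Type) [Field K] [Algebra ℂ K] (x : Fin 6 → K),
      yK b K (Sum.inl 0) x ≠ 0 → yK b K (Sum.inr 0) x ≠ 0 →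
        aeval x P = (yK b K (Sum.inl 0) x * yK b K (Sum.inr 0) x) ^ N * aeval (rr b x) p := by
  induction p using MvPolynomial.induction_on with
  | C a => exact ⟨0, C a, fun K _ _ x _ _ => by simp⟩
  | add p q hp hq =>
    obtain ⟨N, P, hP⟩ := hp
    obtain ⟨M, Q, hQ⟩ := hq
    refine ⟨N + M, P * (yP b (Sum.inl 0) * yP b (Sum.inr 0)) ^ M
      + Q * (yP b (Sum.inl 0) * yP b (Sum.inr 0)) ^ N, fun K _ _ x h0 h3 => ?_⟩
    simp only [map_add, map_mul, map_pow, aeval_yP, hP K x h0 h3, hQ K x h0 h3]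
    ring
  | mul_X p i hp =>
    obtain ⟨N, P, hP⟩ := hp
    refine ⟨N + 1, P * (![yP b (Sum.inl 1) * yP b (Sum.inr 0), yP b (Sum.inl 2) * yP b (Sum.inr 0),
      yP b (Sum.inr 1) * yP b (Sum.inl 0), yP b (Sum.inr 2) * yP b (Sum.inl 0)] i),
      fun K _ _ x h0 h3 => ?_⟩
    have hi : aeval x (![yP b (Sum.inl 1) * yP b (Sum.inr 0),
        yP b (Sum.inl 2) * yP b (Sum.inr 0),
        yP b (Sum.inr 1) * yP b (Sum.inl 0), yP b (Sum.inr 2) * yP b (Sum.inl 0)] i)
        = yK b K (Sum.inl 0) x * yK b K (Sum.inr 0) x * rr b x i := by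
      fin_cases i <;>
      · simp only [Fin.zero_eta, Fin.mk_one, Fin.reduceFinMk, Matrix.cons_val_zero,
          Matrix.cons_val_one, Matrix.cons_val, map_mul, aeval_yP, rr]
        field_simp
    rw [map_mul, map_mul, aeval_X, hi, hP K x h0 h3]
    ring

/-- The rational function field in four variables. -/
abbrev K4 : Type := FractionRing (MvPolynomial (Fin 4) ℂ)

/-- The generic values of the four parameters. -/
noncomputable def t4 (i : Fin 4) : K4 := algebraMap (MvPolynomial (Fin 4) ℂ) K4 (X i)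

theorem aeval_t4 (p : MvPolynomial (Fin 4) ℂ) :
    aeval t4 p = algebraMap (MvPolynomial (Fin 4) ℂ) K4 p := by
  have h : (aeval t4 : MvPolynomial (Fin 4) ℂ →ₐ[ℂ] K4) = IsScalarTower.toAlgHom ℂ _ K4 := by
    ext i
    simp [t4]
  rw [h]
  rfl

variable (F : MvPolynomial (Fin 6) ℂ)

/-- The generic point of the fourfold. -/
noncomputable def zz : Fin 6 → K4 :=
  aeval t4 (Bhat b F) • uu b t4 + (-(aeval t4 (Ahat b F))) • vv b t4

theorem yK_uu_inl {K : Type} [Field K] [Algebra ℂ K] (t : Fin 4 → K) (i : Fin 3) :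
    yK b K (Sum.inl i) (uu b t) = aeval t (mm i) := by
  rw [uu, map_sum, Finset.sum_eq_single i]
  · rw [map_smul, yK_bK, if_pos rfl, smul_eq_mul, mul_one]
  · intro j _ hj
    rw [map_smul, yK_bK, if_neg (fun h => hj (Sum.inl_injective h).symm), smul_zero]
  · intro h
    exact absurd (Finset.mem_univ i) h

theorem yK_uu_inr {K : Type} [Field K] [Algebra ℂ K] (t : Fin 4 → K) (i : Fin 3) :
    yK b K (Sum.inr i) (uu b t) = 0 := by
  rw [uu, map_sum]
  refine Finset.sum_eq_zero fun j _ => ?_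
  rw [map_smul, yK_bK, if_neg Sum.inr_ne_inl, smul_zero]

theorem yK_vv_inr {K : Type} [Field K] [Algebra ℂ K] (t : Fin 4 → K) (i : Fin 3) :
    yK b K (Sum.inr i) (vv b t) = aeval t (nn i) := by
  rw [vv, map_sum, Finset.sum_eq_single i]
  · rw [map_smul, yK_bK, if_pos rfl, smul_eq_mul, mul_one]
  · intro j _ hj
    rw [map_smul, yK_bK, if_neg (fun h => hj (Sum.inr_injective h).symm), smul_zero]
  · intro h
    exact absurd (Finset.mem_univ i) h

theorem yK_vv_inl {K : Type} [Field K] [Algebra ℂ K] (t : Fin 4 → K) (i : Fin 3) :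
    yK b K (Sum.inl i) (vv b t) = 0 := by
  rw [vv, map_sum]
  refine Finset.sum_eq_zero fun j _ => ?_
  rw [map_smul, yK_bK, if_neg Sum.inl_ne_inr, smul_zero]

theorem yK_zz_inl (i : Fin 3) :
    yK b K4 (Sum.inl i) (zz b F) = aeval t4 (Bhat b F) * aeval t4 (mm i) := by
  rw [zz, map_add, map_smul, map_smul, yK_uu_inl, yK_vv_inl, smul_zero, add_zero, smul_eq_mul]

theorem yK_zz_inr (i : Fin 3) :
    yK b K4 (Sum.inr i) (zz b F) = -(aeval t4 (Ahat b F)) * aeval t4 (nn i) := by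
  rw [zz, map_add, map_smul, map_smul, yK_uu_inr, yK_vv_inr, smul_zero, zero_add, smul_eq_mul]

/-- The hypotheses: an adapted basis. -/
structure Adapted (F : MvPolynomial (Fin 6) ℂ) : Prop where
  cubic : IsCubicFourfold F
  h1 : ∀ i j k, tri ℂ F (b (Sum.inl i)) (b (Sum.inl j)) (b (Sum.inl k)) = 0
  h2 : ∀ i j k, tri ℂ F (b (Sum.inr i)) (b (Sum.inr j)) (b (Sum.inr k)) = 0
  h3 : tri ℂ F (b (Sum.inl 0)) (b (Sum.inl 0)) (b (Sum.inr 0)) ≠ 0

variable {b F}

theorem Adapted.expand (h : Adapted b F) {K : Type} [Field K] [Algebra ℂ K] (t : Fin 4 → K)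
    (s r : K) : tri K F (s • uu b t + r • vv b t) (s • uu b t + r • vv b t)
      (s • uu b t + r • vv b t)
      = 3 * s * r * (s * aeval t (Ahat b F) + r * aeval t (Bhat b F)) := by
  have e1 := tri_uuu b F h.h1 t
  have e2 := tri_vvv b F h.h2 t
  simp only [map_add, map_smul, LinearMap.add_apply, LinearMap.smul_apply, smul_eq_mul]
  have s1 : tri K F (uu b t) (vv b t) (uu b t) = tri K F (uu b t) (uu b t) (vv b t) :=
    tri_comm23 _ _ _ _
  have s2 : tri K F (vv b t) (uu b t) (uu b t) = tri K F (uu b t) (uu b t) (vv b t) := by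
    rw [tri_comm12, s1]
  have s3 : tri K F (vv b t) (uu b t) (vv b t) = tri K F (uu b t) (vv b t) (vv b t) :=
    tri_comm12 _ _ _ _
  have s4 : tri K F (vv b t) (vv b t) (uu b t) = tri K F (uu b t) (vv b t) (vv b t) := by
    rw [tri_comm23, s3]
  rw [s1, s2, s3, s4, e1, e2, aeval_Ahat, aeval_Bhat]
  ring

theorem Adapted.Ahat_ne (h : Adapted b F) : Ahat b F ≠ 0 := by
  intro h0
  have h1 := aeval_Ahat b F (fun _ => (0 : ℂ))
  rw [h0, map_zero] at h1
  apply h.h3
  rw [h1]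
  have hu : uu b (fun _ => (0 : ℂ)) = b (Sum.inl 0) := by
    rw [uu, Fin.sum_univ_three]
    simp only [mm, Matrix.cons_val_zero, Matrix.cons_val_one, Matrix.cons_val, map_one, aeval_X,
      one_smul, zero_smul, add_zero]
    rfl
  have hv : vv b (fun _ => (0 : ℂ)) = b (Sum.inr 0) := by
    rw [vv, Fin.sum_univ_three]
    simp only [nn, Matrix.cons_val_zero, Matrix.cons_val_one, Matrix.cons_val, map_one, aeval_X,
      one_smul, zero_smul, add_zero]
    rfl
  rw [hu, hv]

theorem Adapted.Bhat_ne (h : Adapted b F) : Bhat b F ≠ 0 := by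
  intro h0
  have hB : ∀ t : Fin 4 → ℂ, tri ℂ F (uu b t) (vv b t) (vv b t) = 0 := by
    intro t
    rw [← aeval_Bhat, h0, map_zero]
  have hv : ∀ x y : ℂ, vv b ![x, y, 0, 0] = b (Sum.inr 0) := by
    intro x y
    rw [vv, Fin.sum_univ_three]
    simp only [nn, Matrix.cons_val_zero, Matrix.cons_val_one, Matrix.cons_val, map_one, aeval_X,
      one_smul, zero_smul, add_zero]
    rfl
  have hu : ∀ x y : ℂ, uu b ![x, y, 0, 0]
      = b (Sum.inl 0) + x • b (Sum.inl 1) + y • b (Sum.inl 2) := by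
    intro x y
    rw [uu, Fin.sum_univ_three]
    simp only [mm, Matrix.cons_val_zero, Matrix.cons_val_one, Matrix.cons_val, map_one, aeval_X,
      one_smul]
    rfl
  have e0 := hB ![0, 0, 0, 0]
  have e1 := hB ![1, 0, 0, 0]
  have e2 := hB ![0, 1, 0, 0]
  rw [hv, hu] at e0 e1 e2
  simp only [zero_smul, one_smul, add_zero, map_add, LinearMap.add_apply] at e0 e1 e2
  rw [e0, zero_add] at e1 e2
  obtain ⟨w, hw⟩ := h.cubic.tri_ne (b.ne_zero (Sum.inr 0))
  apply hw
  rw [← b.sum_repr w, map_sum]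
  refine Finset.sum_eq_zero fun k _ => ?_
  rw [map_smul]
  have hk : tri ℂ F (b (Sum.inr 0)) (b (Sum.inr 0)) (b k) = 0 := by
    rcases k with k | k
    · rw [tri_comm23, tri_comm12]
      fin_cases k
      · exact e0
      · exact e1
      · exact e2
    · exact h.h2 0 0 k
  rw [hk, smul_zero]

theorem algebraMap_K4_ne {p : MvPolynomial (Fin 4) ℂ} (hp : p ≠ 0) : aeval t4 p ≠ 0 := by
  rw [aeval_t4]
  exact fun h => hp ((IsFractionRing.injective (MvPolynomial (Fin 4) ℂ) K4)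
    (h.trans (map_zero _).symm))

theorem Adapted.aeval_zz (h : Adapted b F) : aeval (zz b F) F = 0 := by
  rw [aeval_eq_tri h.cubic.homogeneous, zz, h.expand]
  ring

theorem Adapted.aeval_zz_of_dvd (h : Adapted b F) {P : MvPolynomial (Fin 6) ℂ} (hP : F ∣ P) :
    aeval (zz b F) P = 0 := by
  obtain ⟨Q, rfl⟩ := hP
  rw [map_mul, h.aeval_zz, zero_mul]

theorem Adapted.yK_zz_ne0 (h : Adapted b F) : yK b K4 (Sum.inl 0) (zz b F) ≠ 0 := by
  rw [yK_zz_inl]
  simpa [mm] using algebraMap_K4_ne h.Bhat_ne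

theorem Adapted.yK_zz_ne3 (h : Adapted b F) : yK b K4 (Sum.inr 0) (zz b F) ≠ 0 := by
  rw [yK_zz_inr]
  simpa [nn] using algebraMap_K4_ne h.Ahat_ne

theorem Adapted.rr_zz (h : Adapted b F) : rr b (zz b F) = t4 := by
  have h1 := algebraMap_K4_ne h.Bhat_ne
  have h2 := algebraMap_K4_ne h.Ahat_ne
  funext i
  rw [rr, yK_zz_inl, yK_zz_inl, yK_zz_inl, yK_zz_inr, yK_zz_inr, yK_zz_inr]
  simp only [mm, nn, Matrix.cons_val_zero, Matrix.cons_val_one, Matrix.cons_val, map_one, aeval_X,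
    mul_one]
  fin_cases i <;>
  · simp only [Fin.zero_eta, Fin.mk_one, Fin.reduceFinMk, Matrix.cons_val_zero,
          Matrix.cons_val_one, Matrix.cons_val]
    field_simp

theorem aeval_coord (F : MvPolynomial (Fin 6) ℂ) [(Ideal.span {F}).IsPrime]
    (P : MvPolynomial (Fin 6) ℂ) : aeval (coord F) P
      = algebraMap (CoordRing F) (FractionRing (CoordRing F)) (Ideal.Quotient.mk _ P) := by
  have h : (aeval (coord F) : MvPolynomial (Fin 6) ℂ →ₐ[ℂ] FractionRing (CoordRing F))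
      = (IsScalarTower.toAlgHom ℂ (CoordRing F) (FractionRing (CoordRing F))).comp
        (Ideal.Quotient.mkₐ ℂ (Ideal.span {F})) := by
    ext i
    simp [coord]
  rw [h]
  rfl

theorem aeval_coord_eq_zero (F : MvPolynomial (Fin 6) ℂ) [(Ideal.span {F}).IsPrime]
    (P : MvPolynomial (Fin 6) ℂ) : aeval (coord F) P = 0 ↔ F ∣ P := by
  rw [aeval_coord, IsFractionRing.to_map_eq_zero_iff, Ideal.Quotient.eq_zero_iff_mem,
    Ideal.mem_span_singleton]

theorem ratio_mem {K : Type} [Field K] [Algebra ℂ K] (x : Fin 6 → K) (k l : Fin 3 ⊕ Fin 3)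
    (b : Module.Basis (Fin 3 ⊕ Fin 3) ℂ (Fin 6 → ℂ)) :
    yK b K k x / yK b K l x
      ∈ IntermediateField.adjoin ℂ {a | ∃ i j : Fin 6, a = x i / x j} := by
  by_cases h0 : ∃ j, x j ≠ 0
  · obtain ⟨j, hj⟩ := h0
    have h1 : ∀ k, yK b K k x / x j
        ∈ IntermediateField.adjoin ℂ {a | ∃ i j : Fin 6, a = x i / x j} := by
      intro k
      rw [yK_apply, Finset.sum_div]
      refine sum_mem fun i _ => ?_
      rw [mul_div_assoc]
      refine mul_mem (IntermediateField.algebraMap_mem _ _) ?_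
      exact IntermediateField.subset_adjoin _ _ ⟨i, j, rfl⟩
    have h2 := div_mem (h1 k) (h1 l)
    rwa [div_div_div_cancel_right₀ hj] at h2
  · push Not at h0
    have : x = 0 := funext h0
    rw [this, map_zero, zero_div]
    exact zero_mem _

section key

variable {K : Type} [Field K] [Algebra ℂ K] (x : Fin 6 → K) (hx : ∀ P, aeval x P = 0 ↔ F ∣ P)

include hx

theorem Adapted.y_ne0 (h : Adapted b F) : yK b K (Sum.inl 0) x ≠ 0 := by
  rw [← aeval_yP, Ne, hx]
  intro hd
  apply h.yK_zz_ne0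
  rw [← aeval_yP]
  exact h.aeval_zz_of_dvd hd

theorem Adapted.y_ne3 (h : Adapted b F) : yK b K (Sum.inr 0) x ≠ 0 := by
  rw [← aeval_yP, Ne, hx]
  intro hd
  apply h.yK_zz_ne3
  rw [← aeval_yP]
  exact h.aeval_zz_of_dvd hd

theorem Adapted.indep (h : Adapted b F) : AlgebraicIndependent ℂ (rr b x) := by
  have hy0 := h.y_ne0 x hx
  have hy3 := h.y_ne3 x hx
  rw [algebraicIndependent_iff]
  intro p hp
  obtain ⟨N, P, hP⟩ := exists_clear b p
  have h1 := hP K x hy0 hy3
  rw [hp, mul_zero, hx] at h1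
  have h2 := hP K4 (zz b F) h.yK_zz_ne0 h.yK_zz_ne3
  rw [h.aeval_zz_of_dvd h1, h.rr_zz] at h2
  by_contra hp0
  exact (mul_ne_zero (pow_ne_zero N (mul_ne_zero h.yK_zz_ne0 h.yK_zz_ne3))
    (algebraMap_K4_ne hp0)) h2.symm

theorem Adapted.rel (h : Adapted b F) : yK b K (Sum.inl 0) x * aeval (rr b x) (Ahat b F)
      + yK b K (Sum.inr 0) x * aeval (rr b x) (Bhat b F) = 0 := by
  have hy0 := h.y_ne0 x hx
  have hy3 := h.y_ne3 x hx
  have hFx : tri K F x x x = 0 := by
    rw [← aeval_eq_tri h.cubic.homogeneous, hx]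
  have h1 := h.expand (rr b x) (yK b K (Sum.inl 0) x) (yK b K (Sum.inr 0) x)
  rw [← eq_uu_add_vv b x hy0 hy3, hFx] at h1
  have h3 : (3 : K) ≠ 0 := by
    have : (3 : K) = algebraMap ℂ K 3 := by rw [map_ofNat]
    rw [this, Ne, map_eq_zero]
    norm_num
  have h4 := h1.symm
  rw [mul_eq_zero] at h4
  rcases h4 with h4 | h4
  · exact absurd h4 (mul_ne_zero (mul_ne_zero h3 hy0) hy3)
  · exact h4

theorem Adapted.adjoin_eq (h : Adapted b F) :
    IntermediateField.adjoin ℂ {a | ∃ i j : Fin 6, a = x i / x j}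
      = IntermediateField.adjoin ℂ (Set.range (rr b x)) := by
  have hy0 := h.y_ne0 x hx
  have hy3 := h.y_ne3 x hx
  have hrel := h.rel x hx
  have hBne : aeval (rr b x) (Bhat b F) ≠ 0 := by
    intro h0
    exact h.Bhat_ne ((algebraicIndependent_iff.1 (h.indep x hx)) _ h0)
  set E := IntermediateField.adjoin ℂ (Set.range (rr b x)) with hE
  have haev : ∀ p : MvPolynomial (Fin 4) ℂ, aeval (rr b x) p ∈ E := by
    intro p
    have h1 : aeval (rr b x) p ∈ Algebra.adjoin ℂ (Set.range (rr b x)) := by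
      rw [Algebra.adjoin_range_eq_range_aeval]
      exact ⟨p, rfl⟩
    exact IntermediateField.algebra_adjoin_le_adjoin ℂ _ h1
  have hρ : yK b K (Sum.inr 0) x / yK b K (Sum.inl 0) x ∈ E := by
    have h1 : yK b K (Sum.inr 0) x / yK b K (Sum.inl 0) x
        = -(aeval (rr b x) (Ahat b F)) / aeval (rr b x) (Bhat b F) := by
      rw [div_eq_div_iff hy0 hBne]
      linear_combination hrel
    rw [h1]
    exact div_mem (neg_mem (haev _)) (haev _)
  have huE : ∀ i, uu b (rr b x) i ∈ E := by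
    intro i
    rw [uu, Finset.sum_apply]
    refine sum_mem fun j _ => ?_
    rw [Pi.smul_apply, smul_eq_mul]
    exact mul_mem (haev _) (IntermediateField.algebraMap_mem _ _)
  have hvE : ∀ i, vv b (rr b x) i ∈ E := by
    intro i
    rw [vv, Finset.sum_apply]
    refine sum_mem fun j _ => ?_
    rw [Pi.smul_apply, smul_eq_mul]
    exact mul_mem (haev _) (IntermediateField.algebraMap_mem _ _)
  have hxE : ∀ i, x i / yK b K (Sum.inl 0) x ∈ E := by
    intro i
    have h1 : x i = yK b K (Sum.inl 0) x * uu b (rr b x) i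
        + yK b K (Sum.inr 0) x * vv b (rr b x) i :=
      congrFun (eq_uu_add_vv b x hy0 hy3) i
    have h2 : x i / yK b K (Sum.inl 0) x = uu b (rr b x) i
        + (yK b K (Sum.inr 0) x / yK b K (Sum.inl 0) x) * vv b (rr b x) i := by
      rw [div_eq_iff hy0, h1]
      field_simp
    rw [h2]
    exact add_mem (huE i) (mul_mem hρ (hvE i))
  apply le_antisymm
  · rw [IntermediateField.adjoin_le_iff]
    rintro _ ⟨i, j, rfl⟩
    have h1 := div_mem (hxE i) (hxE j)
    rwa [div_div_div_cancel_right₀ hy0] at h1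
  · rw [hE, IntermediateField.adjoin_le_iff]
    rintro _ ⟨i, rfl⟩
    fin_cases i
    · exact ratio_mem x _ _ b
    · exact ratio_mem x _ _ b
    · exact ratio_mem x _ _ b
    · exact ratio_mem x _ _ b

end key

theorem Adapted.isRational (h : Adapted b F) : IsRationalFourfold F := by
  have hprime := h.cubic.isPrime
  refine ⟨hprime, ?_⟩
  have hx := aeval_coord_eq_zero F
  have heq := h.adjoin_eq (coord F) hx
  exact ⟨(IntermediateField.equivOfEq heq).trans (h.indep (coord F) hx).aevalEquivField.symm⟩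

end Vale.Agent.P287.H528
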