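import Mathlib
import Vale.Agent.P287.H528.Rat2

/-!
# A smooth cubic fourfold containing two disjoint planes is rational (classical): conclusion
-/

open MvPolynomial

namespace Vale.Agent.P287.H528

variable {F : MvPolynomial (Fin 6) ℂ}

theorem IsPlaneIn.tri_zero (hF : IsCubicFourfold F) {U : Submodule ℂ (Fin 6 → ℂ)}
    (hU : IsPlaneIn F U) : ∀ u ∈ U, ∀ v ∈ U, ∀ w ∈ U, tri ℂ F u v w = 0 :=
  hF.isSm.polar U fun u hu => by rw [← eval_eq_tri hF.homogeneous]; exact hU.2 u hu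

/-- **Classical**: a smooth cubic fourfold containing two disjoint planes is rational. -/
theorem rational_of_disjoint_planes (hF : IsCubicFourfold F) {U U' : Submodule ℂ (Fin 6 → ℂ)}
    (hU : IsPlaneIn F U) (hU' : IsPlaneIn F U') (hd : U ⊓ U' = ⊥) : IsRationalFourfold F := by
  have hc : IsCompl U U' := by
    refine ⟨disjoint_iff.2 hd, codisjoint_iff.2 ?_⟩
    apply Submodule.eq_top_of_finrank_eq
    have h1 := Submodule.finrank_sup_add_finrank_inf_eq U U'
    rw [hd, finrank_bot, hU.1, hU'.1] at h1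
    rw [Module.finrank_fin_fun]
    omega
  let b0 : Module.Basis (Fin 3) ℂ U := Module.finBasisOfFinrankEq ℂ U hU.1
  let b1 : Module.Basis (Fin 3) ℂ U' := Module.finBasisOfFinrankEq ℂ U' hU'.1
  let b : Module.Basis (Fin 3 ⊕ Fin 3) ℂ (Fin 6 → ℂ) :=
    (b0.prod b1).map (Submodule.prodEquivOfIsCompl U U' hc)
  have hbl : ∀ i, b (Sum.inl i) = (b0 i : Fin 6 → ℂ) := by
    intro i
    simp [b]
  have hbr : ∀ i, b (Sum.inr i) = (b1 i : Fin 6 → ℂ) := by
    intro i
    simp [b]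
  obtain ⟨k, hk⟩ : ∃ k, tri ℂ F (b (Sum.inl 0)) (b (Sum.inl 0)) (b (Sum.inr k)) ≠ 0 := by
    by_contra hcon
    push Not at hcon
    obtain ⟨w, hw⟩ := hF.tri_ne (b.ne_zero (Sum.inl 0))
    apply hw
    rw [← b.sum_repr w, map_sum]
    refine Finset.sum_eq_zero fun j _ => ?_
    rw [map_smul]
    have hj : tri ℂ F (b (Sum.inl 0)) (b (Sum.inl 0)) (b j) = 0 := by
      rcases j with j | j
      · rw [hbl, hbl]
        exact hU.tri_zero hF _ (b0 0).2 _ (b0 0).2 _ (b0 j).2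
      · exact hcon j
    rw [hj, smul_zero]
  let b' := b.reindex (Equiv.sumCongr (Equiv.refl (Fin 3)) (Equiv.swap 0 k))
  have hb'l : ∀ i, b' (Sum.inl i) = (b0 i : Fin 6 → ℂ) := by
    intro i
    rw [← hbl, Module.Basis.reindex_apply]
    congr 1
  have hb'r : ∀ i, b' (Sum.inr i) = (b1 (Equiv.swap 0 k i) : Fin 6 → ℂ) := by
    intro i
    rw [← hbr, Module.Basis.reindex_apply]
    congr 1
  have had : Adapted b' F := by
    refine ⟨hF, fun i j l => ?_, fun i j l => ?_, ?_⟩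
    · rw [hb'l, hb'l, hb'l]
      exact hU.tri_zero hF _ (b0 i).2 _ (b0 j).2 _ (b0 l).2
    · rw [hb'r, hb'r, hb'r]
      exact hU'.tri_zero hF _ (b1 _).2 _ (b1 _).2 _ (b1 _).2
    · rw [hb'l, hb'r, Equiv.swap_apply_left]
      rwa [hbl, hbr] at hk
  exact had.isRational

end Vale.Agent.P287.H528
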