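import Mathlib

/-!
# Generalised quadrangles with three points per line
-/

namespace Vale.Agent.P287.H528

variable {P : Type*}

/-- Every adjacent pair lies in exactly one triangle, and every further vertex is adjacent to a
vertex of each triangle. -/
structure GQ (adj : P → P → Prop) : Prop where
  symm : ∀ a b, adj a b → adj b a
  irrefl : ∀ a, ¬ adj a a
  ex : ∀ a b, adj a b → ∃ c, adj a c ∧ adj b c
  cover : ∀ a b c w, adj a b → adj a c → adj b c → w ≠ a → w ≠ b → w ≠ c →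
    adj w a ∨ adj w b ∨ adj w c
  uniq : ∀ a b c d, adj a b → adj a c → adj b c → adj a d → adj b d → c = d

namespace GQ

variable {adj : P → P → Prop}

/-- Two points of a line different from `a`: at most one of them is adjacent to a point off the
line. -/
theorem not_both (h : GQ adj) {a b c w : P} (ab : adj a b) (ac : adj a c) (bc : adj b c)
    (wc : w ≠ c) (wa : adj w a) (wb : adj w b) : False :=
  wc (h.uniq a b w c ab (h.symm _ _ wa) (h.symm _ _ wb) ac bc)

theorem ne (h : GQ adj) {a b : P} (ab : adj a b) : a ≠ b := by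
  rintro rfl
  exact h.irrefl a ab

/-- A point not on the line `a b c` which is adjacent neither to `a` nor to `b` is adjacent
to `c`. -/
theorem adj_third (h : GQ adj) {a b c w : P} (ab : adj a b) (ac : adj a c) (bc : adj b c)
    (wa : w ≠ a) (wb : w ≠ b) (wc : w ≠ c) (na : ¬ adj w a) (nb : ¬ adj w b) : adj w c := by
  rcases h.cover a b c w ab ac bc wa wb wc with h1 | h1 | h1
  · exact absurd h1 na
  · exact absurd h1 nb
  · exact h1

/-- Non-collinear points have at most five common neighbours. -/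
theorem no_six (h : GQ adj) {x y : P} (hn : ¬ adj x y) (u : Fin 6 → P)
    (hu : Function.Injective u) (h1 : ∀ i, adj x (u i)) (h2 : ∀ i, adj y (u i)) (hxy : x ≠ y) :
    False := by
  have sy := h.symm
  have hn' : ¬ adj y x := fun h' => hn (sy _ _ h')
  -- the points `u i` are pairwise non-adjacent
  have huu : ∀ i j, i ≠ j → ¬ adj (u i) (u j) := fun i j hij hadj =>
    h.not_both hadj (sy _ _ (h1 i)) (sy _ _ (h1 j)) (Ne.symm hxy) (h2 i) (h2 j)
  choose xx hx1 hx2 using fun i => h.ex x (u i) (h1 i)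
  choose yy hy1 hy2 using fun i => h.ex y (u i) (h2 i)
  -- `x_i` is not adjacent to `y`
  have a1 : ∀ i, ¬ adj (xx i) y := fun i hadj =>
    h.not_both (hx2 i) (sy _ _ (h1 i)) (sy _ _ (hx1 i)) (Ne.symm hxy) (h2 i) (sy _ _ hadj)
  have b1 : ∀ i, ¬ adj (yy i) x := fun i hadj =>
    h.not_both (hy2 i) (sy _ _ (h2 i)) (sy _ _ (hy1 i)) hxy (h1 i) (sy _ _ hadj)
  have xy : ∀ i, xx i ≠ y := fun i he => hn (he ▸ hx1 i)
  have yx : ∀ i, yy i ≠ x := fun i he => hn' (he ▸ hy1 i)
  have xu : ∀ i j, xx i ≠ u j := fun i j he => a1 i (he ▸ sy _ _ (h2 j))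
  have yu : ∀ i j, yy i ≠ u j := fun i j he => b1 i (he ▸ sy _ _ (h1 j))
  -- `x_i` is not adjacent to `u_j`
  have a2 : ∀ i j, i ≠ j → ¬ adj (xx i) (u j) := fun i j hij hadj =>
    h.not_both (hx1 i) (h1 i) (sy _ _ (hx2 i)) (fun he => hij (hu he).symm)
      (sy _ _ (h1 j)) (sy _ _ hadj)
  have b2 : ∀ i j, i ≠ j → ¬ adj (yy i) (u j) := fun i j hij hadj =>
    h.not_both (hy1 i) (h2 i) (sy _ _ (hy2 i)) (fun he => hij (hu he).symm)
      (sy _ _ (h2 j)) (sy _ _ hadj)
  have xyne : ∀ i j, xx i ≠ yy j := fun i j he => a1 i (he ▸ sy _ _ (hy1 j))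
  -- `x_i` is adjacent to `y_j`
  have a3 : ∀ i j, i ≠ j → adj (xx i) (yy j) := fun i j hij =>
    h.adj_third (h2 j) (hy1 j) (hy2 j) (xy i) (xu i j) (xyne i j) (a1 i) (a2 i j hij)
  -- the points `z_ij`
  have zex : ∀ i j, i ≠ j → ∃ z, adj (xx i) z ∧ adj (yy j) z := fun i j hij =>
    h.ex _ _ (a3 i j hij)
  obtain ⟨z, hz1, hz2⟩ := zex 0 1 (by decide)
  have zu : ∀ k, k ≠ 0 → k ≠ 1 → adj z (u k) := by
    intro k hk0 hk1
    apply sy
    refine h.adj_third (a3 0 1 (by decide)) hz1 hz2 (xu 0 k).symm (yu 1 k).symm ?_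
      (fun h' => a2 0 k hk0.symm (sy _ _ h')) (fun h' => b2 1 k hk1.symm (sy _ _ h'))
    intro he
    exact a2 0 k hk0.symm (he ▸ hz1)
  have zx : ¬ adj x z := fun hadj =>
    h.not_both hz1 (a3 0 1 (by decide)) (sy _ _ hz2) (yx 1).symm (hx1 0) hadj
  have zy : ¬ adj y z := fun hadj =>
    h.not_both hz2 (sy _ _ (a3 0 1 (by decide))) (sy _ _ hz1) (xy 0).symm (hy1 1) hadj
  have zx' : ∀ l, l ≠ 1 → l ≠ 0 → ¬ adj (xx l) z := by
    intro l hl hl0 hadj
    refine h.not_both hz2 (sy _ _ (a3 0 1 (by decide))) (sy _ _ hz1) ?_ (a3 l 1 hl) hadj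
    intro he
    have : u l = u 0 := h.uniq x (xx 0) (u l) (u 0) (hx1 0) (h1 l)
      (by rw [← he]; exact sy _ _ (hx2 l)) (h1 0) (sy _ _ (hx2 0))
    exact hl0 (hu this)
  have zy' : ∀ l, l ≠ 0 → l ≠ 1 → ¬ adj (yy l) z := by
    intro l hl hl1 hadj
    refine h.not_both hz1 (a3 0 1 (by decide)) (sy _ _ hz2) ?_
      (sy _ _ (a3 0 l (Ne.symm hl))) hadj
    intro he
    have : u l = u 1 := h.uniq y (yy 1) (u l) (u 1) (hy1 1) (h2 l)
      (by rw [← he]; exact sy _ _ (hy2 l)) (h2 1) (sy _ _ (hy2 1))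
    exact hl1 (hu this)
  -- the point `w`
  obtain ⟨w, hw1, hw2⟩ := h.ex z (u 2) (zu 2 (by decide) (by decide))
  have wx : ∀ l, l ≠ 0 → l ≠ 1 → l ≠ 2 → adj (xx l) w := by
    intro l h0 h1' h2'
    refine h.adj_third (zu 2 (by decide) (by decide)) hw1 hw2 ?_ (xu l 2) ?_ (zx' l h1' h0)
      (a2 l 2 h2')
    · intro he
      exact zx (he ▸ hx1 l)
    · intro he
      exact a2 l 2 h2' (by rw [he]; exact sy _ _ hw2)
  have wy : ∀ l, l ≠ 0 → l ≠ 1 → l ≠ 2 → adj (yy l) w := by
    intro l h0 h1' h2'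
    refine h.adj_third (zu 2 (by decide) (by decide)) hw1 hw2 ?_ (yu l 2) ?_ (zy' l h0 h1')
      (b2 l 2 h2')
    · intro he
      exact zy (he ▸ hy1 l)
    · intro he
      exact b2 l 2 h2' (by rw [he]; exact sy _ _ hw2)
  -- `y_4` and `y_5` are both common neighbours of `x_3` and `w`
  have e45 : yy 4 = yy 5 := h.uniq (xx 3) w (yy 4) (yy 5) (wx 3 (by decide) (by decide)
    (by decide)) (a3 3 4 (by decide)) (sy _ _ (wy 4 (by decide) (by decide) (by decide)))
    (a3 3 5 (by decide)) (sy _ _ (wy 5 (by decide) (by decide) (by decide)))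
  have : u 4 = u 5 := h.uniq y (yy 4) (u 4) (u 5) (hy1 4) (h2 4) (sy _ _ (hy2 4)) (h2 5)
    (by rw [e45]; exact sy _ _ (hy2 5))
  exact absurd (hu this) (by decide)

/-- A point which is not adjacent to some other point has at most ten neighbours. -/
theorem card_le (h : GQ adj) {x y : P} (hxy : x ≠ y) (hn : ¬ adj x y) (S : Finset P)
    (hS : ∀ s ∈ S, adj x s) : S.card ≤ 10 := by
  classical
  have hex : ∀ s, adj x s → ∃ c, adj x c ∧ adj y c ∧ (s = c ∨ adj s c) := by
    intro s hs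
    obtain ⟨t, ht1, ht2⟩ := h.ex x s hs
    rcases h.cover x s t y hs ht1 ht2 (Ne.symm hxy) (fun he => hn (he ▸ hs))
      (fun he => hn (he ▸ ht1)) with h1 | h1 | h1
    · exact absurd (h.symm _ _ h1) hn
    · exact ⟨s, hs, h1, Or.inl rfl⟩
    · exact ⟨t, ht1, h1, Or.inr ht2⟩
  choose! f hf1 hf2 hf3 using hex
  have himg : (S.image f).card ≤ 5 := by
    by_contra hcon
    push Not at hcon
    obtain ⟨R, hR, hR6⟩ := Finset.exists_subset_card_eq (s := S.image f) (n := 6) (by omega)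
    let e := (Finset.equivFinOfCardEq hR6).symm
    refine h.no_six hn (fun i => (e i : P)) (fun i j hij => e.injective (Subtype.ext hij))
      (fun i => ?_) (fun i => ?_) hxy
    · obtain ⟨s, hs, hse⟩ := Finset.mem_image.1 (hR (e i).2)
      rw [← hse]
      exact hf1 s (hS s hs)
    · obtain ⟨s, hs, hse⟩ := Finset.mem_image.1 (hR (e i).2)
      rw [← hse]
      exact hf2 s (hS s hs)
  have hfib : ∀ c ∈ S.image f, (S.filter fun s => f s = c).card ≤ 2 := by
    intro c hc
    obtain ⟨s0, hs0, hsc⟩ := Finset.mem_image.1 hc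
    have hxc : adj x c := by rw [← hsc]; exact hf1 s0 (hS s0 hs0)
    obtain ⟨d, hd1, hd2⟩ := h.ex x c hxc
    have hsub : (S.filter fun s => f s = c) ⊆ {c, d} := by
      intro s hs
      rw [Finset.mem_filter] at hs
      rw [Finset.mem_insert, Finset.mem_singleton]
      rcases hf3 s (hS s hs.1) with h3 | h3
      · left
        rw [h3, hs.2]
      · right
        rw [hs.2] at h3
        exact h.uniq x c s d hxc (hS s hs.1) (h.symm _ _ h3) hd1 hd2
    exact (Finset.card_le_card hsub).trans Finset.card_le_two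
  have := Finset.card_le_mul_card_image (s := S) (f := f) 2 hfib
  omega

/-- A generalised quadrangle with three points per line has at most 27 points. -/
theorem bound (h : GQ adj) {a b c : P} (ab : adj a b) (ac : adj a c) (bc : adj b c)
    (ha : ∃ y, a ≠ y ∧ ¬ adj a y) (hb : ∃ y, b ≠ y ∧ ¬ adj b y) (hc : ∃ y, c ≠ y ∧ ¬ adj c y)
    (S : Finset P) : S.card ≤ 27 := by
  classical
  have key : ∀ p q r : P, adj p q → adj p r → adj q r → (∃ y, p ≠ y ∧ ¬ adj p y) →
      ((S.filter fun s => adj p s ∧ s ≠ q ∧ s ≠ r)).card ≤ 8 := by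
    intro p q r pq pr qr hp
    obtain ⟨y, hy, hny⟩ := hp
    have h1 := h.card_le hy hny (insert q (insert r (S.filter fun s => adj p s ∧ s ≠ q ∧ s ≠ r)))
      (fun s hs => by
        rw [Finset.mem_insert, Finset.mem_insert, Finset.mem_filter] at hs
        rcases hs with rfl | rfl | hs
        · exact pq
        · exact pr
        · exact hs.2.1)
    rw [Finset.card_insert_of_notMem, Finset.card_insert_of_notMem] at h1
    · omega
    · rw [Finset.mem_filter]
      rintro ⟨-, -, -, h4⟩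
      exact h4 rfl
    · rw [Finset.mem_insert, Finset.mem_filter]
      rintro (h4 | ⟨-, -, h4, -⟩)
      · exact h.ne qr h4
      · exact h4 rfl
  have sy := h.symm
  have k1 := key a b c ab ac bc ha
  have k2 := key b a c (sy _ _ ab) bc ac hb
  have k3 := key c a b (sy _ _ ac) (sy _ _ bc) ab hc
  have hsub : S ⊆ {a, b, c} ∪ ((S.filter fun s => adj a s ∧ s ≠ b ∧ s ≠ c) ∪
      ((S.filter fun s => adj b s ∧ s ≠ a ∧ s ≠ c) ∪
        (S.filter fun s => adj c s ∧ s ≠ a ∧ s ≠ b))) := by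
    intro s hs
    simp only [Finset.mem_union, Finset.mem_insert, Finset.mem_singleton, Finset.mem_filter]
    by_cases h1 : s = a
    · exact Or.inl (Or.inl h1)
    by_cases h2 : s = b
    · exact Or.inl (Or.inr (Or.inl h2))
    by_cases h3 : s = c
    · exact Or.inl (Or.inr (Or.inr h3))
    right
    rcases h.cover a b c s ab ac bc h1 h2 h3 with h4 | h4 | h4
    · exact Or.inl ⟨hs, sy _ _ h4, h2, h3⟩
    · exact Or.inr (Or.inl ⟨hs, sy _ _ h4, h1, h3⟩)
    · exact Or.inr (Or.inr ⟨hs, sy _ _ h4, h1, h2⟩)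
  have h5 := Finset.card_le_card hsub
  have h6 := Finset.card_union_le ({a, b, c} : Finset P)
    ((S.filter fun s => adj a s ∧ s ≠ b ∧ s ≠ c) ∪
      ((S.filter fun s => adj b s ∧ s ≠ a ∧ s ≠ c) ∪
        (S.filter fun s => adj c s ∧ s ≠ a ∧ s ≠ b)))
  have h7 := Finset.card_union_le (S.filter fun s => adj a s ∧ s ≠ b ∧ s ≠ c)
      ((S.filter fun s => adj b s ∧ s ≠ a ∧ s ≠ c) ∪
        (S.filter fun s => adj c s ∧ s ≠ a ∧ s ≠ b))
  have h8 := Finset.card_union_le (S.filter fun s => adj b s ∧ s ≠ a ∧ s ≠ c)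
        (S.filter fun s => adj c s ∧ s ≠ a ∧ s ≠ b)
  have h9 : ({a, b, c} : Finset P).card ≤ 3 := Finset.card_le_three
  omega

end GQ

end Vale.Agent.P287.H528
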