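import Mathlib
import Vale.Agent.P287.H528.Disj

/-!
# The lattice spanned by `h²` and the planes of a cubic fourfold
-/

open MvPolynomial

namespace Vale.Agent.P287.H528

/-- The intersection number, in `H⁴(X, ℤ)` of a smooth cubic fourfold `X`, of two planes contained
in `X` (given as 3-dimensional subspaces of `ℂ⁶`): `3` if they are equal, `-1` if they meet along a
line, `1` if they meet in one point and `0` if they are disjoint. -/
noncomputable def planeInter (U U' : Submodule ℂ (Fin 6 → ℂ)) : ℤ :=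
  open Classical in
  if U = U' then 3
  else if Module.finrank ℂ (U ⊓ U' : Submodule ℂ (Fin 6 → ℂ)) = 2 then -1
  else if Module.finrank ℂ (U ⊓ U' : Submodule ℂ (Fin 6 → ℂ)) = 1 then 1
  else 0

/-- The degree `z · h²` of the class `z = a h² + ∑ n_U [U]`. -/
noncomputable def cycleDegree (a : ℤ) (n : Submodule ℂ (Fin 6 → ℂ) →₀ ℤ) : ℤ :=
  3 * a + ∑ U ∈ n.support, n U

/-- The self-intersection `z · z` of the class `z = a h² + ∑ n_U [U]`. -/
noncomputable def cycleSquare (a : ℤ) (n : Submodule ℂ (Fin 6 → ℂ) →₀ ℤ) : ℤ :=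
  3 * a ^ 2 + 2 * a * ∑ U ∈ n.support, n U
    + ∑ U ∈ n.support, ∑ U' ∈ n.support, n U * n U' * planeInter U U'

/-- The discriminant `det (h² h², h² z; z h², z z) = 3 z² - (z · h²)²` of the lattice spanned by
`h²` and the class `z = a h² + ∑ n_U [U]`. -/
noncomputable def labelDisc (a : ℤ) (n : Submodule ℂ (Fin 6 → ℂ) →₀ ℤ) : ℤ :=
  3 * cycleSquare a n - cycleDegree a n ^ 2

theorem planeInter_comm (U U' : Submodule ℂ (Fin 6 → ℂ)) : planeInter U U' = planeInter U' U := by
  by_cases h : U = U'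
  · rw [h]
  · unfold planeInter
    rw [if_neg h, if_neg (Ne.symm h), inf_comm]

theorem planeInter_self (U : Submodule ℂ (Fin 6 → ℂ)) : planeInter U U = 3 := by
  simp [planeInter]

theorem labelDisc_eq (a : ℤ) (n : Submodule ℂ (Fin 6 → ℂ) →₀ ℤ) :
    labelDisc a n
      = ∑ U ∈ n.support, ∑ U' ∈ n.support, n U * n U' * (3 * planeInter U U' - 1) := by
  have h1 : ∑ U ∈ n.support, ∑ U' ∈ n.support, n U * n U' * (3 * planeInter U U' - 1)
      = 3 * ∑ U ∈ n.support, ∑ U' ∈ n.support, n U * n U' * planeInter U U'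
        - (∑ U ∈ n.support, n U) * (∑ U' ∈ n.support, n U') := by
    rw [Finset.sum_mul_sum, Finset.mul_sum, ← Finset.sum_sub_distrib]
    refine Finset.sum_congr rfl fun U _ => ?_
    rw [Finset.mul_sum, ← Finset.sum_sub_distrib]
    refine Finset.sum_congr rfl fun U' _ => ?_
    ring
  rw [h1, labelDisc, cycleSquare, cycleDegree]
  ring

theorem four_dvd_sum {α : Type*} [DecidableEq α] (f : α → α → ℤ) (hs : ∀ x y, f x y = f y x)
    (s : Finset α) (h4 : ∀ x ∈ s, 4 ∣ f x x) (h2 : ∀ x ∈ s, ∀ y ∈ s, 2 ∣ f x y) :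
    4 ∣ ∑ x ∈ s, ∑ y ∈ s, f x y := by
  induction s using Finset.induction_on with
  | empty => simp
  | insert a s ha ih =>
    rw [Finset.sum_insert ha, Finset.sum_insert ha]
    have e : ∑ x ∈ s, ∑ y ∈ insert a s, f x y
        = ∑ x ∈ s, f a x + ∑ x ∈ s, ∑ y ∈ s, f x y := by
      rw [← Finset.sum_add_distrib]
      refine Finset.sum_congr rfl fun x _ => ?_
      rw [Finset.sum_insert ha, hs]
    rw [e]
    have i1 := ih (fun x hx => h4 x (Finset.mem_insert_of_mem hx))
      (fun x hx y hy => h2 x (Finset.mem_insert_of_mem hx) y (Finset.mem_insert_of_mem hy))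
    have i2 := h4 a (Finset.mem_insert_self a s)
    have i3 : 2 ∣ ∑ x ∈ s, f a x := Finset.dvd_sum fun x hx =>
      h2 a (Finset.mem_insert_self a s) x (Finset.mem_insert_of_mem hx)
    omega

/-- If the discriminant of the class is not divisible by four, two of its planes are disjoint. -/
theorem exists_disjoint_of_not_four_dvd (a : ℤ) (n : Submodule ℂ (Fin 6 → ℂ) →₀ ℤ)
    (hn : ∀ U ∈ n.support, Module.finrank ℂ U = 3) (h : ¬ 4 ∣ labelDisc a n) :
    ∃ U ∈ n.support, ∃ U' ∈ n.support, U ⊓ U' = ⊥ := by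
  classical
  by_contra hcon
  push Not at hcon
  apply h
  rw [labelDisc_eq]
  have hval : ∀ U ∈ n.support, ∀ U' ∈ n.support,
      planeInter U U' = 3 ∨ planeInter U U' = -1 ∨ planeInter U U' = 1 := by
    intro U hU U' hU'
    unfold planeInter
    by_cases e : U = U'
    · simp [e]
    · rw [if_neg e]
      have h0 : Module.finrank ℂ (U ⊓ U' : Submodule ℂ (Fin 6 → ℂ)) ≠ 0 := by
        intro h0
        exact hcon U hU U' hU' (Submodule.finrank_eq_zero.1 h0)
      have h3 : Module.finrank ℂ (U ⊓ U' : Submodule ℂ (Fin 6 → ℂ)) < 3 := by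
        rw [← hn U hU]
        apply Submodule.finrank_lt_finrank_of_lt
        rw [lt_iff_le_and_ne]
        refine ⟨inf_le_left, fun h' => e ?_⟩
        have hle : U ≤ U' := inf_eq_left.1 h'
        exact Submodule.eq_of_le_of_finrank_eq hle (by rw [hn U hU, hn U' hU'])
      have h12 : Module.finrank ℂ (U ⊓ U' : Submodule ℂ (Fin 6 → ℂ)) = 2 ∨
          Module.finrank ℂ (U ⊓ U' : Submodule ℂ (Fin 6 → ℂ)) = 1 := by omega
      rcases h12 with h' | h'
      · simp [h']
      · simp [h']
  refine four_dvd_sum _ (fun x y => by rw [planeInter_comm]; ring) _ (fun U _ => ?_)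
    (fun U hU U' hU' => ?_)
  · rw [planeInter_self]
    exact Dvd.dvd.mul_left (by norm_num) _
  · refine Dvd.dvd.mul_left ?_ _
    rcases hval U hU U' hU' with h' | h' | h' <;> rw [h'] <;> norm_num

end Vale.Agent.P287.H528
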