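import Mathlib
import Vale.Agent.P287.H528.Dim
import Vale.Agent.P287.H528.GQ

/-!
# Many planes: two of them are disjoint
-/

namespace Vale.Agent.P287.H528

open Module

variable {V : Type*} [AddCommGroup V] [Module ℂ V]
variable {T : V →ₗ[ℂ] V →ₗ[ℂ] V →ₗ[ℂ] ℂ}

/-- Two planes of the cubic are adjacent if they meet along a line. -/
def Adj (T : V →ₗ[ℂ] V →ₗ[ℂ] V →ₗ[ℂ] ℂ) (a b : {U : Submodule ℂ V // Pl T U}) : Prop :=
  finrank ℂ (a.1 ⊓ b.1 : Submodule ℂ V) = 2

variable [FiniteDimensional ℂ V]

theorem rank_of_ne {a b : {U : Submodule ℂ V // Pl T U}} (hab : a ≠ b) (h0 : a.1 ⊓ b.1 ≠ ⊥) :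
    finrank ℂ (a.1 ⊓ b.1 : Submodule ℂ V) = 1 ∨ finrank ℂ (a.1 ⊓ b.1 : Submodule ℂ V) = 2 := by
  have h1 : 1 ≤ finrank ℂ (a.1 ⊓ b.1 : Submodule ℂ V) := Submodule.one_le_finrank_iff.2 h0
  have h3 : finrank ℂ (a.1 ⊓ b.1 : Submodule ℂ V) < 3 := by
    rw [← a.2.dim]
    apply Submodule.finrank_lt_finrank_of_lt
    rw [lt_iff_le_and_ne]
    refine ⟨inf_le_left, fun h' => hab ?_⟩
    have hle : a.1 ≤ b.1 := inf_eq_left.1 h'
    exact Subtype.ext (Submodule.eq_of_le_of_finrank_eq hle (by rw [a.2.dim, b.2.dim]))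
  omega

/-- Everything about the third plane of an adjacent pair. -/
theorem exists_third (h : IsSm T) (hV : finrank ℂ V = 6)
    (hall : ∀ a b : {U : Submodule ℂ V // Pl T U}, a.1 ⊓ b.1 ≠ ⊥)
    {a b : {U : Submodule ℂ V // Pl T U}} (hab : Adj T a b) :
    ∃ c, Adj T a c ∧ Adj T b c ∧
      (∀ w, w ≠ a → w ≠ b → w ≠ c → Adj T w a ∨ Adj T w b ∨ Adj T w c) ∧
      (∀ d, Adj T a d → Adj T b d → d = c) := by
  obtain ⟨U3, h3, hle, n1, n2, hL⟩ := h.third_plane hV a.2 b.2 hab
  have hP : finrank ℂ (a.1 ⊔ b.1 : Submodule ℂ V) = 4 := by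
    have := Submodule.finrank_sup_add_finrank_inf_eq a.1 b.1
    rw [a.2.dim, b.2.dim] at this
    have hab' : finrank ℂ (a.1 ⊓ b.1 : Submodule ℂ V) = 2 := hab
    omega
  refine ⟨⟨U3, h3⟩, ?_, ?_, ?_, ?_⟩
  · exact (sup_eq_of_ne a.2.dim h3.dim hP le_sup_left hle (Ne.symm n1)).2
  · exact (sup_eq_of_ne b.2.dim h3.dim hP le_sup_right hle (Ne.symm n2)).2
  · intro w wa wb wc
    exact h.exists_adj hV a.2 b.2 hab h3 hL w.2 (fun e => wa (Subtype.ext e))
      (fun e => wb (Subtype.ext e)) (fun e => wc (Subtype.ext e)) (hall w a) (hall w b)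
  · intro d had hbd
    have hd1 : finrank ℂ (d.1 ⊓ a.1 : Submodule ℂ V) = 2 := by
      rw [inf_comm]
      exact had
    have hd2 : finrank ℂ (d.1 ⊓ b.1 : Submodule ℂ V) = 2 := by
      rw [inf_comm]
      exact hbd
    have hcop := h.coplanar hV a.2 b.2 d.2 hab hd1 hd2
    have heq : ∀ U : Submodule ℂ V, finrank ℂ U = 3 → d.1 ≤ U → d.1 = U := fun U hU hle' =>
      Submodule.eq_of_le_of_finrank_eq hle' (by rw [d.2.dim, hU])
    rcases hL d.1 hcop (fun x hx => d.2.zero x hx x hx x hx) with h5 | h5 | h5
    · have h6 := heq _ a.2.dim h5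
      rw [h6, inf_idem, a.2.dim] at hd1
      omega
    · have h6 := heq _ b.2.dim h5
      rw [h6, inf_idem, b.2.dim] at hd2
      omega
    · exact Subtype.ext (heq _ h3.dim h5)

theorem adj_gq (h : IsSm T) (hV : finrank ℂ V = 6)
    (hall : ∀ a b : {U : Submodule ℂ V // Pl T U}, a.1 ⊓ b.1 ≠ ⊥) : GQ (Adj T) where
  symm a b hab := by
    rw [Adj, inf_comm]
    exact hab
  irrefl a ha := by
    rw [Adj, inf_idem, a.2.dim] at ha
    omega
  ex a b hab := by
    obtain ⟨c, h1, h2, -, -⟩ := exists_third h hV hall hab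
    exact ⟨c, h1, h2⟩
  cover a b c w hab hac hbc wa wb wc := by
    obtain ⟨c', -, -, h3, h4⟩ := exists_third h hV hall hab
    have := h4 c hac hbc
    subst this
    exact h3 w wa wb wc
  uniq a b c d hab hac hbc had hbd := by
    obtain ⟨c', -, -, -, h4⟩ := exists_third h hV hall hab
    rw [h4 c hac hbc, h4 d had hbd]

theorem card_le_of_not_adj (h : IsSm T) (hV : finrank ℂ V = 6)
    (hall : ∀ a b : {U : Submodule ℂ V // Pl T U}, a.1 ⊓ b.1 ≠ ⊥)
    (S : Finset {U : Submodule ℂ V // Pl T U}) (hS : ∀ a ∈ S, ∀ b ∈ S, ¬ Adj T a b) :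
    S.card ≤ 20 := by
  classical
  rw [← Fintype.card_coe]
  refine card_le_of_gram h hV (fun i : S => i.1.1) (fun i => i.1.2) (fun i j hij =>
    rank_of_ne (fun e => hij (Subtype.ext e)) (hall _ _)) (fun a ha => ?_)
  have hgram : ∀ i j : S, gram (fun i : S => i.1.1) i j = 1 + (if i = j then 3 else 0) := by
    intro i j
    rw [gram]
    by_cases hij : i = j
    · rw [if_pos hij, if_pos hij]
      norm_num
    · rw [if_neg hij, if_neg hij]
      refine (if_neg (fun e => hS i.1 i.2 j.1 j.2 e)).trans ?_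
      norm_num
  have h1 : ∀ i, (∑ j, a j) + 3 * a i = 0 := by
    intro i
    rw [← ha i]
    simp only [hgram, add_mul, one_mul, Finset.sum_add_distrib, ite_mul, zero_mul,
      Finset.sum_ite_eq, Finset.mem_univ, if_true]
  have h2 : ((Fintype.card S : ℂ) + 3) * ∑ j, a j = 0 := by
    have h3 : ∑ i : S, ((∑ j, a j) + 3 * a i) = 0 := Finset.sum_eq_zero fun i _ => h1 i
    rw [Finset.sum_add_distrib, Finset.sum_const, Finset.card_univ, nsmul_eq_mul,
      ← Finset.mul_sum] at h3
    linear_combination h3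
  have h4 : ((Fintype.card S : ℂ) + 3) ≠ 0 := by
    norm_cast
  have h5 := (mul_eq_zero.1 h2).resolve_left h4
  funext i
  have h6 := h1 i
  rw [h5, zero_add] at h6
  simpa using h6

theorem card_le_of_pillar (h : IsSm T) (hV : finrank ℂ V = 6)
    (hall : ∀ a b : {U : Submodule ℂ V // Pl T U}, a.1 ⊓ b.1 ≠ ⊥)
    {p : {U : Submodule ℂ V // Pl T U}} (R : Finset {U : Submodule ℂ V // Pl T U})
    (hp : ∀ a ∈ R, Adj T p a) (hR : ∀ a ∈ R, ∀ b ∈ R, ¬ Adj T a b) :
    R.card ≤ 19 := by
  classical
  have hpR : ∀ a ∈ R, p ≠ a := by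
    rintro a ha rfl
    exact hR p ha p ha (hp p ha)
  have key : Fintype.card (Option R) ≤ 20 := by
    refine card_le_of_gram h hV (fun i : Option R => (i.elim p fun r => r.1).1)
      (fun i => (i.elim p fun r => r.1).2) (fun i j hij => ?_) (fun a ha => ?_)
    · apply rank_of_ne _ (hall _ _)
      rcases i with _ | i <;> rcases j with _ | j
      · exact absurd rfl hij
      · exact hpR j.1 j.2
      · exact (hpR i.1 i.2).symm
      · intro e
        exact hij (congrArg some (Subtype.ext e))
    · have g1 : gram (fun i : Option R => (i.elim p fun r => r.1).1) none none = 4 := by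
        rw [gram, if_pos rfl]
      have g2 : ∀ r : R, gram (fun i : Option R => (i.elim p fun r => r.1).1) none (some r)
          = -2 := by
        intro r
        rw [gram, if_neg (by simp)]
        exact if_pos (hp r.1 r.2)
      have g3 : ∀ r : R, gram (fun i : Option R => (i.elim p fun r => r.1).1) (some r) none
          = -2 := by
        intro r
        rw [gram, if_neg (by simp)]
        refine if_pos ?_
        rw [inf_comm]
        exact hp r.1 r.2
      have g4 : ∀ r r' : R, gram (fun i : Option R => (i.elim p fun r => r.1).1) (some r)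
          (some r') = 1 + (if r = r' then 3 else 0) := by
        intro r r'
        rw [gram]
        by_cases hij : r = r'
        · rw [if_pos (by rw [hij]), if_pos hij]
          norm_num
        · rw [if_neg (by simpa using hij), if_neg hij]
          refine (if_neg (fun e => hR r.1 r.2 r'.1 r'.2 e)).trans ?_
          norm_num
      have h0 := ha none
      rw [Fintype.sum_option, g1] at h0
      simp only [g2, ← Finset.mul_sum] at h0
      have h1 : ∀ r : R, -2 * a none + ((∑ r, a (some r)) + 3 * a (some r)) = 0 := by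
        intro r
        have h2 := ha (some r)
        rw [Fintype.sum_option, g3] at h2
        simp only [g4, add_mul, one_mul, Finset.sum_add_distrib, ite_mul, zero_mul,
          Finset.sum_ite_eq, Finset.mem_univ, if_true] at h2
        exact h2
      have h2 : ∀ r : R, a (some r) = 0 := by
        intro r
        linear_combination (1 / 3 : ℂ) * h1 r + (1 / 6 : ℂ) * h0
      have h3 : a none = 0 := by
        simp only [h2, Finset.sum_const_zero, mul_zero, add_zero] at h0
        simpa using h0
      funext i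
      rcases i with _ | i
      · exact h3
      · exact h2 i
  rw [Fintype.card_option, Fintype.card_coe] at key
  omega

/-- **Many planes.** -/
theorem IsSm.card_le (h : IsSm T) (hV : finrank ℂ V = 6)
    (hall : ∀ a b : {U : Submodule ℂ V // Pl T U}, a.1 ⊓ b.1 ≠ ⊥)
    (S : Finset {U : Submodule ℂ V // Pl T U}) : S.card ≤ 39 := by
  classical
  have hG := adj_gq h hV hall
  by_cases hadj : ∃ a b, Adj T a b
  · obtain ⟨a, b, hab⟩ := hadj
    obtain ⟨c, hac, hbc⟩ := hG.ex a b hab
    by_cases hall3 : (∃ y, a ≠ y ∧ ¬ Adj T a y) ∧ (∃ y, b ≠ y ∧ ¬ Adj T b y) ∧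
        (∃ y, c ≠ y ∧ ¬ Adj T c y)
    · have := hG.bound hab hac hbc hall3.1 hall3.2.1 hall3.2.2 S
      omega
    · obtain ⟨p, hp⟩ : ∃ p, ∀ y, p ≠ y → Adj T p y := by
        by_contra hcon
        push Not at hcon
        exact hall3 ⟨hcon a, hcon b, hcon c⟩
      -- a maximal family of pairwise nonadjacent planes
      let Q : Finset (Finset {U : Submodule ℂ V // Pl T U}) :=
        (S.erase p).powerset.filter fun R => ∀ a ∈ R, ∀ b ∈ R, ¬ Adj T a b
      have hQ0 : Q.Nonempty := ⟨∅, by simp [Q]⟩
      obtain ⟨R, hRQ, hmax⟩ := Finset.exists_max_image Q Finset.card hQ0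
      rw [Finset.mem_filter, Finset.mem_powerset] at hRQ
      obtain ⟨hRS, hR⟩ := hRQ
      have hpR : ∀ s ∈ S.erase p, Adj T p s := fun s hs => hp s (Ne.symm (Finset.ne_of_mem_erase hs))
      have hR19 := card_le_of_pillar h hV hall R (fun s hs => hpR s (hRS hs)) hR
      have hex : ∀ s, s ∈ S.erase p → ∃ r, r ∈ R ∧ (s = r ∨ Adj T s r) := by
        intro s hs
        by_cases hsR : s ∈ R
        · exact ⟨s, hsR, Or.inl rfl⟩
        · by_contra hcon
          push Not at hcon
          have h1 : insert s R ∈ Q := by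
            rw [Finset.mem_filter, Finset.mem_powerset]
            refine ⟨Finset.insert_subset hs hRS, ?_⟩
            intro x hx y hy
            rw [Finset.mem_insert] at hx hy
            rcases hx with rfl | hx <;> rcases hy with rfl | hy
            · exact hG.irrefl _
            · exact (hcon y hy).2
            · exact fun e => (hcon x hx).2 (hG.symm _ _ e)
            · exact hR x hx y hy
          have h2 := hmax _ h1
          rw [Finset.card_insert_of_notMem hsR] at h2
          omega
      choose! f hf1 hf2 using hex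
      have hfib : ∀ r ∈ (S.erase p).image f, ((S.erase p).filter fun s => f s = r).card ≤ 2 := by
        intro r hr
        obtain ⟨s0, hs0, hsr⟩ := Finset.mem_image.1 hr
        have hrR : r ∈ R := by rw [← hsr]; exact hf1 s0 hs0
        have hpr := hpR r (hRS hrR)
        obtain ⟨d, hd1, hd2⟩ := hG.ex p r hpr
        have hsub : ((S.erase p).filter fun s => f s = r) ⊆ {r, d} := by
          intro s hs
          rw [Finset.mem_filter] at hs
          rw [Finset.mem_insert, Finset.mem_singleton]
          rcases hf2 s hs.1 with h3 | h3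
          · left
            rw [h3, hs.2]
          · right
            rw [hs.2] at h3
            exact hG.uniq p r s d hpr (hpR s hs.1) (hG.symm _ _ h3) hd1 hd2
        exact (Finset.card_le_card hsub).trans Finset.card_le_two
      have h1 := Finset.card_le_mul_card_image (s := S.erase p) (f := f) 2 hfib
      have h2 : ((S.erase p).image f).card ≤ R.card := by
        apply Finset.card_le_card
        intro r hr
        obtain ⟨s0, hs0, hsr⟩ := Finset.mem_image.1 hr
        rw [← hsr]
        exact hf1 s0 hs0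
      have h3 := Finset.pred_card_le_card_erase (s := S) (a := p)
      omega
  · push Not at hadj
    have := card_le_of_not_adj h hV hall S (fun a _ b _ => hadj a b)
    omega

end Vale.Agent.P287.H528
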