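import Mathlib
import Vale.Agent.P287.H528.Many

/-!
# The number of points of a generalised quadrangle with three points per line is odd
-/

namespace Vale.Agent.P287.H528

open Module

namespace GQ

variable {P : Type*} {adj : P → P → Prop}

open Classical in
/-- The number of neighbours of a point is even. -/
theorem even_deg (h : GQ adj) (S : Finset P) (hS : ∀ x, x ∈ S) (p : P) :
    ∑ x ∈ S, (if adj p x then (1 : ZMod 2) else 0) = 0 := by
  choose! g hg1 hg2 using fun x (hx : adj p x) => h.ex p x hx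
  rw [← Finset.sum_filter]
  refine Finset.sum_involution (fun x _ => g x) (fun x hx => ?_) (fun x hx _ => ?_)
    (fun x hx => ?_) (fun x hx => ?_)
  · decide
  · rw [Finset.mem_filter] at hx
    exact (h.ne (hg2 x hx.2)).symm
  · rw [Finset.mem_filter] at hx ⊢
    exact ⟨hS _, hg1 x hx.2⟩
  · rw [Finset.mem_filter] at hx
    have h1 := hg1 x hx.2
    exact h.uniq p (g x) (g (g x)) x h1 (hg1 _ h1) (hg2 _ h1) hx.2 (h.symm _ _ (hg2 x hx.2))

open Classical in
theorem odd_card (h : GQ adj) (S : Finset P) (hS : ∀ x, x ∈ S) {a b : P} (ab : adj a b) :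
    Odd S.card := by
  obtain ⟨c, ac, bc⟩ := h.ex a b ab
  have sy := h.symm
  have key : ∀ x ∈ S, (if adj a x then (1 : ZMod 2) else 0) + (if adj b x then (1 : ZMod 2) else 0)
      + (if adj c x then (1 : ZMod 2) else 0)
      = 1 + (if x = a then 1 else 0) + (if x = b then 1 else 0) + (if x = c then 1 else 0) := by
    intro x _
    by_cases xa : x = a
    · subst xa
      rw [if_neg (h.irrefl x), if_pos (sy _ _ ab), if_pos (sy _ _ ac), if_pos rfl,
        if_neg (h.ne ab), if_neg (h.ne ac)]
      decide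
    by_cases xb : x = b
    · subst xb
      rw [if_neg (h.irrefl x), if_pos ab, if_pos (sy _ _ bc), if_pos rfl,
        if_neg xa, if_neg (h.ne bc)]
      decide
    by_cases xc : x = c
    · subst xc
      rw [if_neg (h.irrefl x), if_pos ac, if_pos bc, if_pos rfl,
        if_neg xa, if_neg xb]
      decide
    rw [if_neg xa, if_neg xb, if_neg xc]
    rcases h.cover a b c x ab ac bc xa xb xc with h1 | h1 | h1
    · have h2 : ¬ adj b x := fun h2 => h.not_both ab ac bc xc h1 (sy _ _ h2)
      have h3 : ¬ adj c x := fun h3 => h.not_both ac ab (sy _ _ bc) xb h1 (sy _ _ h3)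
      rw [if_pos (sy _ _ h1), if_neg h2, if_neg h3]
      decide
    · have h2 : ¬ adj a x := fun h2 => h.not_both ab ac bc xc (sy _ _ h2) h1
      have h3 : ¬ adj c x := fun h3 => h.not_both bc (sy _ _ ab) (sy _ _ ac) xa h1 (sy _ _ h3)
      rw [if_pos (sy _ _ h1), if_neg h2, if_neg h3]
      decide
    · have h2 : ¬ adj a x := fun h2 => h.not_both ac ab (sy _ _ bc) xb (sy _ _ h2) h1
      have h3 : ¬ adj b x := fun h3 => h.not_both bc (sy _ _ ab) (sy _ _ ac) xa (sy _ _ h3) h1
      rw [if_pos (sy _ _ h1), if_neg h2, if_neg h3]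
      decide
  have hsum := Finset.sum_congr rfl key
  simp only [Finset.sum_add_distrib] at hsum
  rw [h.even_deg S hS a, h.even_deg S hS b, h.even_deg S hS c, Finset.sum_ite_eq',
    Finset.sum_ite_eq', Finset.sum_ite_eq', if_pos (hS a), if_pos (hS b), if_pos (hS c),
    Finset.sum_const, nsmul_eq_mul, mul_one] at hsum
  have h1 : ((S.card : ℕ) : ZMod 2) = 1 := by
    have h2 : (0 : ZMod 2) + 0 + 0 - 1 - 1 - 1 = 1 := by decide
    rw [← h2]
    linear_combination -hsum
  rw [← Nat.not_even_iff_odd]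
  intro he
  rw [(ZMod.natCast_eq_zero_iff_even).2 he] at h1
  exact absurd h1 (by decide)

end GQ

variable {V : Type*} [AddCommGroup V] [Module ℂ V] [FiniteDimensional ℂ V]
variable {T : V →ₗ[ℂ] V →ₗ[ℂ] V →ₗ[ℂ] ℂ}

/-- If no two planes of a smooth cubic fourfold are disjoint and the number of planes is even,
then no two planes meet along a line and there are at most twenty planes. -/
theorem IsSm.even_card (h : IsSm T) (hV : finrank ℂ V = 6)
    (hall : ∀ a b : {U : Submodule ℂ V // Pl T U}, a.1 ⊓ b.1 ≠ ⊥)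
    (S : Finset {U : Submodule ℂ V // Pl T U}) (hS : ∀ x, x ∈ S) (he : Even S.card) :
    S.card ≤ 20 ∧ ∀ a b, ¬ Adj T a b := by
  have h1 : ∀ a b, ¬ Adj T a b := fun a b hab =>
    (Nat.not_even_iff_odd.2 ((adj_gq h hV hall).odd_card S hS hab)) he
  exact ⟨card_le_of_not_adj h hV hall S fun a _ b _ => h1 a b, h1⟩

end Vale.Agent.P287.H528
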