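import Mathlib
import Vale.Agent.P287.H528.Parity
import Vale.Agent.P287.H528.Disj

/-!
# Smooth cubic fourfolds containing many planes are rational
-/

open MvPolynomial

namespace Vale.Agent.P287.H528

variable {F : MvPolynomial (Fin 6) ℂ}

theorem IsPlaneIn.pl (hF : IsCubicFourfold F) {U : Submodule ℂ (Fin 6 → ℂ)}
    (hU : IsPlaneIn F U) : Pl (tri ℂ F) U :=
  ⟨hU.1, hU.tri_zero hF⟩

theorem Pl.isPlaneIn (hF : IsCubicFourfold F) {U : Submodule ℂ (Fin 6 → ℂ)}
    (hU : Pl (tri ℂ F) U) : IsPlaneIn F U :=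
  ⟨hU.dim, fun v hv => by
    rw [eval_eq_tri hF.homogeneous]
    exact hU.zero v hv v hv v hv⟩

/-- Either the fourfold is rational or any two of its planes meet. -/
theorem rational_or_meet (hF : IsCubicFourfold F) : IsRationalFourfold F ∨
    ∀ a b : {U : Submodule ℂ (Fin 6 → ℂ) // Pl (tri ℂ F) U}, a.1 ⊓ b.1 ≠ ⊥ := by
  by_cases hall : ∀ a b : {U : Submodule ℂ (Fin 6 → ℂ) // Pl (tri ℂ F) U}, a.1 ⊓ b.1 ≠ ⊥
  · exact Or.inr hall
  · push Not at hall
    obtain ⟨a, b, hab⟩ := hall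
    exact Or.inl (rational_of_disjoint_planes hF (a.2.isPlaneIn hF) (b.2.isPlaneIn hF) hab)

/-- The planes of `S`, as a set of planes of the polar form. -/
noncomputable def toPl (hF : IsCubicFourfold F) (S : Finset (Submodule ℂ (Fin 6 → ℂ)))
    (hS : ∀ U ∈ S, IsPlaneIn F U) :
    Finset {U : Submodule ℂ (Fin 6 → ℂ) // Pl (tri ℂ F) U} :=
  S.attach.map ⟨fun s => ⟨s.1, (hS s.1 s.2).pl hF⟩, fun _ _ hst =>
    Subtype.ext (Subtype.mk.inj hst)⟩

theorem card_toPl (hF : IsCubicFourfold F) (S : Finset (Submodule ℂ (Fin 6 → ℂ)))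
    (hS : ∀ U ∈ S, IsPlaneIn F U) : (toPl hF S hS).card = S.card := by
  rw [toPl, Finset.card_map, Finset.card_attach]

theorem mem_toPl (hF : IsCubicFourfold F) (S : Finset (Submodule ℂ (Fin 6 → ℂ)))
    (hS : ∀ U ∈ S, IsPlaneIn F U) (x : {U : Submodule ℂ (Fin 6 → ℂ) // Pl (tri ℂ F) U}) :
    x ∈ toPl hF S hS ↔ x.1 ∈ S := by
  rw [toPl, Finset.mem_map]
  constructor
  · rintro ⟨s, -, rfl⟩
    exact s.2
  · intro hx
    exact ⟨⟨x.1, hx⟩, Finset.mem_attach _ _, rfl⟩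

/-- At least forty planes. -/
theorem rational_of_forty_planes (hF : IsCubicFourfold F)
    (S : Finset (Submodule ℂ (Fin 6 → ℂ))) (hS : ∀ U ∈ S, IsPlaneIn F U)
    (hc : 40 ≤ S.card) : IsRationalFourfold F := by
  rcases rational_or_meet hF with h | hall
  · exact h
  · have := hF.isSm.card_le (Module.finrank_fin_fun ℂ) hall (toPl hF S hS)
    rw [card_toPl] at this
    omega

/-- At least twenty-eight planes, none of which meets all the others along lines. -/
theorem rational_of_twentyeight_planes (hF : IsCubicFourfold F)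
    (S : Finset (Submodule ℂ (Fin 6 → ℂ))) (hS : ∀ U, U ∈ S ↔ IsPlaneIn F U)
    (hc : 28 ≤ S.card) (hp : ∀ U ∈ S, ∃ U' ∈ S, U ≠ U' ∧
      Module.finrank ℂ (U ⊓ U' : Submodule ℂ (Fin 6 → ℂ)) ≠ 2) : IsRationalFourfold F := by
  rcases rational_or_meet hF with h | hall
  · exact h
  · exfalso
    have hV : Module.finrank ℂ (Fin 6 → ℂ) = 6 := Module.finrank_fin_fun ℂ
    have hG := adj_gq hF.isSm hV hall
    have hp' : ∀ a : {U : Submodule ℂ (Fin 6 → ℂ) // Pl (tri ℂ F) U},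
        ∃ y, a ≠ y ∧ ¬ Adj (tri ℂ F) a y := by
      intro a
      obtain ⟨U', hU', hne, hU2⟩ := hp a.1 ((hS _).2 (a.2.isPlaneIn hF))
      exact ⟨⟨U', ((hS _).1 hU').pl hF⟩, fun e => hne (congrArg Subtype.val e), hU2⟩
    by_cases hadj : ∃ a b, Adj (tri ℂ F) a b
    · obtain ⟨a, b, hab⟩ := hadj
      obtain ⟨c, hac, hbc⟩ := hG.ex a b hab
      have := hG.bound hab hac hbc (hp' a) (hp' b) (hp' c) (toPl hF S fun U hU => (hS U).1 hU)
      rw [card_toPl] at this
      omega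
    · push Not at hadj
      have := card_le_of_not_adj hF.isSm hV hall (toPl hF S fun U hU => (hS U).1 hU)
        (fun a _ b _ => hadj a b)
      rw [card_toPl] at this
      omega

/-- An even number of planes. -/
theorem rational_of_even_planes (hF : IsCubicFourfold F)
    (S : Finset (Submodule ℂ (Fin 6 → ℂ))) (hS : ∀ U, U ∈ S ↔ IsPlaneIn F U)
    (he : Even S.card) (hc : 21 ≤ S.card ∨ ∃ U ∈ S, ∃ U' ∈ S,
      Module.finrank ℂ (U ⊓ U' : Submodule ℂ (Fin 6 → ℂ)) = 2) : IsRationalFourfold F := by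
  rcases rational_or_meet hF with h | hall
  · exact h
  · exfalso
    have hV : Module.finrank ℂ (Fin 6 → ℂ) = 6 := Module.finrank_fin_fun ℂ
    have h1 := hF.isSm.even_card hV hall (toPl hF S fun U hU => (hS U).1 hU)
      (fun x => (mem_toPl _ _ _ _).2 ((hS _).2 (x.2.isPlaneIn hF))) (by rwa [card_toPl])
    rw [card_toPl] at h1
    rcases hc with hc | ⟨U, hU, U', hU', hd⟩
    · omega
    · exact h1.2 ⟨U, ((hS _).1 hU).pl hF⟩ ⟨U', ((hS _).1 hU').pl hF⟩ hd

end Vale.Agent.P287.H528
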